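import Vale.Agent.P271A.Basic

/-! P271A: calculus of the Levi form. -/

open MeasureTheory Filter Topology Set Complex
open scoped ContDiff ENNReal ComplexConjugate

namespace Vale.Agent.P271A

variable {n : ℕ} {Y : Type} [TopologicalSpace Y] [MeasurableSpace Y] {D : RD n Y}
  {φ ψ : Y → ℝ} {y : Y} {v : Fin n → ℂ}

namespace RD

theorem del_const (c : ℝ) : D.del (fun _ => c) y v = 0 := by
  simp [del, dz, dX_const]

theorem levi_const (c : ℝ) : D.levi (fun _ => c) y v = 0 := by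
  have h : ∀ k, D.db k (fun _ => (c : ℂ)) = fun _ => 0 := fun k => funext fun p => dX_const _ p
  simp [levi, h, dz, dX_const]

theorem del_congr (h : φ =ᶠ[𝓝 y] ψ) : D.del φ y v = D.del ψ y v := by
  have h' : (fun p => (φ p : ℂ)) =ᶠ[𝓝 y] fun p => (ψ p : ℂ) :=
    h.mono fun p hp => by simp [hp]
  simp only [del, dz, dX_congr h']

theorem levi_congr (h : φ =ᶠ[𝓝 y] ψ) : D.levi φ y v = D.levi ψ y v := by
  have h' : (fun p => (φ p : ℂ)) =ᶠ[𝓝 y] fun p => (ψ p : ℂ) :=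
    h.mono fun p hp => by simp [hp]
  simp only [levi, dz, db, fun ξ ζ => dX_congr (D := D) (ξ := ξ) (dX_congr_ev (D := D) (ξ := ζ) h')]

theorem del_add (hφ : D.SmR φ) (hψ : D.SmR ψ) :
    D.del (fun p => φ p + ψ p) y v = D.del φ y v + D.del ψ y v := by
  simp only [del, dz, ofReal_add, dX_add hφ hψ, add_mul, Finset.sum_add_distrib]

theorem levi_add (hφ : D.SmR φ) (hψ : D.SmR ψ) :
    D.levi (fun p => φ p + ψ p) y v = D.levi φ y v + D.levi ψ y v := by
  have h : ∀ k, D.db k (fun p => ((φ p + ψ p : ℝ) : ℂ)) =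
      fun p => D.db k (fun p => (φ p : ℂ)) p + D.db k (fun p => (ψ p : ℂ)) p := fun k =>
    funext fun p => by simp only [db, ofReal_add, dX_add hφ hψ]
  simp only [levi, h, dz, fun k ξ => dX_add (ξ := ξ) (Sm.db hφ k) (Sm.db hψ k), add_mul,
    Finset.sum_add_distrib, add_re]

theorem del_const_mul (hφ : D.SmR φ) (c : ℝ) :
    D.del (fun p => c * φ p) y v = c * D.del φ y v := by
  simp only [del, dz, ofReal_mul, dX_const_mul hφ, Finset.mul_sum, mul_assoc]

theorem levi_const_mul (hφ : D.SmR φ) (c : ℝ) :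
    D.levi (fun p => c * φ p) y v = c * D.levi φ y v := by
  have h : ∀ k, D.db k (fun p => ((c * φ p : ℝ) : ℂ)) =
      fun p => c * D.db k (fun p => (φ p : ℂ)) p := fun k =>
    funext fun p => by simp only [db, ofReal_mul, dX_const_mul hφ]
  simp only [levi, h, dz, fun k ξ => dX_const_mul (ξ := ξ) (Sm.db hφ k), mul_assoc,
    ← Finset.mul_sum, re_ofReal_mul]

theorem del_sum {ι : Type*} (s : Finset ι) {F : ι → Y → ℝ} (hF : ∀ i ∈ s, D.SmR (F i)) :
    D.del (fun p => ∑ i ∈ s, F i p) y v = ∑ i ∈ s, D.del (F i) y v := by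
  classical
  induction s using Finset.induction_on with
  | empty => simpa using del_const (D := D) (y := y) (v := v) 0
  | insert a s ha ih =>
    simp only [Finset.sum_insert ha]
    rw [del_add (hF a (by simp)) (SmR.sum s fun i hi => hF i (by simp [hi])),
      ih fun i hi => hF i (by simp [hi])]

theorem levi_sum {ι : Type*} (s : Finset ι) {F : ι → Y → ℝ} (hF : ∀ i ∈ s, D.SmR (F i)) :
    D.levi (fun p => ∑ i ∈ s, F i p) y v = ∑ i ∈ s, D.levi (F i) y v := by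
  classical
  induction s using Finset.induction_on with
  | empty => simpa using levi_const (D := D) (y := y) (v := v) 0
  | insert a s ha ih =>
    simp only [Finset.sum_insert ha]
    rw [levi_add (hF a (by simp)) (SmR.sum s fun i hi => hF i (by simp [hi])),
      ih fun i hi => hF i (by simp [hi])]

theorem del_comp (hφ : D.SmR φ) {χ : ℝ → ℝ} {c : ℝ} (hχ : HasDerivAt χ c (φ y)) :
    D.del (fun p => χ (φ p)) y v = c * D.del φ y v := by
  simp only [del, dz, dX_comp hφ hχ, Finset.mul_sum, mul_assoc]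

theorem levi_comp (hφ : D.SmR φ) {χ : ℝ → ℝ} (hχ : ∀ p, ContDiffAt ℝ ∞ χ (φ p)) :
    D.levi (fun p => χ (φ p)) y v =
      deriv χ (φ y) * D.levi φ y v + deriv (deriv χ) (φ y) * ‖D.del φ y v‖ ^ 2 := by
  have hd : ∀ p, ContDiffAt ℝ ∞ (deriv χ) (φ p) := fun p => by
    have h1 : ContDiffAt ℝ ∞ (fderiv ℝ χ) (φ p) := (hχ p).fderiv_right (m := ∞) (by simp)
    exact h1.clm_apply (g := fun _ => 1) contDiffAt_const
  have h1 : ∀ p, HasDerivAt χ (deriv χ (φ p)) (φ p) := fun p =>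
    ((hχ p).differentiableAt (by simp)).hasDerivAt
  have h2 : HasDerivAt (deriv χ) (deriv (deriv χ) (φ y)) (φ y) :=
    ((hd y).differentiableAt (by simp)).hasDerivAt
  have h : ∀ k, D.db k (fun p => ((χ (φ p) : ℝ) : ℂ)) =
      fun p => ((deriv χ (φ p) : ℝ) : ℂ) * D.db k (fun p => (φ p : ℂ)) p := fun k =>
    funext fun p => dX_comp hφ (h1 p)
  have h3 : ∀ j k, D.dz j (D.db k fun p => ((χ (φ p) : ℝ) : ℂ)) y =
      deriv χ (φ y) * D.dz j (D.db k fun p => (φ p : ℂ)) y +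
        deriv (deriv χ) (φ y) *
          (D.dz j (fun p => (φ p : ℂ)) y * conj (D.dz k (fun p => (φ p : ℂ)) y)) := by
    intro j k
    rw [h, conj_dz_real]
    simp only [dz]
    rw [dX_mul (hφ.comp hd) (Sm.db hφ k), dX_comp hφ h2]
    ring
  have h4 : ((‖D.del φ y v‖ ^ 2 : ℝ) : ℂ) = ∑ j, ∑ k, D.dz j (fun p => (φ p : ℂ)) y *
      conj (D.dz k (fun p => (φ p : ℂ)) y) * v j * conj (v k) := by
    push_cast
    rw [← mul_conj', del, map_sum, Finset.sum_mul_sum]
    refine Finset.sum_congr rfl fun j _ => Finset.sum_congr rfl fun k _ => ?_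
    rw [map_mul]; ring
  have h5 : ∑ j, ∑ k, D.dz j (D.db k fun p => ((χ (φ p) : ℝ) : ℂ)) y * v j * conj (v k) =
      deriv χ (φ y) * (∑ j, ∑ k, D.dz j (D.db k fun p => (φ p : ℂ)) y * v j * conj (v k)) +
        ((deriv (deriv χ) (φ y) * ‖D.del φ y v‖ ^ 2 : ℝ) : ℂ) := by
    rw [ofReal_mul, h4]
    simp only [h3, Finset.mul_sum, ← Finset.sum_add_distrib]
    refine Finset.sum_congr rfl fun j _ => Finset.sum_congr rfl fun k _ => ?_
    ring
  rw [levi, h5, add_re, re_ofReal_mul, ofReal_re, levi]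

/-- The same with explicit first and second derivatives. -/
theorem levi_comp' (hφ : D.SmR φ) {χ χ₁ : ℝ → ℝ} {c : ℝ} (hχ : ∀ p, ContDiffAt ℝ ∞ χ (φ p))
    (h₁ : ∀ᶠ t in 𝓝 (φ y), HasDerivAt χ (χ₁ t) t) (h₂ : HasDerivAt χ₁ c (φ y)) :
    D.levi (fun p => χ (φ p)) y v = χ₁ (φ y) * D.levi φ y v + c * ‖D.del φ y v‖ ^ 2 := by
  have e : deriv χ =ᶠ[𝓝 (φ y)] χ₁ := h₁.mono fun t ht => ht.deriv
  rw [levi_comp hφ hχ, e.eq_of_nhds, e.deriv_eq, h₂.deriv]

theorem levi_exp (hφ : D.SmR φ) :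
    D.levi (fun p => Real.exp (φ p)) y v =
      Real.exp (φ y) * (D.levi φ y v + ‖D.del φ y v‖ ^ 2) := by
  rw [levi_comp' hφ (fun _ => Real.contDiff_exp.contDiffAt)
    (Eventually.of_forall Real.hasDerivAt_exp) (Real.hasDerivAt_exp _)]
  ring

theorem levi_exp_neg (hφ : D.SmR φ) :
    D.levi (fun p => Real.exp (-φ p)) y v =
      Real.exp (-φ y) * (‖D.del φ y v‖ ^ 2 - D.levi φ y v) := by
  have e : (fun p => -φ p) = fun p => (-1) * φ p := funext fun p => by ring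
  have h1 : D.levi (fun p => -φ p) y v = -D.levi φ y v := by
    rw [e, levi_const_mul hφ]; ring
  have h2 : ‖D.del (fun p => -φ p) y v‖ = ‖D.del φ y v‖ := by
    rw [e, del_const_mul hφ]; simp
  rw [levi_exp hφ.neg, h1, h2]
  ring

theorem levi_log (hφ : D.SmR φ) (h0 : ∀ p, 0 < φ p) :
    D.levi (fun p => Real.log (φ p)) y v =
      D.levi φ y v / φ y - ‖D.del φ y v‖ ^ 2 / φ y ^ 2 := by
  have h1 : ∀ᶠ t in 𝓝 (φ y), HasDerivAt Real.log t⁻¹ t :=
    (lt_mem_nhds (h0 y)).mono fun t ht => Real.hasDerivAt_log ht.ne'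
  rw [levi_comp' hφ (fun p => Real.contDiffAt_log.2 (h0 p).ne') h1 (hasDerivAt_inv (h0 y).ne')]
  ring

theorem del_normSq {f : Y → ℂ} (hf : D.Hol f) :
    D.del (fun p => ‖f p‖ ^ 2) y v = conj (f y) * ∑ j, D.dz j f y * v j := by
  have e : (fun p => ((‖f p‖ ^ 2 : ℝ) : ℂ)) = fun p => f p * conj (f p) :=
    funext fun p => by rw [mul_conj']; push_cast; rfl
  rw [del, e, Finset.mul_sum]
  refine Finset.sum_congr rfl fun j _ => ?_
  have := hf.dz_conj j y
  rw [dz] at this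
  rw [dz, dX_mul hf.sm hf.sm.conj, this, dz]
  ring

theorem levi_normSq {f : Y → ℂ} (hf : D.Hol f) :
    D.levi (fun p => ‖f p‖ ^ 2) y v = ‖∑ j, D.dz j f y * v j‖ ^ 2 := by
  have e : (fun p => ((‖f p‖ ^ 2 : ℝ) : ℂ)) = fun p => f p * conj (f p) :=
    funext fun p => by rw [mul_conj']; push_cast; rfl
  have h : ∀ k, D.db k (fun p => f p * conj (f p)) = fun p => f p * conj (D.dz k f p) := fun k =>
    funext fun p => by
      have := hf.db k p
      rw [db] at this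
      rw [conj_dz, db, dX_mul hf.sm hf.sm.conj, this, db]
      ring
  have h3 : ∀ j k, D.dz j (fun p => f p * conj (D.dz k f p)) y =
      D.dz j f y * conj (D.dz k f y) := by
    intro j k
    have := (hf.dz k).dz_conj j y
    rw [dz] at this
    rw [dz, dX_mul hf.sm (hf.sm.dz k).conj, this, mul_zero, add_zero]
    rfl
  have h4 : ((‖∑ j, D.dz j f y * v j‖ ^ 2 : ℝ) : ℂ) =
      ∑ j, ∑ k, D.dz j f y * conj (D.dz k f y) * v j * conj (v k) := by
    push_cast
    rw [← mul_conj', map_sum, Finset.sum_mul_sum]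
    refine Finset.sum_congr rfl fun j _ => Finset.sum_congr rfl fun k _ => ?_
    rw [map_mul]; ring
  simp only [levi, e, h, h3]
  rw [← h4, ofReal_re]

/-- The logarithm of a sum of squares of holomorphic functions is plurisubharmonic. -/
theorem levi_log_sum_nonneg {ι : Type*} (s : Finset ι) {F : ι → Y → ℂ}
    (hF : ∀ i ∈ s, D.Hol (F i)) {η : ℝ} (hη : 0 ≤ η)
    (h0 : ∀ p, 0 < ∑ i ∈ s, ‖F i p‖ ^ 2 + η) :
    0 ≤ D.levi (fun p => Real.log (∑ i ∈ s, ‖F i p‖ ^ 2 + η)) y v := by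
  have hs : ∀ i ∈ s, D.SmR fun p => ‖F i p‖ ^ 2 := fun i hi => (hF i hi).sm.normSq
  have hS := SmR.sum s hs
  have hc : D.SmR fun _ => η := sm_const _
  rw [levi_log (hS.add hc) h0, levi_add hS hc, del_add hS hc, levi_const, del_const,
    levi_sum s hs, del_sum s hs, add_zero, add_zero,
    Finset.sum_congr rfl fun i hi => levi_normSq (hF i hi),
    Finset.sum_congr rfl fun i hi => del_normSq (hF i hi)]
  set a : ι → ℂ := fun i => ∑ j, D.dz j (F i) y * v j
  have h1 : ‖∑ i ∈ s, conj (F i y) * a i‖ ≤ ∑ i ∈ s, ‖F i y‖ * ‖a i‖ := by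
    refine (norm_sum_le _ _).trans (le_of_eq (Finset.sum_congr rfl fun i _ => ?_))
    rw [norm_mul, RCLike.norm_conj]
  have h2 := Finset.sum_mul_sq_le_sq_mul_sq s (fun i => ‖F i y‖) fun i => ‖a i‖
  have h3 : ‖∑ i ∈ s, conj (F i y) * a i‖ ^ 2 ≤
      (∑ i ∈ s, ‖F i y‖ ^ 2 + η) * ∑ i ∈ s, ‖a i‖ ^ 2 := by
    have h4 : 0 ≤ ∑ i ∈ s, ‖a i‖ ^ 2 := Finset.sum_nonneg fun i _ => sq_nonneg _
    have h5 := pow_le_pow_left₀ (norm_nonneg _) h1 2
    nlinarith [mul_nonneg hη h4]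
  have h6 := h0 y
  rw [sub_nonneg, div_le_div_iff₀ (by positivity) h6]
  nlinarith [mul_le_mul_of_nonneg_right h3 h6.le]

/-- The logarithm of the square norm of a zero free holomorphic function is pluriharmonic. -/
theorem levi_log_normSq {f : Y → ℂ} (hf : D.Hol f) (h0 : ∀ p, f p ≠ 0) :
    D.levi (fun p => Real.log (‖f p‖ ^ 2)) y v = 0 := by
  have h1 : ∀ p, 0 < ‖f p‖ ^ 2 := fun p => pow_pos (norm_pos_iff.2 (h0 p)) 2
  rw [levi_log hf.sm.normSq h1, levi_normSq hf, del_normSq hf, norm_mul, RCLike.norm_conj]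
  have := (norm_pos_iff.2 (h0 y)).ne'
  field_simp
  ring

theorem norm_del_sq_le : ‖D.del φ y v‖ ^ 2 ≤
    (∑ j, ‖D.dz j (fun p => (φ p : ℂ)) y‖ ^ 2) * ∑ j, ‖v j‖ ^ 2 := by
  have h1 : ‖D.del φ y v‖ ≤ ∑ j, ‖D.dz j (fun p => (φ p : ℂ)) y‖ * ‖v j‖ := by
    refine (norm_sum_le _ _).trans (le_of_eq (Finset.sum_congr rfl fun i _ => norm_mul _ _))
  exact (pow_le_pow_left₀ (norm_nonneg _) h1 2).trans
    (Finset.sum_mul_sq_le_sq_mul_sq _ _ _)

theorem levi_single (j : Fin n) :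
    D.levi φ y (Pi.single j 1) = (D.dz j (D.db j fun p => (φ p : ℂ)) y).re := by
  simp [levi, Pi.single_apply, apply_ite]

theorem del_single (j : Fin n) :
    D.del φ y (Pi.single j 1) = D.dz j (fun p => (φ p : ℂ)) y := by
  simp [del, Pi.single_apply]

theorem continuous_Theta {τ A : Y → ℝ} (hφ : D.SmR φ) (hτ : D.SmR τ) (hA : Continuous A)
    (hA0 : ∀ p, 0 < A p) {α : Fin n → Y → ℂ} (hα : ∀ j, Continuous (α j)) :
    Continuous fun p => D.Theta φ τ A p fun j => α j p := by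
  have h1 : ∀ {θ : Y → ℝ}, D.SmR θ → Continuous fun p => D.levi θ p fun j => α j p :=
    fun hθ => continuous_re.comp (continuous_finsetSum _ fun j _ => continuous_finsetSum _
      fun k _ => ((((Sm.db hθ k).dz j).continuous).mul (hα j)).mul
        (continuous_conj.comp (hα k)))
  have h2 : Continuous fun p => D.del τ p fun j => α j p :=
    continuous_finsetSum _ fun j _ => (Sm.dz hτ j).continuous.mul (hα j)
  exact ((hτ.continuous.mul (h1 hφ)).sub (h1 hτ)).sub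
    ((h2.norm.pow 2).div hA fun p => (hA0 p).ne')

theorem Theta_zero (φ τ A : Y → ℝ) (y : Y) : D.Theta φ τ A y 0 = 0 := by
  simp [Theta, levi, del]

end RD

end Vale.Agent.P271A
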