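import Vale.Agent.P271A.Part
import Vale.Agent.P271A.Levi

/-! P271A: the twisted Bochner-Kodaira-Morrey-Hoermander inequality. -/

open MeasureTheory Filter Topology Set Complex
open scoped ContDiff ENNReal ComplexConjugate

namespace Vale.Agent.P271A

theorem ap_alg {n : ℕ} (a ab φ1 φb τ1 τb pb : Fin n → ℂ) (q qb φ2 τ2 r : Fin n → Fin n → ℂ)
    (e τ S T : ℂ) :
    ∑ k, ((-(e * φb k) * (S - τ * T) + e * ((∑ j, (τ2 j k * a j + τ1 j * q k j)) -
        (τb k * T + τ * ∑ j, (φ2 j k * a j + φ1 j * q k j - r j k)))) * ab k +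
        e * (S - τ * T) * pb k) -
      ∑ j, ((-(e * φ1 j) * τ + e * τ1 j) * ∑ k, q k j * ab k +
        e * τ * ∑ k, (r j k * ab k + q k j * qb j k)) =
      e * (τ * (T * ∑ k, (φb k * ab k - pb k)) - S * ∑ k, (φb k * ab k - pb k) -
        (∑ k, τb k * ab k) * T - τ * ∑ j, ∑ k, φ2 j k * a j * ab k +
        ∑ j, ∑ k, τ2 j k * a j * ab k - τ * ∑ j, ∑ k, q k j * qb j k) := by
  have h1 : ∑ k, ((-(e * φb k) * (S - τ * T) + e * ((∑ j, (τ2 j k * a j + τ1 j * q k j)) -
        (τb k * T + τ * ∑ j, (φ2 j k * a j + φ1 j * q k j - r j k)))) * ab k +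
        e * (S - τ * T) * pb k) =
      -(e * (S - τ * T)) * ∑ k, (φb k * ab k - pb k) - e * T * ∑ k, τb k * ab k +
        e * ∑ k, (∑ j, (τ2 j k * a j + τ1 j * q k j)) * ab k -
        e * τ * ∑ k, (∑ j, (φ2 j k * a j + φ1 j * q k j - r j k)) * ab k := by
    rw [Finset.mul_sum, Finset.mul_sum, Finset.mul_sum, Finset.mul_sum, ← Finset.sum_sub_distrib,
      ← Finset.sum_add_distrib, ← Finset.sum_sub_distrib]
    exact Finset.sum_congr rfl fun k _ => by ring
  have h2 : ∑ k, (∑ j, (τ2 j k * a j + τ1 j * q k j)) * ab k =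
      ∑ j, ∑ k, τ2 j k * a j * ab k + ∑ j, τ1 j * ∑ k, q k j * ab k := by
    simp only [Finset.sum_mul, Finset.mul_sum]
    rw [Finset.sum_comm, ← Finset.sum_add_distrib]
    refine Finset.sum_congr rfl fun j _ => ?_
    rw [← Finset.sum_add_distrib]
    exact Finset.sum_congr rfl fun k _ => by ring
  have h3 : ∑ k, (∑ j, (φ2 j k * a j + φ1 j * q k j - r j k)) * ab k =
      ∑ j, ∑ k, φ2 j k * a j * ab k + ∑ j, φ1 j * ∑ k, q k j * ab k -
        ∑ j, ∑ k, r j k * ab k := by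
    simp only [Finset.sum_mul, Finset.mul_sum]
    rw [Finset.sum_comm, ← Finset.sum_add_distrib, ← Finset.sum_sub_distrib]
    refine Finset.sum_congr rfl fun j _ => ?_
    rw [← Finset.sum_add_distrib, ← Finset.sum_sub_distrib]
    exact Finset.sum_congr rfl fun k _ => by ring
  have h4 : ∑ j, ((-(e * φ1 j) * τ + e * τ1 j) * ∑ k, q k j * ab k +
        e * τ * ∑ k, (r j k * ab k + q k j * qb j k)) =
      -(e * τ) * ∑ j, φ1 j * ∑ k, q k j * ab k + e * ∑ j, τ1 j * ∑ k, q k j * ab k +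
        e * τ * ∑ j, ∑ k, r j k * ab k + e * τ * ∑ j, ∑ k, q k j * qb j k := by
    rw [Finset.mul_sum Finset.univ _ (-(e * τ)), Finset.mul_sum Finset.univ _ e,
      Finset.mul_sum Finset.univ (fun j => ∑ k, r j k * ab k),
      Finset.mul_sum Finset.univ (fun j => ∑ k, q k j * qb j k),
      ← Finset.sum_add_distrib, ← Finset.sum_add_distrib, ← Finset.sum_add_distrib]
    refine Finset.sum_congr rfl fun j _ => ?_
    rw [Finset.sum_add_distrib]
    ring
  rw [h1, h2, h3, h4]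
  ring

theorem ap_re (x y : ℂ) : -(2 * (x * conj y).re) ≤ ‖y - x‖ ^ 2 := by
  rw [Complex.sq_norm, Complex.normSq_apply]
  simp only [mul_re, conj_re, conj_im, sub_re, sub_im]
  nlinarith [sq_nonneg x.re, sq_nonneg x.im, sq_nonneg y.re, sq_nonneg y.im]

theorem ap_re2 (x y : ℂ) {A : ℝ} (hA : 0 < A) :
    -(2 * (x * conj y).re) ≤ ‖x‖ ^ 2 / A + A * ‖y‖ ^ 2 := by
  have h1 : -(x * conj y).re ≤ ‖x‖ * ‖y‖ := by
    have h2 := abs_re_le_norm (x * conj y)
    rw [norm_mul, norm_conj] at h2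
    linarith [neg_abs_le (x * conj y).re]
  have h3 : 2 * (‖x‖ * ‖y‖) ≤ ‖x‖ ^ 2 / A + A * ‖y‖ ^ 2 := by
    rw [div_add' _ _ _ hA.ne', le_div_iff₀ hA]
    nlinarith [sq_nonneg (‖x‖ - A * ‖y‖)]
  linarith

theorem ap_final {e τ A : ℝ} (he : 0 ≤ e) (hτ : 0 ≤ τ) (hA : 0 < A) (S T L1 L2 Q : ℂ) {d : ℝ}
    (hd : -Q.re ≤ d) :
    (τ * L1.re - L2.re - ‖S‖ ^ 2 / A) * e ≤ τ * d * e + (τ + A) * ‖T‖ ^ 2 * e -
      ((e : ℂ) * (τ * (T * conj T) - S * conj T - conj S * T - τ * L1 + L2 - τ * Q)).re := by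
  have h1 := ap_re2 S T hA
  have h2 : (T * conj T).re = ‖T‖ ^ 2 := by
    rw [mul_conj', ← ofReal_pow, ofReal_re]
  have h3 : (conj S * T).re = (S * conj T).re := by
    simp only [mul_re, conj_re, conj_im]
    ring
  simp only [re_ofReal_mul, sub_re, add_re, h2, h3]
  have h4 := mul_le_mul_of_nonneg_left hd hτ
  have h5 : τ * L1.re - L2.re - ‖S‖ ^ 2 / A ≤ τ * d + (τ + A) * ‖T‖ ^ 2 -
      (τ * ‖T‖ ^ 2 - (S * conj T).re - (S * conj T).re - τ * L1.re + L2.re - τ * Q.re) := by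
    linarith
  have h6 := mul_le_mul_of_nonneg_right h5 he
  linarith

variable {n : ℕ} {Y : Type} [TopologicalSpace Y] [T2Space Y] [SecondCountableTopology Y]
  [MeasurableSpace Y] [BorelSpace Y] {D : RD n Y}

namespace RD

omit [T2Space Y] [SecondCountableTopology Y] [BorelSpace Y] in
theorem ap_dbSq (α : Fin n → Y → ℂ) (y : Y) :
    -(∑ j, ∑ k, D.db k (α j) y * conj (D.db j (α k) y)).re ≤ D.dbSq α y := by
  unfold dbSq
  rw [re_sum, le_div_iff₀ (by norm_num : (0 : ℝ) < 2), ← Finset.sum_neg_distrib, Finset.sum_mul]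
  refine Finset.sum_le_sum fun j _ => ?_
  rw [re_sum, ← Finset.sum_neg_distrib, Finset.sum_mul]
  refine Finset.sum_le_sum fun k _ => ?_
  linarith [ap_re (D.db k (α j) y) (D.db j (α k) y)]

omit [T2Space Y] [SecondCountableTopology Y] [BorelSpace Y] in
theorem ap_ident {φ τ : Y → ℝ} (hφ : D.SmR φ) (hτ : D.SmR τ) {α : Fin n → Y → ℂ}
    (hα : ∀ j, D.Sm (α j)) (y : Y) :
    ∑ k, D.db k (fun p => (Real.exp (-φ p) : ℂ) *
        (D.del τ p (fun j => α j p) - τ p * D.Ts φ α p) * conj (α k p)) y -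
      ∑ j, D.dz j (fun p => (Real.exp (-φ p) : ℂ) * τ p *
        ∑ k, D.db k (α j) p * conj (α k p)) y =
      (Real.exp (-φ y) : ℂ) * (τ y * (D.Ts φ α y * conj (D.Ts φ α y)) -
        D.del τ y (fun j => α j y) * conj (D.Ts φ α y) -
        conj (D.del τ y (fun j => α j y)) * D.Ts φ α y -
        τ y * ∑ j, ∑ k, D.dz j (D.db k fun p => (φ p : ℂ)) y * α j y * conj (α k y) +
        ∑ j, ∑ k, D.dz j (D.db k fun p => (τ p : ℂ)) y * α j y * conj (α k y) -
        τ y * ∑ j, ∑ k, D.db k (α j) y * conj (D.db j (α k) y)) := by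
  have he : D.Sm fun p => (Real.exp (-φ p) : ℂ) := hφ.neg.exp
  have hτ' : D.Sm fun p => (τ p : ℂ) := hτ
  have hφ' : D.Sm fun p => (φ p : ℂ) := hφ
  have hS : D.Sm fun p => D.del τ p (fun j => α j p) :=
    Sm.sum _ fun j _ => (hτ'.dz j).mul (hα j)
  have hT : D.Sm (D.Ts φ α) :=
    Sm.sum _ fun j _ => ((hφ'.dz j).mul (hα j)).sub ((hα j).dz j)
  have hcomm : ∀ {f : Y → ℂ}, D.Sm f → ∀ j k, D.dX (bv k) (D.dz j f) y = D.dz j (D.db k f) y :=
    fun hf j k => dX_comm hf y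
  have dS : ∀ k, D.dX (bv k) (fun p => D.del τ p (fun j => α j p)) y =
      ∑ j, (D.dz j (D.db k fun p => (τ p : ℂ)) y * α j y +
        D.dz j (fun p => (τ p : ℂ)) y * D.db k (α j) y) := by
    intro k
    unfold del
    rw [dX_sum _ fun j _ => (hτ'.dz j).mul (hα j)]
    refine Finset.sum_congr rfl fun j _ => ?_
    rw [dX_mul (hτ'.dz j) (hα j), hcomm hτ']
    rfl
  have dT : ∀ k, D.dX (bv k) (D.Ts φ α) y =
      ∑ j, (D.dz j (D.db k fun p => (φ p : ℂ)) y * α j y +
        D.dz j (fun p => (φ p : ℂ)) y * D.db k (α j) y - D.dz j (D.db k (α j)) y) := by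
    intro k
    have e : D.Ts φ α = fun p =>
        ∑ j, (D.dz j (fun p => (φ p : ℂ)) p * α j p - D.dz j (α j) p) := rfl
    rw [e, dX_sum _ fun j _ => ((hφ'.dz j).mul (hα j)).sub ((hα j).dz j)]
    refine Finset.sum_congr rfl fun j _ => ?_
    rw [dX_sub ((hφ'.dz j).mul (hα j)) ((hα j).dz j), dX_mul (hφ'.dz j) (hα j), hcomm hφ',
      hcomm (hα j)]
    rfl
  have dV : ∀ k, D.db k (fun p => (Real.exp (-φ p) : ℂ) *
        (D.del τ p (fun j => α j p) - τ p * D.Ts φ α p) * conj (α k p)) y =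
      (-((Real.exp (-φ y) : ℂ) * D.db k (fun p => (φ p : ℂ)) y) *
          (D.del τ y (fun j => α j y) - τ y * D.Ts φ α y) +
        (Real.exp (-φ y) : ℂ) * ((∑ j, (D.dz j (D.db k fun p => (τ p : ℂ)) y * α j y +
          D.dz j (fun p => (τ p : ℂ)) y * D.db k (α j) y)) -
        (D.db k (fun p => (τ p : ℂ)) y * D.Ts φ α y +
          τ y * ∑ j, (D.dz j (D.db k fun p => (φ p : ℂ)) y * α j y +
            D.dz j (fun p => (φ p : ℂ)) y * D.db k (α j) y - D.dz j (D.db k (α j)) y)))) *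
          conj (α k y) + (Real.exp (-φ y) : ℂ) *
          (D.del τ y (fun j => α j y) - τ y * D.Ts φ α y) * conj (D.dz k (α k) y) := by
    intro k
    rw [conj_dz, db, dX_mul (he.mul (hS.sub (hτ'.mul hT))) (hα k).conj,
      dX_mul he (hS.sub (hτ'.mul hT)), dX_sub hS (hτ'.mul hT), dX_mul hτ' hT, dX_exp_neg hφ,
      dS, dT]
    rfl
  have dW : ∀ j, D.dz j (fun p => (Real.exp (-φ p) : ℂ) * τ p *
        ∑ k, D.db k (α j) p * conj (α k p)) y =
      (-((Real.exp (-φ y) : ℂ) * D.dz j (fun p => (φ p : ℂ)) y) * τ y +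
        (Real.exp (-φ y) : ℂ) * D.dz j (fun p => (τ p : ℂ)) y) *
          ∑ k, D.db k (α j) y * conj (α k y) +
        (Real.exp (-φ y) : ℂ) * τ y * ∑ k, (D.dz j (D.db k (α j)) y * conj (α k y) +
          D.db k (α j) y * conj (D.db j (α k) y)) := by
    intro j
    have h1 : ∀ k, D.Sm fun p => D.db k (α j) p * conj (α k p) :=
      fun k => ((hα j).db k).mul (hα k).conj
    have h2 : ∀ k, D.dX (zv j) (fun p => D.db k (α j) p * conj (α k p)) y =
        D.dz j (D.db k (α j)) y * conj (α k y) + D.db k (α j) y * conj (D.db j (α k) y) := by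
      intro k
      rw [dX_mul ((hα j).db k) (hα k).conj, conj_db]
      rfl
    rw [dz, dX_mul (he.mul hτ') (Sm.sum _ fun k _ => h1 k), dX_mul he hτ', dX_exp_neg hφ,
      dX_sum _ fun k _ => h1 k]
    simp only [h2]
    rfl
  have cT : conj (D.Ts φ α y) =
      ∑ k, (D.db k (fun p => (φ p : ℂ)) y * conj (α k y) - conj (D.dz k (α k) y)) := by
    unfold Ts
    rw [map_sum]
    refine Finset.sum_congr rfl fun k _ => ?_
    rw [map_sub, map_mul, conj_dz_real]
  have cS : conj (D.del τ y (fun j => α j y)) =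
      ∑ k, D.db k (fun p => (τ p : ℂ)) y * conj (α k y) := by
    unfold del
    rw [map_sum]
    refine Finset.sum_congr rfl fun k _ => ?_
    rw [map_mul, conj_dz_real]
  simp only [dV, dW]
  rw [cT, cS]
  exact ap_alg (fun j => α j y) (fun k => conj (α k y)) (fun j => D.dz j (fun p => (φ p : ℂ)) y)
    (fun k => D.db k (fun p => (φ p : ℂ)) y) (fun j => D.dz j (fun p => (τ p : ℂ)) y)
    (fun k => D.db k (fun p => (τ p : ℂ)) y) (fun k => conj (D.dz k (α k) y))
    (fun k j => D.db k (α j) y) (fun j k => conj (D.db j (α k) y))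
    (fun j k => D.dz j (D.db k fun p => (φ p : ℂ)) y)
    (fun j k => D.dz j (D.db k fun p => (τ p : ℂ)) y) (fun j k => D.dz j (D.db k (α j)) y)
    _ _ _ _

theorem apriori {φ τ A : Y → ℝ} (hφ : D.SmR φ) (hτ : D.SmR τ) (hA : Continuous A)
    (hτ0 : ∀ y, 0 ≤ τ y) (hA0 : ∀ y, 0 < A y) {α : Fin n → Y → ℂ} (hα : ∀ j, D.Test (α j)) :
    ∫ y, D.Theta φ τ A y (fun j => α j y) * Real.exp (-φ y) ∂D.μ ≤
      ∫ y, τ y * D.dbSq α y * Real.exp (-φ y) ∂D.μ +
        ∫ y, (τ y + A y) * ‖D.Ts φ α y‖ ^ 2 * Real.exp (-φ y) ∂D.μ := by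
  have he : D.Sm fun p => (Real.exp (-φ p) : ℂ) := hφ.neg.exp
  have hτ' : D.Sm fun p => (τ p : ℂ) := hτ
  have hS : D.Sm fun p => D.del τ p (fun j => α j p) :=
    Sm.sum _ fun j _ => (hτ'.dz j).mul (hα j).1
  have hT : D.Test (D.Ts φ α) := Test.Ts hφ hα
  have hV : ∀ k, D.Test fun p => (Real.exp (-φ p) : ℂ) *
      (D.del τ p (fun j => α j p) - τ p * D.Ts φ α p) * conj (α k p) := fun k =>
    (he.mul (hS.sub (hτ'.mul hT.1))).mul_test (hα k).conj
  have hW : ∀ j, D.Test fun p => (Real.exp (-φ p) : ℂ) * τ p *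
      ∑ k, D.db k (α j) p * conj (α k p) := fun j =>
    (he.mul hτ').mul_test (Test.sum _ fun k _ => ((hα j).db k).mul (hα k).1.conj)
  obtain ⟨R, hR⟩ : ∃ R : Y → ℂ, R = fun y => ∑ k, D.db k (fun p => (Real.exp (-φ p) : ℂ) *
        (D.del τ p (fun j => α j p) - τ p * D.Ts φ α p) * conj (α k p)) y -
      ∑ j, D.dz j (fun p => (Real.exp (-φ p) : ℂ) * τ p *
        ∑ k, D.db k (α j) p * conj (α k p)) y := ⟨_, rfl⟩
  have t1 := Test.sum Finset.univ fun k _ => (hV k).db k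
  have t2 := Test.sum Finset.univ fun j _ => (hW j).dz j
  have hRi : Integrable R D.μ := by
    rw [hR]
    exact (t1.sub t2).integrable
  have hR0 : ∫ y, R y ∂D.μ = 0 := by
    rw [hR, integral_sub t1.integrable t2.integrable,
      integral_finsetSum _ fun k _ => ((hV k).db k).integrable,
      integral_finsetSum _ fun j _ => ((hW j).dz j).integrable]
    exact sub_eq_zero.2 ((Finset.sum_eq_zero fun k _ => integral_dX (ξ := bv k) (hV k)).trans
      (Finset.sum_eq_zero fun j _ => integral_dX (ξ := zv j) (hW j)).symm)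
  have hRr : Integrable (fun y => (R y).re) D.μ := hRi.re
  have hRr0 : ∫ y, (R y).re ∂D.μ = 0 := by
    have := reCLM.integral_comp_comm hRi
    simp only [reCLM_apply] at this
    rw [this, hR0, zero_re]
  have hK : IsCompact (⋃ j, tsupport (α j)) := isCompact_iUnion fun j => (hα j).2
  have hce : Continuous fun y => Real.exp (-φ y) := Real.continuous_exp.comp hφ.continuous.neg
  have hcτ := hτ.continuous
  have i1 : Integrable (fun y => D.Theta φ τ A y (fun j => α j y) * Real.exp (-φ y)) D.μ := by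
    refine Continuous.integrable_of_hasCompactSupport
      ((continuous_Theta hφ hτ hA hA0 fun j => (hα j).continuous).mul hce)
      (HasCompactSupport.intro hK fun y hy => ?_)
    have h0 : (fun j => α j y) = 0 := funext fun j =>
      image_eq_zero_of_notMem_tsupport fun h => hy (mem_iUnion.2 ⟨j, h⟩)
    rw [h0, Theta_zero, zero_mul]
  have i2 : Integrable (fun y => τ y * D.dbSq α y * Real.exp (-φ y)) D.μ := by
    have c1 : Continuous (D.dbSq α) := by
      unfold dbSq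
      refine Continuous.div_const (continuous_finsetSum _ fun j _ =>
        continuous_finsetSum _ fun k _ => ?_) 2
      exact (((hα k).db j).continuous.sub ((hα j).db k).continuous).norm.pow 2
    refine Continuous.integrable_of_hasCompactSupport ((hcτ.mul c1).mul hce)
      (HasCompactSupport.intro hK fun y hy => ?_)
    have h0 : ∀ j k, D.db j (α k) y = 0 := fun j k =>
      dX_of_notMem fun h => hy (mem_iUnion.2 ⟨k, h⟩)
    simp [dbSq, h0]
  have i3 : Integrable (fun y => (τ y + A y) * ‖D.Ts φ α y‖ ^ 2 * Real.exp (-φ y)) D.μ := by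
    refine Continuous.integrable_of_hasCompactSupport
      (((hcτ.add hA).mul (hT.continuous.norm.pow 2)).mul hce)
      (HasCompactSupport.intro hT.2 fun y hy => ?_)
    simp [image_eq_zero_of_notMem_tsupport hy]
  have i23 : Integrable (fun y => τ y * D.dbSq α y * Real.exp (-φ y) +
      (τ y + A y) * ‖D.Ts φ α y‖ ^ 2 * Real.exp (-φ y)) D.μ := i2.add i3
  have key := integral_mono (g := fun y => τ y * D.dbSq α y * Real.exp (-φ y) +
      (τ y + A y) * ‖D.Ts φ α y‖ ^ 2 * Real.exp (-φ y) - (R y).re) i1 (i23.sub hRr) ?_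
  · rw [integral_sub i23 hRr, integral_add i2 i3, hRr0, sub_zero] at key
    exact key
  · intro y
    simp only [hR]
    rw [ap_ident hφ hτ (fun j => (hα j).1) y]
    exact ap_final (Real.exp_pos _).le (hτ0 y) (hA0 y) _ _ _ _ _ (ap_dbSq α y)

end RD

end Vale.Agent.P271A
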