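import Vale.Agent.P271A.Defs

/-! P271A: two Hilbert space lemmas for square integrable functions. -/

open MeasureTheory Filter Topology Set Complex
open scoped ContDiff ENNReal ComplexConjugate

namespace Vale.Agent.P271A

variable {Y : Type} [MeasurableSpace Y] {ν : Measure Y}

theorem hil_inner {F G : Lp ℂ 2 ν} {f g : Y → ℂ} (hf : F =ᵐ[ν] f) (hg : G =ᵐ[ν] g) :
    inner ℂ G F = ∫ y, f y * conj (g y) ∂ν := by
  rw [L2.inner_def]
  refine integral_congr_ae ?_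
  filter_upwards [hf, hg] with y h1 h2
  rw [h1, h2, RCLike.inner_apply]

theorem hil_normsq {F : Lp ℂ 2 ν} {f : Y → ℂ} (hf : F =ᵐ[ν] f) :
    ‖F‖ ^ 2 = ∫ y, ‖f y‖ ^ 2 ∂ν := by
  have h1 : inner ℂ F F = ∫ y, ((‖f y‖ ^ 2 : ℝ) : ℂ) ∂ν := by
    rw [hil_inner hf hf]
    refine integral_congr_ae (Eventually.of_forall fun y => ?_)
    simp only [mul_conj', ofReal_pow]
  rw [integral_complex_ofReal, inner_self_eq_norm_sq_to_K] at h1
  apply ofReal_injective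
  rw [← h1, ofReal_pow]
  rfl

theorem hil_norm_le {a : Y → ℂ} (ha : MemLp a 2 ν) {ε : ℝ} (hε : 0 ≤ ε)
    (h : eLpNorm a 2 ν ≤ ENNReal.ofReal ε) : ‖ha.toLp a‖ ≤ ε := by
  rw [Lp.norm_toLp]
  exact ENNReal.toReal_le_of_le_ofReal hε h

/-- A family of square integrable functions as a vector of the product Hilbert space. -/
noncomputable def hilLift {ι : Type} (α : ι → Y → ℂ) (hα : ∀ i, MemLp (α i) 2 ν) :
    PiLp 2 (fun _ : ι => Lp ℂ 2 ν) := WithLp.toLp 2 fun i => (hα i).toLp (α i)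

theorem hil_inner_pi {ι : Type} [Fintype ι] {F G : PiLp 2 (fun _ : ι => Lp ℂ 2 ν)}
    {f g : ι → Y → ℂ} (hf : ∀ i, F i =ᵐ[ν] f i) (hg : ∀ i, G i =ᵐ[ν] g i) :
    inner ℂ G F = ∑ i, ∫ y, f i y * conj (g i y) ∂ν := by
  rw [PiLp.inner_apply]
  exact Finset.sum_congr rfl fun i _ => hil_inner (hf i) (hg i)

theorem hilLift_ae {ι : Type} (α : ι → Y → ℂ) (hα : ∀ i, MemLp (α i) 2 ν) (i : ι) :
    hilLift α hα i =ᵐ[ν] α i := (hα i).coeFn_toLp

theorem hil_decomp {H : Type} [NormedAddCommGroup H] [InnerProductSpace ℂ H] [CompleteSpace H]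
    (K : Submodule ℂ H) (a : H) : ∃ p ∈ Kᗮ, ∃ q ∈ Kᗮᗮ, a = p + q :=
  (Kᗮ).exists_add_mem_mem_orthogonal a

/-- Orthogonal decomposition with respect to the orthogonal complement of a set. -/
theorem proj {ι : Type} [Fintype ι] (S : Set (ι → Y → ℂ)) (hS : ∀ s ∈ S, ∀ i, MemLp (s i) 2 ν)
    {α : ι → Y → ℂ} (hα : ∀ i, MemLp (α i) 2 ν) :
    ∃ β : ι → Y → ℂ, (∀ i, MemLp (β i) 2 ν) ∧
      (∀ s ∈ S, ∑ i, ∫ y, β i y * conj (s i y) ∂ν = 0) ∧
      ∀ γ : ι → Y → ℂ, (∀ i, MemLp (γ i) 2 ν) →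
        (∀ s ∈ S, ∑ i, ∫ y, γ i y * conj (s i y) ∂ν = 0) →
        ∑ i, ∫ y, γ i y * conj (β i y) ∂ν = ∑ i, ∫ y, γ i y * conj (α i y) ∂ν := by
  obtain ⟨K, hK⟩ : ∃ K : Submodule ℂ (PiLp 2 (fun _ : ι => Lp ℂ 2 ν)),
      K = Submodule.span ℂ {x | ∃ s, ∃ hs : s ∈ S, x = hilLift s (hS s hs)} := ⟨_, rfl⟩
  obtain ⟨p, hp, q, hq, hpq⟩ := hil_decomp K (hilLift α hα)
  refine ⟨fun i => p i, fun i => Lp.memLp _, fun s hs => ?_, fun γ hγ h => ?_⟩
  · rw [← hil_inner_pi (F := p) (fun i => EventuallyEq.rfl) (hilLift_ae s (hS s hs))]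
    refine Submodule.inner_right_of_mem_orthogonal ?_ hp
    rw [hK]
    exact Submodule.subset_span ⟨s, hs, rfl⟩
  · have h1 : hilLift γ hγ ∈ Kᗮ := by
      rw [Submodule.mem_orthogonal, hK]
      intro x hx
      induction hx using Submodule.span_induction with
      | mem x hx =>
        obtain ⟨s, hs, rfl⟩ := hx
        rw [hil_inner_pi (hilLift_ae γ hγ) (hilLift_ae s (hS s hs))]
        exact h s hs
      | zero => exact inner_zero_left _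
      | add x y _ _ hx hy => rw [inner_add_left, hx, hy, add_zero]
      | smul c x _ hx => rw [inner_smul_left, hx, mul_zero]
    rw [← hil_inner_pi (G := p) (hilLift_ae γ hγ) (fun i => EventuallyEq.rfl),
      ← hil_inner_pi (hilLift_ae γ hγ) (hilLift_ae α hα), hpq, inner_add_left,
      Submodule.inner_left_of_mem_orthogonal h1 hq, add_zero]

/-- Riesz representation of a functional dominated by an operator. -/
theorem riesz {V : Type} [AddCommGroup V] [Module ℂ V] (T : V →ₗ[ℂ] (Y → ℂ))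
    (hT : ∀ v, MemLp (T v) 2 ν) (Λ : V →ₗ[ℂ] ℂ) {B : ℝ} (hB : 0 ≤ B)
    (h : ∀ v, ‖Λ v‖ ^ 2 ≤ B * ∫ y, ‖T v y‖ ^ 2 ∂ν) :
    ∃ u : Y → ℂ, MemLp u 2 ν ∧ ∫ y, ‖u y‖ ^ 2 ∂ν ≤ B ∧
      ∀ v, Λ v = ∫ y, T v y * conj (u y) ∂ν := by
  let T' : V →ₗ[ℂ] Lp ℂ 2 ν :=
    { toFun := fun v => (hT v).toLp (T v)
      map_add' := fun v w => by
        rw [← MemLp.toLp_add]
        exact MemLp.toLp_congr _ _ (by rw [map_add])
      map_smul' := fun c v => by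
        rw [RingHom.id_apply, ← MemLp.toLp_const_smul]
        exact MemLp.toLp_congr _ _ (by rw [map_smul]) }
  have hT' : ∀ v, T' v =ᵐ[ν] T v := fun v => (hT v).coeFn_toLp
  have hb : ∀ v, ‖Λ v‖ ≤ √B * ‖T' v‖ := fun v => by
    refine le_of_sq_le_sq ?_ (by positivity)
    rw [mul_pow, Real.sq_sqrt hB, hil_normsq (hT' v)]
    exact h v
  have hker : LinearMap.ker T' ≤ LinearMap.ker Λ := fun v hv => by
    have h1 := hb v
    rw [LinearMap.mem_ker.1 hv, norm_zero, mul_zero] at h1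
    exact LinearMap.mem_ker.2 (norm_le_zero_iff.1 h1)
  let f : LinearMap.range T' →ₗ[ℂ] ℂ :=
    ((LinearMap.ker T').liftQ Λ hker).comp T'.quotKerEquivRange.symm.toLinearMap
  have hf : ∀ v, f ⟨T' v, LinearMap.mem_range_self T' v⟩ = Λ v := fun v => by
    have h1 := LinearMap.quotKerEquivRange_symm_apply_image T' v (LinearMap.mem_range_self T' v)
    change (LinearMap.ker T').liftQ Λ hker (T'.quotKerEquivRange.symm _) = _
    rw [h1, Submodule.mkQ_apply, Submodule.liftQ_apply]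
  have hfb : ∀ x : LinearMap.range T', ‖f x‖ ≤ √B * ‖x‖ := by
    rintro ⟨_, v, rfl⟩
    rw [hf]
    exact hb v
  obtain ⟨g, hg, hgn⟩ := exists_extension_norm_eq (LinearMap.range T') (f.mkContinuous _ hfb)
  refine ⟨(InnerProductSpace.toDual ℂ (Lp ℂ 2 ν)).symm g, Lp.memLp _, ?_, fun v => ?_⟩
  · rw [← hil_normsq EventuallyEq.rfl, LinearIsometryEquiv.norm_map]
    have h1 : ‖g‖ ≤ √B := hgn.le.trans (f.mkContinuous_norm_le (Real.sqrt_nonneg B) hfb)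
    exact (pow_le_pow_left₀ (norm_nonneg g) h1 2).trans (Real.sq_sqrt hB).le
  · rw [← hil_inner (hT' v) EventuallyEq.rfl, InnerProductSpace.toDual_symm_apply, ← hf]
    exact (hg ⟨T' v, LinearMap.mem_range_self T' v⟩).symm

theorem hil_int {a : Y → ℂ} {W : Y → ℝ} {M : ℝ} (ha : MemLp a 2 ν)
    (hW : AEStronglyMeasurable W ν) (h0 : ∀ y, 0 ≤ W y) (hM : ∀ y, a y ≠ 0 → W y ≤ M) :
    Integrable (fun y => W y * ‖a y‖ ^ 2) ν := by
  have h1 : Integrable (fun y => ‖a y‖ ^ 2) ν := (memLp_two_iff_integrable_sq_norm ha.1).1 ha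
  refine (h1.const_mul M).mono' (hW.mul h1.1) (Eventually.of_forall fun y => ?_)
  rw [Real.norm_of_nonneg (mul_nonneg (h0 y) (sq_nonneg _))]
  by_cases hy : a y = 0
  · simp [hy]
  · exact mul_le_mul_of_nonneg_right (hM y hy) (sq_nonneg _)

theorem hil_pt {η : ℝ} (hη : 0 < η) (a b : ℂ) :
    ‖a‖ ^ 2 ≤ (1 + η) * ‖b‖ ^ 2 + (1 + η⁻¹) * ‖a - b‖ ^ 2 := by
  have h1 : ‖a‖ ≤ ‖b‖ + ‖a - b‖ := by
    have := norm_add_le b (a - b)
    rwa [add_sub_cancel] at this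
  have h2 : ‖a‖ ^ 2 ≤ (‖b‖ + ‖a - b‖) ^ 2 := pow_le_pow_left₀ (norm_nonneg _) h1 2
  have h3 : 0 ≤ η⁻¹ * (η * ‖b‖ - ‖a - b‖) ^ 2 := by positivity
  have h4 : η⁻¹ * (η * ‖b‖ - ‖a - b‖) ^ 2 =
      η * ‖b‖ ^ 2 - 2 * (‖b‖ * ‖a - b‖) + η⁻¹ * ‖a - b‖ ^ 2 := by
    field_simp
    ring
  nlinarith

/-- Weighted square integrals pass to the limit on a set where the weight is bounded. -/
theorem wsq_le {a b : Y → ℂ} {W : Y → ℝ} {M η : ℝ} (hη : 0 < η) (ha : MemLp a 2 ν)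
    (hb : MemLp b 2 ν) (hW : AEStronglyMeasurable W ν) (h0 : ∀ y, 0 ≤ W y)
    (hM : ∀ y, a y ≠ 0 ∨ b y ≠ 0 → W y ≤ M) {ε : ℝ} (hε : 0 ≤ ε)
    (hab : eLpNorm (fun y => a y - b y) 2 ν ≤ ENNReal.ofReal ε) :
    Integrable (fun y => W y * ‖a y‖ ^ 2) ν ∧ Integrable (fun y => W y * ‖b y‖ ^ 2) ν ∧
      ∫ y, W y * ‖a y‖ ^ 2 ∂ν ≤
        (1 + η) * ∫ y, W y * ‖b y‖ ^ 2 ∂ν + (1 + η⁻¹) * max M 0 * ε ^ 2 := by
  have i1 := hil_int ha hW h0 fun y hy => hM y (Or.inl hy)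
  have i2 := hil_int hb hW h0 fun y hy => hM y (Or.inr hy)
  have hd : MemLp (fun y => a y - b y) 2 ν := ha.sub hb
  have i3 : Integrable (fun y => ‖a y - b y‖ ^ 2) ν := (memLp_two_iff_integrable_sq_norm hd.1).1 hd
  refine ⟨i1, i2, ?_⟩
  have h1 : ∫ y, ‖a y - b y‖ ^ 2 ∂ν ≤ ε ^ 2 := by
    rw [← hil_normsq hd.coeFn_toLp]
    exact pow_le_pow_left₀ (norm_nonneg _) (hil_norm_le hd hε hab) 2
  have h2 : ∫ y, W y * ‖a y‖ ^ 2 ∂ν ≤ ∫ y, ((1 + η) * (W y * ‖b y‖ ^ 2) +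
      (1 + η⁻¹) * max M 0 * ‖a y - b y‖ ^ 2) ∂ν := by
    refine integral_mono i1 ((i2.const_mul _).add (i3.const_mul _)) fun y => ?_
    have h3 := mul_le_mul_of_nonneg_left (hil_pt hη (a y) (b y)) (h0 y)
    have h4 : W y * ‖a y - b y‖ ^ 2 ≤ max M 0 * ‖a y - b y‖ ^ 2 := by
      by_cases hy : a y ≠ 0 ∨ b y ≠ 0
      · exact mul_le_mul_of_nonneg_right ((hM y hy).trans (le_max_left _ _)) (sq_nonneg _)
      · push Not at hy
        simp [hy.1, hy.2]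
    have h5 := mul_le_mul_of_nonneg_left h4 (show 0 ≤ 1 + η⁻¹ by positivity)
    change W y * ‖a y‖ ^ 2 ≤ (1 + η) * (W y * ‖b y‖ ^ 2) + (1 + η⁻¹) * max M 0 * ‖a y - b y‖ ^ 2
    linarith
  rw [integral_add (i2.const_mul _) (i3.const_mul _), integral_const_mul, integral_const_mul] at h2
  have h6 := mul_le_mul_of_nonneg_left h1
    (show 0 ≤ (1 + η⁻¹) * max M 0 from mul_nonneg (by positivity) (le_max_right _ _))
  linarith

/-- Cauchy-Schwarz against a small function. -/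
theorem pair_le {a c : Y → ℂ} (ha : MemLp a 2 ν) (hc : MemLp c 2 ν) {ε : ℝ} (hε : 0 ≤ ε)
    (h : eLpNorm a 2 ν ≤ ENNReal.ofReal ε) :
    ‖∫ y, c y * conj (a y) ∂ν‖ ≤ (eLpNorm c 2 ν).toReal * ε := by
  rw [← hil_inner hc.coeFn_toLp ha.coeFn_toLp, ← Lp.norm_toLp c hc, mul_comm]
  exact (norm_inner_le_norm _ _).trans
    (mul_le_mul_of_nonneg_right (hil_norm_le ha hε h) (norm_nonneg _))

end Vale.Agent.P271A
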