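import Vale.Agent.P271A.Fried
import Vale.Agent.P271A.AP
import Vale.Agent.P271A.Hil

/-! P271A: the basic estimate for weak solutions. -/

open MeasureTheory Filter Topology Set Complex
open scoped ContDiff ENNReal ComplexConjugate

namespace Vale.Agent.P271A

variable {n : ℕ} {Y : Type} [TopologicalSpace Y] [T2Space Y] [SecondCountableTopology Y]
  [MeasurableSpace Y] [BorelSpace Y] {D : RD n Y}

theorem apw_amgm {X B Q : ℝ} (hX : 0 ≤ X) (hB : 0 ≤ B) (hQ : 0 ≤ Q)
    (h : ∀ l > 0, X ≤ (l * B + Q / l) / 2) : X ^ 2 ≤ B * Q := by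
  rcases hX.eq_or_lt with rfl | hX
  · simpa using mul_nonneg hB hQ
  rcases hB.eq_or_lt with rfl | hB
  · have hl : 0 < Q / X + 1 := by positivity
    have h1 := h _ hl
    rw [mul_zero, zero_add, le_div_iff₀ two_pos, le_div_iff₀ hl] at h1
    have h2 : X * 2 * (Q / X + 1) = 2 * Q + 2 * X := by field_simp
    linarith
  · have h1 := h (X / B) (by positivity)
    have h2 : X / B * B = X := by field_simp
    have h3 : Q / (X / B) = B * Q / X := by field_simp
    rw [h2, h3] at h1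
    have h4 : X ≤ B * Q / X := by linarith
    rwa [le_div_iff₀ hX, ← sq] at h4

theorem apw_pt {s b θ l : ℝ} (hb : 0 ≤ b) (hθ : 0 ≤ θ) (hl : 0 < l)
    (h : s ^ 2 ≤ b * θ) : s ≤ (l * b + θ / l) / 2 := by
  have h1 : 0 ≤ θ / l := by positivity
  have h2 : b * θ = l * b * (θ / l) := by field_simp
  refine abs_le_of_sq_le_sq' ?_ (by positivity) |>.2
  nlinarith [sq_nonneg (l * b - θ / l)]

theorem apw_lim {L : ℂ} {B R C0 C1 : ℝ}
    (h : ∀ η > (0 : ℝ), ∀ ε > (0 : ℝ), ∃ L' : ℂ, ‖L' - L‖ ≤ C0 * ε ∧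
      ‖L'‖ ^ 2 ≤ B * ((1 + η) * R + (1 + η⁻¹) * C1 * ε ^ 2)) : ‖L‖ ^ 2 ≤ B * R := by
  have ht := tendsto_one_div_add_atTop_nhds_zero_nat (𝕜 := ℝ)
  have h1 : ∀ η > (0 : ℝ), ‖L‖ ^ 2 ≤ B * ((1 + η) * R) := by
    intro η hη
    choose L' hL hL' using fun k : ℕ => h η hη (1 / ((k : ℝ) + 1)) (by positivity)
    have h2 : Tendsto L' atTop (𝓝 L) := by
      rw [tendsto_iff_norm_sub_tendsto_zero]
      exact squeeze_zero (fun _ => norm_nonneg _) hL (by simpa using ht.const_mul C0)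
    have h3 := (((ht.pow 2).const_mul ((1 + η⁻¹) * C1)).const_add ((1 + η) * R)).const_mul B
    simpa using le_of_tendsto_of_tendsto' (h2.norm.pow 2) h3 hL'
  have h4 := ((ht.const_add 1).mul_const R).const_mul B
  simpa using ge_of_tendsto' h4 fun k => h1 _ (by positivity)

/-- The constant coefficient system of the basic estimate. -/
noncomputable def apwXi : Option (Fin n × Fin n) → Fin n → E n × E n
  | none, i => zv i
  | some p, i => (if i = p.2 then bv p.1 else 0) - if i = p.1 then bv p.2 else 0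

namespace RD

omit [T2Space Y] [SecondCountableTopology Y] [BorelSpace Y] in
theorem apw_xi (j k : Fin n) (G c : Fin n → Y → ℂ) (y : Y) :
    ∑ i, D.dX (apwXi (some (j, k)) i) (G i) y * c i y =
      D.db j (G k) y * c k y - D.db k (G j) y * c j y := by
  have h : ∀ (P : Prop) [Decidable P] (a : E n × E n) (g : Y → ℂ),
      D.dX (if P then a else 0) g y = if P then D.dX a g y else 0 := by
    intro P _ a g
    split_ifs
    · rfl
    · exact dX_vec_zero g y
  simp only [apwXi, dX_vec_sub, h, sub_mul, ite_mul, zero_mul, Finset.sum_sub_distrib,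
    Finset.sum_ite_eq', Finset.mem_univ, if_true]
  rfl

theorem apw_wd {φ : Y → ℝ} (hφ : D.SmR φ) {β : Fin n → Y → ℂ} {γ : Y → ℂ}
    (hβ : ∀ j, D.L2loc (β j)) (hγ : D.L2loc γ)
    (hdiv : ∀ t, D.Test t → ∑ j, ∫ y, β j y * conj (D.db j t y) * Real.exp (-φ y) ∂D.μ =
      ∫ y, γ y * conj (t y) * Real.exp (-φ y) ∂D.μ) :
    D.WD zv β fun y => ∑ j, D.dz j (fun p => (φ p : ℂ)) y * β j y - γ y := by
  intro t ht
  have he : D.Sm fun p => ((Real.exp (φ p) : ℝ) : ℂ) := hφ.exp
  have hee : ∀ y, ((Real.exp (φ y) : ℝ) : ℂ) * (Real.exp (-φ y) : ℝ) = 1 := fun y => by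
    rw [← ofReal_mul, ← Real.exp_add, add_neg_cancel, Real.exp_zero, ofReal_one]
  have h1 := hdiv _ (ht.mul he).conj
  have h2 : ∀ j y, β j y * conj (D.db j (fun p => conj (t p * (Real.exp (φ p) : ℝ))) y) *
      (Real.exp (-φ y) : ℝ) =
      β j y * D.dz j t y + β j y * (t y * D.dz j (fun p => (φ p : ℂ)) y) := by
    intro j y
    rw [← conj_dz, conj_conj, dz, dX_mul ht.1 he, dX_exp hφ]
    simp only [dz]
    linear_combination (β j y * D.dX (zv j) t y +
      β j y * (t y * D.dX (zv j) (fun p => (φ p : ℂ)) y)) * hee y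
  have h3 : ∀ y, γ y * conj (conj (t y * (Real.exp (φ y) : ℝ))) * (Real.exp (-φ y) : ℝ) =
      γ y * t y := fun y => by
    rw [conj_conj]
    linear_combination γ y * t y * hee y
  have i1 : ∀ j, Integrable (fun y => β j y * D.dz j t y) D.μ := fun j =>
    (hβ j).integrable_mul (ht.dz j).continuous (ht.dz j).2
  have i2 : ∀ j, Integrable (fun y => β j y * (t y * D.dz j (fun p => (φ p : ℂ)) y)) D.μ :=
    fun j => (hβ j).integrable_mul (ht.mul (Sm.dz hφ j)).continuous (ht.mul (Sm.dz hφ j)).2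
  have i3 : Integrable (fun y => γ y * t y) D.μ := hγ.integrable_mul ht.continuous ht.2
  simp only [h2, h3] at h1
  rw [Finset.sum_congr rfl fun j _ => integral_add (i1 j) (i2 j), Finset.sum_add_distrib,
    ← integral_finsetSum _ fun j _ => i2 j] at h1
  have h4 : ∀ y, (∑ j, D.dz j (fun p => (φ p : ℂ)) y * β j y - γ y) * t y =
      ∑ j, β j y * (t y * D.dz j (fun p => (φ p : ℂ)) y) - γ y * t y := fun y => by
    rw [sub_mul, Finset.sum_mul]
    exact congrArg (· - _) (Finset.sum_congr rfl fun j _ => by ring)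
  simp only [h4]
  rw [integral_sub (integrable_finsetSum _ fun j _ => i2 j) i3, ← h1]
  simp only [dz]
  ring

omit [TopologicalSpace Y] [T2Space Y] [SecondCountableTopology Y] [BorelSpace Y] in
theorem apw_sq {ν : Measure Y} {a b : Fin n → Fin n → Y → ℂ} {τ e : Y → ℝ} {M η ε : ℝ}
    (hη : 0 < η) (ha : ∀ j k, MemLp (a j k) 2 ν) (hb : ∀ j k, MemLp (b j k) 2 ν)
    (hW : AEStronglyMeasurable (fun y => τ y * e y) ν) (h0 : ∀ y, 0 ≤ τ y * e y)
    (hM : ∀ j k y, a j k y ≠ 0 ∨ b j k y ≠ 0 → τ y * e y ≤ M) (hε : 0 ≤ ε)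
    (hab : ∀ j k, eLpNorm (fun y => a j k y - b j k y) 2 ν ≤ ENNReal.ofReal ε) :
    ∫ y, τ y * ((∑ j, ∑ k, ‖a j k y‖ ^ 2) / 2) * e y ∂ν ≤
      (1 + η) * ∫ y, τ y * ((∑ j, ∑ k, ‖b j k y‖ ^ 2) / 2) * e y ∂ν +
        (1 + η⁻¹) * (n * (n * max M 0) / 2) * ε ^ 2 := by
  have hw := fun j k => wsq_le hη (ha j k) (hb j k) hW h0 (hM j k) hε (hab j k)
  have he : ∀ c : Fin n → Fin n → Y → ℂ,
      (∀ j k, Integrable (fun y => τ y * e y * ‖c j k y‖ ^ 2) ν) →
      ∫ y, τ y * ((∑ j, ∑ k, ‖c j k y‖ ^ 2) / 2) * e y ∂ν =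
        (∑ j, ∑ k, ∫ y, τ y * e y * ‖c j k y‖ ^ 2 ∂ν) / 2 := by
    intro c hc
    rw [Finset.sum_congr rfl fun j _ => (integral_finsetSum _ fun k _ => hc j k).symm,
      ← integral_finsetSum _ fun j _ => integrable_finsetSum _ fun k _ => hc j k, ← integral_div]
    refine integral_congr_ae (ae_of_all _ fun y => ?_)
    simp only [← Finset.mul_sum]
    ring
  rw [he a fun j k => (hw j k).1, he b fun j k => (hw j k).2.1]
  have h1 := Finset.sum_le_sum fun j (_ : j ∈ Finset.univ) =>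
    Finset.sum_le_sum fun k (_ : k ∈ Finset.univ) => (hw j k).2.2
  simp only [Finset.sum_add_distrib, ← Finset.mul_sum, Finset.sum_const, Finset.card_univ,
    Fintype.card_fin, nsmul_eq_mul] at h1
  linarith

theorem ap_test {φ τ A b : Y → ℝ} (hφ : D.SmR φ) (hτ : D.SmR τ) (hA : Continuous A)
    (hτ0 : ∀ y, 0 ≤ τ y) (hA0 : ∀ y, 0 < A y) (hΘ : ∀ y v, 0 ≤ D.Theta φ τ A y v)
    {f : Fin n → Y → ℂ} (hf : ∀ j, Continuous (f j)) (hb0 : ∀ y, 0 ≤ b y)
    (hb : Integrable (fun y => b y * Real.exp (-φ y)) D.μ)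
    (hfb : ∀ y v, ‖∑ j, f j y * conj (v j)‖ ^ 2 ≤ b y * D.Theta φ τ A y v)
    {α : Fin n → Y → ℂ} (hα : ∀ j, D.Test (α j)) :
    ‖∑ j, ∫ y, f j y * conj (α j y) * Real.exp (-φ y) ∂D.μ‖ ^ 2 ≤
      (∫ y, b y * Real.exp (-φ y) ∂D.μ) * (∫ y, τ y * D.dbSq α y * Real.exp (-φ y) ∂D.μ +
        ∫ y, (τ y + A y) * ‖D.Ts φ α y‖ ^ 2 * Real.exp (-φ y) ∂D.μ) := by
  have hec : Continuous fun y => Real.exp (-φ y) := hφ.neg.exp.continuous
  have hes : D.Sm fun y => ((Real.exp (-φ y) : ℝ) : ℂ) := hφ.neg.exp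
  have hQc := continuous_Theta hφ hτ hA hA0 fun j => (hα j).continuous
  have hQs : HasCompactSupport fun y => D.Theta φ τ A y (fun j => α j y) := by
    refine HasCompactSupport.intro (isCompact_iUnion fun j => (hα j).2) fun y hy => ?_
    have : (fun j => α j y) = 0 := funext fun j =>
      image_eq_zero_of_notMem_tsupport fun h => hy (mem_iUnion.2 ⟨j, h⟩)
    rw [this, Theta_zero]
  have hQ : Integrable (fun y => D.Theta φ τ A y (fun j => α j y) * Real.exp (-φ y)) D.μ :=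
    (hQc.mul hec).integrable_of_hasCompactSupport hQs.mul_right
  have hi : ∀ j, Integrable (fun y => f j y * conj (α j y) * (Real.exp (-φ y) : ℝ)) D.μ :=
    fun j => (((hf j).mul (hα j).conj.continuous).mul
      hes.continuous).integrable_of_hasCompactSupport (hα j).conj.2.mul_left.mul_right
  have hB : 0 ≤ ∫ y, b y * Real.exp (-φ y) ∂D.μ :=
    integral_nonneg fun y => mul_nonneg (hb0 y) (Real.exp_pos _).le
  refine (apw_amgm (norm_nonneg _) hB (integral_nonneg fun y =>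
    mul_nonneg (hΘ y fun j => α j y) (Real.exp_pos (-φ y)).le) fun l hl => ?_).trans
    (mul_le_mul_of_nonneg_left (apriori hφ hτ hA hτ0 hA0 hα) hB)
  rw [← integral_finsetSum _ fun j _ => hi j, ← integral_const_mul, ← integral_div,
    ← integral_add (hb.const_mul l) (hQ.div_const l), ← integral_div]
  refine norm_integral_le_of_norm_le (((hb.const_mul l).add (hQ.div_const l)).div_const 2)
    (ae_of_all _ fun y => ?_)
  have h1 := mul_le_mul_of_nonneg_right (apw_pt (hb0 y) (hΘ y _) hl (hfb y fun j => α j y))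
    (Real.exp_pos (-φ y)).le
  rw [← Finset.sum_mul, norm_mul, norm_real, Real.norm_of_nonneg (Real.exp_pos _).le]
  refine h1.trans_eq ?_
  ring

theorem ap_weak {φ τ A b : Y → ℝ} (hφ : D.SmR φ) (hτ : D.SmR τ) (hA : Continuous A)
    (hτ0 : ∀ y, 0 ≤ τ y) (hA0 : ∀ y, 0 < A y) (hΘ : ∀ y v, 0 ≤ D.Theta φ τ A y v)
    {f : Fin n → Y → ℂ} (hf : ∀ j, Continuous (f j)) (hb0 : ∀ y, 0 ≤ b y)
    (hb : Integrable (fun y => b y * Real.exp (-φ y)) D.μ)
    (hfb : ∀ y v, ‖∑ j, f j y * conj (v j)‖ ^ 2 ≤ b y * D.Theta φ τ A y v)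
    {β : Fin n → Y → ℂ} {γ : Y → ℂ} (hβ : ∀ j, D.L2loc (β j)) (hγ : D.L2loc γ)
    (hcl : ∀ j k t, D.Test t → ∫ y, β k y * D.db j t y ∂D.μ = ∫ y, β j y * D.db k t y ∂D.μ)
    (hdiv : ∀ t, D.Test t → ∑ j, ∫ y, β j y * conj (D.db j t y) * Real.exp (-φ y) ∂D.μ =
      ∫ y, γ y * conj (t y) * Real.exp (-φ y) ∂D.μ)
    {χ : Y → ℂ} (hχ : D.Test χ) :
    ‖∑ j, ∫ y, f j y * conj (χ y * β j y) * Real.exp (-φ y) ∂D.μ‖ ^ 2 ≤
      (∫ y, b y * Real.exp (-φ y) ∂D.μ) *
        (∫ y, τ y * ((∑ j, ∑ k, ‖D.db j χ y * β k y - D.db k χ y * β j y‖ ^ 2) / 2) *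
            Real.exp (-φ y) ∂D.μ +
          ∫ y, (τ y + A y) * ‖χ y * γ y - ∑ j, D.dz j χ y * β j y‖ ^ 2 *
            Real.exp (-φ y) ∂D.μ) := by
  have hec : Continuous fun y => Real.exp (-φ y) := hφ.neg.exp.continuous
  have hes : D.Sm fun y => ((Real.exp (-φ y) : ℝ) : ℂ) := hφ.neg.exp
  have hB : 0 ≤ ∫ y, b y * Real.exp (-φ y) ∂D.μ :=
    integral_nonneg fun y => mul_nonneg (hb0 y) (Real.exp_pos _).le
  let w : Option (Fin n × Fin n) → Y → ℂ := fun o => o.elim
    (fun y => ∑ j, D.dz j (fun p => (φ p : ℂ)) y * β j y - γ y) fun _ _ => 0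
  have hw : ∀ o, D.L2loc (w o) := by
    rintro (_ | p)
    · exact (L2loc.sum _ fun j _ => (hβ j).cont_mul (Sm.dz hφ j).continuous).sub hγ
    · exact l2loc_of_cont continuous_const
  have hwd : ∀ o, D.WD (apwXi o) β (w o) := by
    rintro (_ | ⟨j, k⟩)
    · exact apw_wd hφ hβ hγ hdiv
    · intro t ht
      have i1 : ∀ i ξ, Integrable (fun y => β i y * D.dX ξ t y) D.μ := fun i ξ =>
        (hβ i).integrable_mul (ht.dX ξ).continuous (ht.dX ξ).2
      have h1 : ∀ y, ∑ i, β i y * D.dX (apwXi (some (j, k)) i) t y =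
          β k y * D.db j t y - β j y * D.db k t y := fun y => by
        have := apw_xi (D := D) j k (fun _ => t) β y
        simpa only [mul_comm] using this
      rw [← integral_finsetSum _ fun i _ => i1 i _]
      simp only [h1, w, Option.elim, zero_mul, integral_zero, neg_zero]
      exact (integral_sub (i1 k (bv j)) (i1 j (bv k))).trans (sub_eq_zero.2 (hcl j k t ht))
  obtain ⟨K, hK, hχK, hfr⟩ := fried apwXi hβ hw hwd hχ
  obtain ⟨M1, hM1⟩ := hK.exists_bound_of_continuousOn (hτ.continuous.mul hec).continuousOn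
  obtain ⟨M2, hM2⟩ :=
    hK.exists_bound_of_continuousOn ((hτ.continuous.add hA).mul hec).continuousOn
  obtain ⟨M3, hM3⟩ := hK.exists_bound_of_continuousOn
    (continuous_pi fun j => (Sm.dz hφ j).continuous).continuousOn
  let c : Fin n → Y → ℂ := fun j => K.indicator fun y => f j y * (Real.exp (-φ y) : ℝ)
  have hc : ∀ j, MemLp (c j) 2 D.μ := fun j =>
    (memLp_indicator_iff_restrict hK.measurableSet).2
      ((l2loc_of_cont ((hf j).mul hes.continuous)).2 K hK)
  have hχ0 : ∀ y, y ∉ K → χ y = 0 := fun y hy =>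
    image_eq_zero_of_notMem_tsupport fun h => hy (hχK h)
  have hχ1 : ∀ ξ y, y ∉ K → D.dX ξ χ y = 0 := fun ξ y hy => dX_of_notMem fun h => hy (hχK h)
  have mχβ : ∀ j, MemLp (fun y => χ y * β j y) 2 D.μ := fun j =>
    (hβ j).memLp_mul hχ.continuous hχ.2
  have mdβ : ∀ ξ j, MemLp (fun y => D.dX ξ χ y * β j y) 2 D.μ := fun ξ j =>
    (hβ j).memLp_mul (hχ.dX ξ).continuous (hχ.dX ξ).2
  refine apw_lim (C0 := ∑ j, (eLpNorm (c j) 2 D.μ).toReal)
    (C1 := n * (n * max M1 0) / 2 + max M2 0 * (n * max M3 0 + 1) ^ 2) fun η hη ε hε => ?_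
  obtain ⟨α, hα, h1, h2⟩ := hfr _ (ENNReal.ofReal_pos.2 hε)
  have hα0 : ∀ j y, y ∉ K → α j y = 0 := fun j y hy =>
    image_eq_zero_of_notMem_tsupport fun h => hy ((hα j).2 h)
  have hα1 : ∀ ξ j y, y ∉ K → D.dX ξ (α j) y = 0 := fun ξ j y hy =>
    dX_of_notMem fun h => hy ((hα j).2 h)
  have md : ∀ j, MemLp (fun y => α j y - χ y * β j y) 2 D.μ := fun j =>
    ((hα j).1.memLp 2).sub (mχβ j)
  refine ⟨∑ j, ∫ y, f j y * conj (α j y) * Real.exp (-φ y) ∂D.μ, ?_, ?_⟩
  · rw [← Finset.sum_sub_distrib, Finset.sum_mul]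
    refine (norm_sum_le _ _).trans (Finset.sum_le_sum fun j _ => ?_)
    have e1 : ∀ u : Y → ℂ, (∀ y, y ∉ K → u y = 0) →
        (fun y => f j y * conj (u y) * (Real.exp (-φ y) : ℝ)) = fun y => c j y * conj (u y) := by
      intro u hu
      funext y
      by_cases hy : y ∈ K
      · simp only [c, indicator_of_mem hy]
        ring
      · simp [hu y hy]
    have i1 : ∀ u : Y → ℂ, MemLp u 2 D.μ → Integrable (fun y => c j y * conj (u y)) D.μ :=
      fun u hu => (hc j).integrable_mul hu.star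
    rw [e1 _ (hα0 j), e1 (fun y => χ y * β j y) fun y hy => by rw [hχ0 y hy, zero_mul],
      ← integral_sub (i1 _ ((hα j).1.memLp 2)) (i1 _ (mχβ j))]
    simpa only [map_sub, mul_sub] using pair_le (md j) (hc j) hε.le (h1 j)
  · refine (ap_test hφ hτ hA hτ0 hA0 hΘ hf hb0 hb hfb fun j => (hα j).1).trans
      (mul_le_mul_of_nonneg_left ?_ hB)
    have p1 := apw_sq (ν := D.μ) (a := fun j k y => D.db j (α k) y - D.db k (α j) y)
      (b := fun j k y => D.db j χ y * β k y - D.db k χ y * β j y) (τ := τ)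
      (e := fun y => Real.exp (-φ y)) (M := M1) hη
      (fun j k => (((hα k).1.db j).sub ((hα j).1.db k)).memLp 2)
      (fun j k => (mdβ _ k).sub (mdβ _ j)) (hτ.continuous.mul hec).aestronglyMeasurable
      (fun y => mul_nonneg (hτ0 y) (Real.exp_pos _).le) (fun j k y hy => by
        refine (le_abs_self _).trans (hM1 y (by_contra fun h => ?_))
        simp [db, hα1 _ _ y h, hχ1 _ y h] at hy) hε.le (fun j k => by
        refine le_of_eq_of_le (eLpNorm_congr_ae (ae_of_all _ fun y => ?_)) (h2 (some (j, k)))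
        have e1 := apw_xi (D := D) j k α (fun _ _ => 1) y
        have e2 := apw_xi (D := D) j k (fun _ => χ) β y
        simp only [mul_one] at e1
        simp only [e1, e2, w, Option.elim, mul_zero, zero_add])
    have m3 : ∀ j, AEStronglyMeasurable
        (fun y => D.dz j (fun p => (φ p : ℂ)) y * (α j y - χ y * β j y)) D.μ := fun j =>
      (Sm.dz hφ j).continuous.aestronglyMeasurable.mul (md j).1
    have h3 : ∀ j, eLpNorm (fun y => D.dz j (fun p => (φ p : ℂ)) y * (α j y - χ y * β j y)) 2 D.μ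
        ≤ ENNReal.ofReal (max M3 0 * ε) := fun j => by
      rw [ENNReal.ofReal_mul (le_max_right _ _)]
      refine (eLpNorm_le_mul_eLpNorm_of_ae_le_mul (ae_of_all _ fun y => ?_) 2).trans
        (mul_le_mul_right (h1 j) _)
      by_cases hy : y ∈ K
      · rw [norm_mul]
        exact mul_le_mul_of_nonneg_right (((norm_le_pi_norm _ j).trans (hM3 y hy)).trans
          (le_max_left _ _)) (norm_nonneg _)
      · simp [hα0 j y hy, hχ0 y hy]
    have h4 := (eLpNorm_sum_le (s := Finset.univ) (fun j _ => m3 j) one_le_two).trans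
      (Finset.sum_le_sum fun j _ => h3 j)
    have m4 : AEStronglyMeasurable (fun y => ∑ i, D.dX (apwXi none i) (α i) y -
        (χ y * w none y + ∑ i, D.dX (apwXi none i) χ y * β i y)) D.μ :=
      ((Test.sum _ fun i _ => (hα i).1.dX _).memLp 2 |>.sub
        (((hw none).memLp_mul hχ.continuous hχ.2).add
          (memLp_finsetSum _ fun i _ => mdβ _ i))).1
    have h5 := (eLpNorm_sub_le (Finset.aestronglyMeasurable_sum _ fun j _ => m3 j) m4
      one_le_two).trans (add_le_add h4 (h2 none))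
    have hM0 : 0 ≤ n * max M3 0 := by positivity
    have p2 := (wsq_le (ν := D.μ) (a := D.Ts φ α)
      (b := fun y => χ y * γ y - ∑ j, D.dz j χ y * β j y)
      (W := fun y => (τ y + A y) * Real.exp (-φ y)) (M := M2) hη
      ((Test.Ts hφ fun j => (hα j).1).memLp 2)
      ((hγ.memLp_mul hχ.continuous hχ.2).sub (memLp_finsetSum _ fun i _ => mdβ _ i))
      ((hτ.continuous.add hA).mul hec).aestronglyMeasurable
      (fun y => mul_nonneg (add_nonneg (hτ0 y) (hA0 y).le) (Real.exp_pos _).le) (fun y hy => by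
        refine (le_abs_self _).trans (hM2 y (by_contra fun h => ?_))
        simp [Ts, dz, hα0 _ y h, hα1 _ _ y h, hχ0 y h, hχ1 _ y h] at hy)
      (ε := (n * max M3 0 + 1) * ε) (by positivity) (by
        refine le_of_eq_of_le (eLpNorm_congr_ae (ae_of_all _ fun y => ?_)) (h5.trans_eq ?_)
        · simp only [Ts, dz, apwXi, w, Option.elim, Pi.sub_apply, Finset.sum_apply, mul_sub,
            Finset.sum_sub_distrib, Finset.mul_sum, mul_left_comm (χ y)]
          ring
        · rw [Finset.sum_const, Finset.card_univ, Fintype.card_fin, nsmul_eq_mul,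
            ← ENNReal.ofReal_natCast, ← ENNReal.ofReal_mul (Nat.cast_nonneg _),
            ← ENNReal.ofReal_add (by positivity) hε.le]
          congr 1
          ring)).2.2
    simp only [mul_right_comm _ (Real.exp _)] at p2
    simp only [dbSq]
    linarith

end RD

end Vale.Agent.P271A
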