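import Vale.Agent.P271A.HormX

/-! P271A: log-concavity of the minimal norm. -/

open MeasureTheory Filter Topology Set
open scoped ContDiff ENNReal ComplexConjugate

noncomputable section

namespace Vale.Agent.P271A

open Vale.Agent.P271

variable {n : ℕ} {X : Type} [TopologicalSpace X] [T2Space X] [CompactSpace X] [ConnectedSpace X]
  [MeasurableSpace X] [BorelSpace X]

/-- Concavity from the symmetric second difference. -/
theorem concave_of_symm {f : ℝ → ℝ} (hf : Continuous f)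
    (h : ∀ T, ∃ C, ∃ r0 > (0 : ℝ), ∀ r, 0 < r → r ≤ r0 →
      f (T + r) + f (T - r) - 2 * f T ≤ C * r ^ 3) {T0 T1 l : ℝ} (hl0 : 0 ≤ l) (hl1 : l ≤ 1) :
    (1 - l) * f T0 + l * f T1 ≤ f ((1 - l) * T0 + l * T1) := by
  by_contra hlt
  rw [not_le] at hlt
  by_cases hd : T1 - T0 = 0
  · rw [← sub_eq_zero.1 hd, show (1 - l) * T1 + l * T1 = T1 by ring] at hlt
    linarith
  obtain ⟨ε, hε⟩ : ∃ ε, ε = (1 - l) * f T0 + l * f T1 - f ((1 - l) * T0 + l * T1) := ⟨_, rfl⟩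
  have hε0 : 0 < ε := by linarith
  obtain ⟨G, hG⟩ : ∃ G : ℝ → ℝ, G = fun s =>
    f (T0 + s * (T1 - T0)) - (1 - s) * f T0 - s * f T1 + ε * (s * (1 - s)) := ⟨_, rfl⟩
  have hGc : Continuous G := by rw [hG]; fun_prop
  obtain ⟨s, hs, hmin⟩ := (isCompact_Icc (a := (0 : ℝ)) (b := 1)).exists_isMinOn
    (nonempty_Icc.2 zero_le_one) hGc.continuousOn
  have h1 : G s < 0 := by
    refine lt_of_le_of_lt (hmin (show l ∈ Icc (0 : ℝ) 1 from ⟨hl0, hl1⟩)) ?_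
    rw [hG]
    simp only
    rw [show T0 + l * (T1 - T0) = (1 - l) * T0 + l * T1 by ring]
    nlinarith [sq_nonneg (l - 1 / 2)]
  have hs0 : 0 < s := lt_of_le_of_ne hs.1 (by
    rintro rfl
    rw [hG] at h1
    simp at h1)
  have hs1 : s < 1 := lt_of_le_of_ne hs.2 (by
    rintro rfl
    rw [hG] at h1
    simp at h1)
  obtain ⟨C, r0, hr0, hC⟩ := h (T0 + s * (T1 - T0))
  have hD : 0 < |T1 - T0| := abs_pos.2 hd
  obtain ⟨r, hr, r1, r2, r3, r4⟩ : ∃ r > (0 : ℝ), r ≤ s ∧ r ≤ 1 - s ∧ r * |T1 - T0| ≤ r0 ∧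
      r * (|C| * |T1 - T0| ^ 3) ≤ ε := by
    refine ⟨min (min s (1 - s)) (min (r0 / |T1 - T0|) (ε / (|C| * |T1 - T0| ^ 3 + 1))),
      lt_min (lt_min hs0 (by linarith)) (lt_min (by positivity) (by positivity)),
      (min_le_left _ _).trans (min_le_left _ _), (min_le_left _ _).trans (min_le_right _ _),
      (le_div_iff₀ hD).1 ((min_le_right _ _).trans (min_le_left _ _)), ?_⟩
    refine le_trans (mul_le_mul ((min_le_right _ _).trans (min_le_right _ _))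
      (le_add_of_nonneg_right zero_le_one) (by positivity) (by positivity)) (le_of_eq ?_)
    field_simp
  have h2 := hC (r * |T1 - T0|) (by positivity) r3
  have h3 : G s ≤ G (s + r) := hmin (show s + r ∈ Icc (0 : ℝ) 1 from ⟨by linarith, by linarith⟩)
  have h4 : G s ≤ G (s - r) := hmin (show s - r ∈ Icc (0 : ℝ) 1 from ⟨by linarith, by linarith⟩)
  have h5 : f (T0 + s * (T1 - T0) + r * |T1 - T0|) + f (T0 + s * (T1 - T0) - r * |T1 - T0|) =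
      f (T0 + (s + r) * (T1 - T0)) + f (T0 + (s - r) * (T1 - T0)) := by
    rcases abs_choice (T1 - T0) with e | e <;> rw [e]
    · congr 2 <;> ring
    · rw [add_comm]
      congr 2 <;> ring
  rw [hG] at h3 h4
  simp only at h3 h4
  have h6 : C * (r * |T1 - T0|) ^ 3 ≤ r ^ 2 * (r * (|C| * |T1 - T0| ^ 3)) := by
    refine (mul_le_mul_of_nonneg_right (le_abs_self C) (by positivity)).trans (le_of_eq ?_)
    ring
  have h7 := mul_le_mul_of_nonneg_left r4 (sq_nonneg r)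
  have h8 : 0 < r ^ 2 * ε := by positivity
  nlinarith

theorem bern_mvt {φ φ' : ℝ → ℝ} (hd : ∀ t, HasDerivAt φ (φ' t) t) {ρ B : ℝ}
    (hb : ∀ t, |t| ≤ ρ → |φ' t| ≤ B) {t : ℝ} (ht : |t| ≤ ρ) : |φ t - φ 0| ≤ B * |t| := by
  have h := (convex_closedBall (0 : ℝ) ρ).norm_image_sub_le_of_norm_hasDerivWithin_le
    (f := φ) (f' := φ') (C := B) (fun t _ => (hd t).hasDerivWithinAt)
    (fun t h => hb t (by simpa using h)) (x := 0) (y := t)
    (Metric.mem_closedBall_self ((abs_nonneg t).trans ht)) (by simpa using ht)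
  simpa using h

theorem bern_rem {C : ℝ} (hC : 0 ≤ C) : ∃ L, 0 ≤ L ∧ ∀ (g g₁ g₂ : ℝ → ℝ),
    (∀ t, HasDerivAt g (g₁ t) t) → (∀ t, HasDerivAt g₁ (g₂ t) t) → (∀ t, |g₁ t| ≤ C) →
    (∀ t, |g₂ t| ≤ C) → (∀ t t', |g₂ t - g₂ t'| ≤ C * |t - t'|) → ∀ T t, |t| ≤ 2 →
      Real.exp (g T - g (T + t)) ≤ 1 - g₁ T * t + (g₁ T ^ 2 - g₂ T) * t ^ 2 / 2 + L * |t| ^ 3 := by
  refine ⟨(C ^ 2 + C) * (C * Real.exp (C * 2)) + (2 * C ^ 2 + C), by positivity,
    fun g g₁ g₂ d₁ d₂ b₁ b₂ b₃ T t ht => ?_⟩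
  obtain ⟨L, hL⟩ : ∃ L, L = (C ^ 2 + C) * (C * Real.exp (C * 2)) + (2 * C ^ 2 + C) := ⟨_, rfl⟩
  have hL0 : 0 ≤ L := by rw [hL]; positivity
  rw [← hL]
  have e0 : ∀ s, HasDerivAt (fun s => g (T + s)) (g₁ (T + s)) s := fun s =>
    (d₁ (T + s)).comp_const_add T s
  have e1 : ∀ s, HasDerivAt (fun s => g₁ (T + s)) (g₂ (T + s)) s := fun s =>
    (d₂ (T + s)).comp_const_add T s
  obtain ⟨k, hk⟩ : ∃ k : ℝ → ℝ, k = fun s => Real.exp (g T - g (T + s)) := ⟨_, rfl⟩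
  have k0 : k 0 = 1 := by simp [hk]
  have k1 : ∀ s, HasDerivAt k (k s * -g₁ (T + s)) s := fun s => by
    rw [hk]
    exact ((e0 s).const_sub (g T)).exp
  have k2 : ∀ s, |s| ≤ 2 → |k s| ≤ Real.exp (C * 2) := fun s hs => by
    have h1 := bern_mvt e0 (fun t _ => b₁ _) hs
    rw [hk, abs_of_pos (Real.exp_pos _), Real.exp_le_exp]
    rw [add_zero] at h1
    have h2 := mul_le_mul_of_nonneg_left hs hC
    linarith [neg_abs_le (g (T + s) - g T)]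
  have k3 : ∀ s, |s| ≤ 2 → |k s - 1| ≤ C * Real.exp (C * 2) * |s| := fun s hs => by
    rw [← k0]
    refine bern_mvt k1 (fun t ht => ?_) hs
    rw [abs_mul, abs_neg, mul_comm]
    exact mul_le_mul (b₁ _) (k2 t ht) (abs_nonneg _) hC
  have k4 : ∀ s, |s| ≤ 2 → |k s * (g₁ (T + s) ^ 2 - g₂ (T + s)) - (g₁ T ^ 2 - g₂ T)| ≤
      L * |s| := fun s hs => by
    have h1 := bern_mvt e1 (fun t _ => b₂ _) hs
    have h2 := b₃ (T + s) T
    rw [add_zero] at h1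
    rw [add_sub_cancel_left] at h2
    have h3 : |g₁ (T + s) ^ 2 - g₂ (T + s)| ≤ C ^ 2 + C := by
      refine (abs_sub _ _).trans (add_le_add ?_ (b₂ _))
      rw [abs_pow]
      exact pow_le_pow_left₀ (abs_nonneg _) (b₁ _) 2
    have h4 : |(g₁ (T + s) - g₁ T) * (g₁ (T + s) + g₁ T)| ≤ C * |s| * (C + C) := by
      rw [abs_mul]
      exact mul_le_mul h1 ((abs_add_le _ _).trans (add_le_add (b₁ _) (b₁ _))) (abs_nonneg _)
        (by positivity)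
    have h5 : |(g₁ (T + s) ^ 2 - g₂ (T + s)) * (k s - 1)| ≤
        (C ^ 2 + C) * (C * Real.exp (C * 2) * |s|) := by
      rw [abs_mul]
      exact mul_le_mul h3 (k3 s hs) (abs_nonneg _) (by positivity)
    rw [show k s * (g₁ (T + s) ^ 2 - g₂ (T + s)) - (g₁ T ^ 2 - g₂ T) =
      (g₁ (T + s) ^ 2 - g₂ (T + s)) * (k s - 1) + (g₁ (T + s) - g₁ T) * (g₁ (T + s) + g₁ T) -
        (g₂ (T + s) - g₂ T) by ring, hL]
    refine (abs_sub _ _).trans ((add_le_add (abs_add_le _ _) le_rfl).trans ?_)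
    linarith
  have r1 : ∀ s, HasDerivAt (fun s => k s * -g₁ (T + s) - (g₁ T ^ 2 - g₂ T) * s)
      (k s * (g₁ (T + s) ^ 2 - g₂ (T + s)) - (g₁ T ^ 2 - g₂ T)) s := fun s =>
    (((k1 s).mul (e1 s).neg).sub ((hasDerivAt_id s).const_mul (g₁ T ^ 2 - g₂ T))).congr_deriv
      (by simp only [Pi.neg_apply]; ring)
  have r2 : ∀ s, HasDerivAt (fun s => k s + g₁ T * s - (g₁ T ^ 2 - g₂ T) * s ^ 2 / 2)
      (k s * -g₁ (T + s) - (g₁ T ^ 2 - g₂ T) * s + g₁ T) s := fun s =>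
    (((k1 s).add ((hasDerivAt_id s).const_mul (g₁ T))).sub
      (((hasDerivAt_pow 2 s).const_mul (g₁ T ^ 2 - g₂ T)).div_const 2)).congr_deriv
      (by simp only [Nat.cast_ofNat, Nat.add_one_sub_one, pow_one]; ring)
  have h1 := bern_mvt r2 (ρ := |t|) (B := L * |t| * |t|) (fun s hs => by
    have h2 := bern_mvt r1 (ρ := |t|) (B := L * |t|) (fun s hs =>
      (k4 s (hs.trans ht)).trans (mul_le_mul_of_nonneg_left hs hL0)) hs
    simp only [k0, add_zero, mul_zero, sub_zero, one_mul, sub_neg_eq_add] at h2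
    exact h2.trans (mul_le_mul_of_nonneg_left hs (by positivity))) le_rfl
  simp only [k0] at h1
  have h2 : k t = Real.exp (g T - g (T + t)) := by rw [hk]
  rw [← h2]
  have h3 := (le_abs_self _).trans h1
  linarith

/-- The pointwise second order expansion. -/
theorem taylor_four {C : ℝ} (hC : 0 ≤ C) : ∃ C', 0 ≤ C' ∧ ∀ (g g₁ g₂ : ℝ → ℝ),
    (∀ t, HasDerivAt g (g₁ t) t) → (∀ t, HasDerivAt g₁ (g₂ t) t) → (∀ t, |g₁ t| ≤ C) →
    (∀ t, |g₂ t| ≤ C) → (∀ t t', |g₂ t - g₂ t'| ≤ C * |t - t'|) →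
    ∀ (T r : ℝ) (a b : ℂ), 0 < r → r ≤ 1 →
      (‖a + r * b‖ ^ 2 * Real.exp (-g (T + 2 * r)) + ‖a - r * b‖ ^ 2 * Real.exp (-g (T - 2 * r)) +
        ‖a + Complex.I * r * b‖ ^ 2 * Real.exp (-g T) +
        ‖a - Complex.I * r * b‖ ^ 2 * Real.exp (-g T)) / 4 ≤
      (‖a‖ ^ 2 + r ^ 2 * (‖g₁ T * a - b‖ ^ 2 - g₂ T * ‖a‖ ^ 2) +
        C' * r ^ 3 * (‖a‖ ^ 2 + ‖b‖ ^ 2)) * Real.exp (-g T) := by
  obtain ⟨L, hL, h⟩ := bern_rem hC
  refine ⟨C ^ 2 + C + 8 * L, by positivity, fun g g₁ g₂ d₁ d₂ b₁ b₂ b₃ T r a b hr hr1 => ?_⟩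
  have h1 := h g g₁ g₂ d₁ d₂ b₁ b₂ b₃ T (2 * r) (by rw [abs_of_pos (by linarith)]; linarith)
  have h2 := h g g₁ g₂ d₁ d₂ b₁ b₂ b₃ T (-(2 * r))
    (by rw [abs_neg, abs_of_pos (by linarith)]; linarith)
  rw [abs_of_pos (by linarith : 0 < 2 * r)] at h1
  rw [abs_neg, abs_of_pos (by linarith : 0 < 2 * r), ← sub_eq_add_neg T] at h2
  have e1 : ∀ t, Real.exp (-g t) = Real.exp (g T - g t) * Real.exp (-g T) := fun t => by
    rw [← Real.exp_add]; congr 1; ring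
  rw [e1 (T + 2 * r), e1 (T - 2 * r), ← mul_assoc, ← mul_assoc, ← add_mul, ← add_mul, ← add_mul,
    mul_div_right_comm]
  refine mul_le_mul_of_nonneg_right ?_ (Real.exp_pos _).le
  have h3 := mul_le_mul_of_nonneg_left h1 (sq_nonneg ‖a + r * b‖)
  have h4 := mul_le_mul_of_nonneg_left h2 (sq_nonneg ‖a - r * b‖)
  obtain ⟨ρ, hρ⟩ : ∃ ρ, ρ = a.re * b.re + a.im * b.im := ⟨_, rfl⟩
  have n1 : ‖a + r * b‖ ^ 2 = ‖a‖ ^ 2 + r ^ 2 * ‖b‖ ^ 2 + 2 * r * ρ := by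
    simp only [Complex.sq_norm, Complex.normSq_apply, hρ]
    simp
    ring
  have n2 : ‖a - r * b‖ ^ 2 = ‖a‖ ^ 2 + r ^ 2 * ‖b‖ ^ 2 - 2 * r * ρ := by
    simp only [Complex.sq_norm, Complex.normSq_apply, hρ]
    simp
    ring
  have n3 : ‖a + Complex.I * r * b‖ ^ 2 + ‖a - Complex.I * r * b‖ ^ 2 =
      2 * (‖a‖ ^ 2 + r ^ 2 * ‖b‖ ^ 2) := by
    simp only [Complex.sq_norm, Complex.normSq_apply]
    simp
    ring
  have n4 : ‖g₁ T * a - b‖ ^ 2 = g₁ T ^ 2 * ‖a‖ ^ 2 + ‖b‖ ^ 2 - 2 * g₁ T * ρ := by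
    simp only [Complex.sq_norm, Complex.normSq_apply, hρ]
    simp
    ring
  rw [n1] at h3
  rw [n2] at h4
  rw [n1, n2, n4]
  have h5 : g₁ T ^ 2 - g₂ T ≤ C ^ 2 + C := by
    have := pow_le_pow_left₀ (abs_nonneg _) (b₁ T) 2
    rw [sq_abs] at this
    linarith [neg_abs_le (g₂ T), b₂ T]
  have ha := sq_nonneg ‖a‖
  have hb := sq_nonneg ‖b‖
  have h6 : r ^ 4 * ‖b‖ ^ 2 * (g₁ T ^ 2 - g₂ T) ≤ r ^ 3 * ‖b‖ ^ 2 * (C ^ 2 + C) :=
    (mul_le_mul_of_nonneg_left h5 (by positivity)).trans (mul_le_mul_of_nonneg_right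
      (mul_le_mul_of_nonneg_right (pow_le_pow_of_le_one hr.le hr1 (by norm_num)) hb)
      (by positivity))
  have h7 : L * r ^ 3 * (r ^ 2 * ‖b‖ ^ 2) ≤ L * r ^ 3 * ‖b‖ ^ 2 :=
    mul_le_mul_of_nonneg_left (mul_le_of_le_one_left hb (pow_le_one₀ hr.le hr1)) (by positivity)
  have h8 : 0 ≤ L * r ^ 3 * ‖a‖ ^ 2 := by positivity
  have h9 : 0 ≤ L * r ^ 3 * ‖b‖ ^ 2 := by positivity
  have h10 : 0 ≤ r ^ 3 * ‖a‖ ^ 2 * (C ^ 2 + C) := by positivity
  linarith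

omit [ConnectedSpace X] in
/-- The extremal section. -/
theorem bern_ext (M : Model n X) {G : M.ι → X → ℂ} (hG : M.IsGauge G) {x : X}
    (hx : ∃ h ∈ M.H0 G, h x ≠ 0) {ψ : X → ℝ} (hψ : Continuous ψ) :
    ∃ h0 ∈ M.H0 G, h0 x = 1 ∧ ∀ h ∈ M.H0 G, M.N2 ψ h0 * ‖h x‖ ^ 2 ≤ M.N2 ψ h := by
  have := finDim M.toAtl hG
  obtain ⟨e, he, -, hsp⟩ := onb M hG hψ
  let Φ : (Fin (Module.finrank ℂ (M.H0 G)) → ℂ) →ₗ[ℂ] M.H0 G :=
    Fintype.linearCombination ℂ fun l => (⟨e l, he l⟩ : M.H0 G)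
  have hΦ : ∀ c p, (Φ c).1 p = ∑ l, c l * e l p := fun c p => by
    simp [Φ, Fintype.linearCombination_apply, Finset.sum_apply]
  have hs : Function.Surjective Φ := fun h => by
    obtain ⟨c, hc, -⟩ := hsp h.1 h.2
    exact ⟨c, Subtype.ext (funext fun p => (hΦ c p).trans (hc p).symm)⟩
  have hi : Function.Injective Φ :=
    (LinearMap.injective_iff_surjective_of_finrank_eq_finrank (by simp)).2 hs
  have hN : ∀ c, M.N2 ψ (Φ c).1 = ∑ l, ‖c l‖ ^ 2 := fun c => by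
    obtain ⟨c', hc, h2⟩ := hsp _ (Φ c).2
    rw [← h2, hi (Subtype.ext (funext fun p => (hΦ c' p).trans (hc p).symm) : Φ c' = Φ c)]
  obtain ⟨K, hK⟩ : ∃ K : ℝ, K = ∑ l, ‖e l x‖ ^ 2 := ⟨_, rfl⟩
  have hcs : ∀ c, ‖(Φ c).1 x‖ ^ 2 ≤ (∑ l, ‖c l‖ ^ 2) * K := fun c => by
    rw [hΦ, hK]
    refine le_trans (pow_le_pow_left₀ (norm_nonneg _) (norm_sum_le _ _) 2) ?_
    simp only [norm_mul]
    exact Finset.sum_mul_sq_le_sq_mul_sq _ _ _
  have hK0 : 0 < K := by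
    obtain ⟨h, hh, hx⟩ := hx
    obtain ⟨c, hc⟩ := hs ⟨h, hh⟩
    have h1 := hcs c
    rw [hc, mul_comm] at h1
    have h2 : 0 < ‖h x‖ ^ 2 := by positivity
    exact pos_of_mul_pos_left (h2.trans_le h1) (Finset.sum_nonneg fun _ _ => sq_nonneg _)
  refine ⟨_, (Φ fun l => conj (e l x) / K).2, ?_, fun h hh => ?_⟩
  · rw [hΦ]
    simp only [div_mul_eq_mul_div, Complex.conj_mul', ← Finset.sum_div]
    rw [div_eq_one_iff_eq (by exact_mod_cast hK0.ne'), hK]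
    push_cast
    rfl
  · obtain ⟨c, hc⟩ := hs ⟨h, hh⟩
    have h1 := hcs c
    have h2 := hN c
    rw [hc] at h1 h2
    rw [hN, h2]
    simp only [norm_div, Complex.norm_conj, div_pow, ← Finset.sum_div, ← hK, Complex.norm_real,
      Real.norm_eq_abs, sq_abs]
    rw [div_mul_eq_mul_div, div_le_iff₀ (by positivity)]
    nlinarith

theorem bern_log {a b c N₁ N₂ N₃ N₄ x₁ x₂ x₃ x₄ D q : ℝ} (ha : 0 < a) (hb : 0 < b) (hc : 0 < c)
    (hx₁ : 0 ≤ x₁) (hx₂ : 0 ≤ x₂) (hx₃ : 0 ≤ x₃) (hx₄ : 0 ≤ x₄) (h₁ : a * x₁ ≤ N₁)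
    (h₂ : b * x₂ ≤ N₂) (h₃ : c * x₃ ≤ N₃) (h₄ : c * x₄ ≤ N₄) (hD : 0 ≤ D)
    (hs : (N₁ + N₂ + N₃ + N₄) / 4 ≤ c + D) (hq0 : 0 ≤ q) (hq : q ≤ 1 / 2)
    (hx : (1 - q) ^ 2 ≤ x₁ * x₂ * x₃ * x₄) :
    Real.log a + Real.log b - 2 * Real.log c ≤ 4 * D / c + 4 * q := by
  have p₁ : 0 ≤ N₁ := le_trans (by positivity) h₁
  have p₂ : 0 ≤ N₂ := le_trans (by positivity) h₂
  have p₃ : 0 ≤ N₃ := le_trans (by positivity) h₃
  have p₄ : 0 ≤ N₄ := le_trans (by positivity) h₄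
  have e1 : N₁ * N₂ * (N₃ * N₄) ≤ ((N₁ + N₂ + N₃ + N₄) / 4) ^ 4 := by
    have f1 : N₁ * N₂ ≤ ((N₁ + N₂) / 2) ^ 2 := by nlinarith [sq_nonneg (N₁ - N₂)]
    have f2 : N₃ * N₄ ≤ ((N₃ + N₄) / 2) ^ 2 := by nlinarith [sq_nonneg (N₃ - N₄)]
    have f3 : (N₁ + N₂) / 2 * ((N₃ + N₄) / 2) ≤ ((N₁ + N₂ + N₃ + N₄) / 4) ^ 2 := by
      nlinarith [sq_nonneg (N₁ + N₂ - N₃ - N₄)]
    refine (mul_le_mul f1 f2 (by positivity) (by positivity)).trans ?_
    rw [← mul_pow, show 4 = 2 * 2 from rfl, pow_mul]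
    exact pow_le_pow_left₀ (by positivity) f3 2
  have e2 : a * b * c ^ 2 * (1 - q) ^ 2 ≤ (c + D) ^ 4 := by
    calc a * b * c ^ 2 * (1 - q) ^ 2 ≤ a * b * c ^ 2 * (x₁ * x₂ * x₃ * x₄) :=
          mul_le_mul_of_nonneg_left hx (by positivity)
      _ = a * x₁ * (b * x₂) * (c * x₃ * (c * x₄)) := by ring
      _ ≤ N₁ * N₂ * (N₃ * N₄) := by gcongr
      _ ≤ _ := e1.trans (pow_le_pow_left₀ (by positivity) hs 4)
  have hq1 : 0 < 1 - q := by linarith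
  have e3 := Real.log_le_log (by positivity) e2
  rw [Real.log_mul (by positivity) (by positivity), Real.log_mul (by positivity) (by positivity),
    Real.log_mul ha.ne' hb.ne', Real.log_pow, Real.log_pow, Real.log_pow] at e3
  have e4 : Real.log (c + D) ≤ Real.log c + D / c := by
    rw [show c + D = c * (1 + D / c) by field_simp, Real.log_mul hc.ne' (by positivity)]
    linarith [Real.log_le_sub_one_of_pos (show 0 < 1 + D / c by positivity)]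
  have e5 : -(2 * q) ≤ Real.log (1 - q) := by
    refine le_trans ?_ (Real.one_sub_inv_le_log_of_pos hq1)
    have : (1 - q)⁻¹ ≤ 1 + 2 * q := by
      rw [inv_le_iff_one_le_mul₀ hq1]
      nlinarith
    linarith
  push_cast at e3
  rw [mul_div_assoc]
  linarith

theorem bern (M : Model n X) (P : Pol M.toAtl) (m : ℕ) {ψ ψ₁ ψ₂ : ℝ → X → ℝ} {C : ℝ}
    (d₁ : ∀ T p, HasDerivAt (fun t => ψ t p) (ψ₁ T p) T)
    (d₂ : ∀ T p, HasDerivAt (fun t => ψ₁ t p) (ψ₂ T p) T)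
    (b₁ : ∀ T p, |ψ₁ T p| ≤ C) (b₂ : ∀ T p, 0 ≤ ψ₂ T p ∧ ψ₂ T p ≤ C)
    (b₃ : ∀ T T' p, |ψ₂ T p - ψ₂ T' p| ≤ C * |T - T'|)
    (s₀ : ∀ T, M.Sm (ψ T)) (s₁ : ∀ T, M.Sm (ψ₁ T)) (s₂ : ∀ T, Continuous (ψ₂ T))
    (hj : ∀ T a, ∀ p ∈ (M.e a).source, ∀ ξ, 0 ≤ Lv P (ψ T) m a p ξ ∧
      ‖Db M.toAtl (ψ₁ T) a p ξ‖ ^ 2 ≤ ψ₂ T p * Lv P (ψ T) m a p ξ)
    (x : X) {T0 T1 A B l : ℝ} (hA : 0 ≤ A) (hB : 0 ≤ B) (hl0 : 0 ≤ l) (hl1 : l ≤ 1)
    (h0 : ∀ h ∈ M.H0 (M.k * P.u ^ m), A * ‖h x‖ ^ 2 ≤ M.N2 (ψ T0) h)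
    (h1 : ∀ h ∈ M.H0 (M.k * P.u ^ m), B * ‖h x‖ ^ 2 ≤ M.N2 (ψ T1) h) :
    ∀ h ∈ M.H0 (M.k * P.u ^ m),
      A ^ (1 - l) * B ^ l * ‖h x‖ ^ 2 ≤ M.N2 (ψ ((1 - l) * T0 + l * T1)) h := by
  have hG : M.IsGauge (M.k * P.u ^ m) := M.k_gauge.mul (P.gauge.pow m)
  by_cases hx : ∃ h ∈ M.H0 (M.k * P.u ^ m), h x ≠ 0
  swap
  · push Not at hx
    intro h hh
    rw [hx h hh, norm_zero, zero_pow two_ne_zero, mul_zero]
    exact N2_nonneg M
  have hc : ∀ T, Continuous (ψ T) := fun T => (s₀ T).continuous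
  choose H hH hH1 hHm using fun T => bern_ext M hG hx (hc T)
  have hS : ∀ T, H T ∈ M.Sec (M.k * P.u ^ m) := fun T => Atl.H0_le_Sec (hH T)
  have hμ : ∀ T, 0 < M.N2 (ψ T) (H T) := fun T => N2_pos M hG (hS T) (hc T) fun h => by
    have := hH1 T
    rw [h] at this
    exact zero_ne_one this
  have hC : 0 ≤ C := (abs_nonneg _).trans (b₁ 0 x)
  have hlip : ∀ T T', Real.log (M.N2 (ψ T') (H T')) ≤
      Real.log (M.N2 (ψ T) (H T)) + C * |T - T'| := by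
    intro T T'
    have e1 := hHm T' _ (hH T)
    rw [hH1, norm_one, one_pow, mul_one] at e1
    have e2 := N2_le_exp M hG (hS T) (hc T) (hc T') (c := C * |T - T'|) fun p => by
      have e3 := bern_mvt (φ := fun s => ψ (T' + s) p) (fun s => (d₁ (T' + s) p).comp_const_add T' s)
        (fun t _ => b₁ _ p) (le_refl |T - T'|)
      simp only [add_sub_cancel, add_zero] at e3
      linarith [le_abs_self (ψ T p - ψ T' p)]
    have e3 := Real.log_le_log (hμ T') (e1.trans e2)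
    rw [Real.log_mul (Real.exp_pos _).ne' (hμ T).ne', Real.log_exp] at e3
    linarith
  have hcont : Continuous fun T => Real.log (M.N2 (ψ T) (H T)) := by
    refine (LipschitzWith.of_dist_le' (K := C) fun T T' => ?_).continuous
    rw [Real.dist_eq, Real.dist_eq, abs_le]
    have e1 := hlip T T'
    have e2 := hlip T' T
    rw [abs_sub_comm] at e2
    constructor <;> linarith
  obtain ⟨C', hC', htay⟩ := taylor_four hC
  have hsec : ∀ T, ∃ D, ∃ r0 > (0 : ℝ), ∀ r, 0 < r → r ≤ r0 →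
      Real.log (M.N2 (ψ (T + r)) (H (T + r))) + Real.log (M.N2 (ψ (T - r)) (H (T - r))) -
        2 * Real.log (M.N2 (ψ T) (H T)) ≤ D * r ^ 3 := by
    intro T
    have e0 : ∀ a, (M.loc a fun q => (M.k * P.u ^ m) a q * ((ψ₁ T q : ℂ) * H T q)) = fun z =>
        M.loc a (fun q => (ψ₁ T q : ℂ)) z * M.loc a (fun q => (M.k * P.u ^ m) a q * H T q) z :=
      fun a => funext fun z => mul_left_comm _ _ _
    have hw : (fun q => (ψ₁ T q : ℂ) * H T q) ∈ M.Sec (M.k * P.u ^ m) := by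
      intro a
      unfold Atl.SmOn
      rw [e0]
      exact (Complex.ofRealCLM.contDiff.comp_contDiffOn (s₁ T a)).mul (hS T a)
    have hθ : Continuous fun p => ψ₂ T p * ‖H T p‖ ^ 2 :=
      (s₂ T).mul ((Atl.continuous_norm_of_mem hG (hS T)).pow 2)
    obtain ⟨h1, hh1, hN⟩ := hormX0 M P m (s₀ T) hw hθ
      (fun p => mul_nonneg (b₂ T p).1 (sq_nonneg _)) fun p => by
        obtain ⟨a, ha⟩ := M.cover p
        refine ⟨a, ha, fun ξ => ?_⟩
        have f1 : DifferentiableAt ℝ (M.loc a fun q => (ψ₁ T q : ℂ)) (M.e a p) :=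
          (Complex.ofRealCLM.contDiff.contDiffAt.comp _ (sm_at (s₁ T) ha)).differentiableAt
            (by simp)
        have f2 : DifferentiableAt ℂ (M.loc a fun q => (M.k * P.u ^ m) a q * H T q) (M.e a p) :=
          (hH T a _ ((M.e a).map_source ha)).differentiableAt
        rw [wt_pow, e0, dzb_mul f1 (f2.restrictScalars ℝ), dzb_hol f2, mul_zero, add_zero,
          M.loc_e a _ ha, norm_mul, norm_mul, mul_pow, mul_pow]
        refine ⟨(hj T a p ha ξ).1, ?_⟩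
        refine (mul_le_mul_of_nonneg_right (hj T a p ha ξ).2 (by positivity)).trans (le_of_eq ?_)
        ring
    have hS1 : h1 ∈ M.Sec (M.k * P.u ^ m) := Atl.H0_le_Sec hh1
    obtain ⟨D, hD⟩ : ∃ D, D = C' * (M.N2 (ψ T) (H T) + M.N2 (ψ T) h1) := ⟨_, rfl⟩
    have hD0 : 0 ≤ D := by rw [hD]; exact mul_nonneg hC' (add_nonneg (N2_nonneg M) (N2_nonneg M))
    refine ⟨4 * D / M.N2 (ψ T) (H T) + 4 * ‖h1 x‖ ^ 4, 1 / (‖h1 x‖ ^ 4 + 1), by positivity,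
      fun R hR hR1 => ?_⟩
    obtain ⟨r, rfl⟩ : ∃ r, R = 2 * r := ⟨R / 2, by ring⟩
    have hr : 0 < r := by linarith
    rw [le_div_iff₀ (by positivity)] at hR1
    have hc4 : 0 ≤ r * ‖h1 x‖ ^ 4 := by positivity
    have hr1 : r ≤ 1 := by nlinarith
    have hm : ∀ τ : ℂ, H T + τ • h1 ∈ M.H0 (M.k * P.u ^ m) := fun τ =>
      add_mem (hH T) (Submodule.smul_mem _ _ hh1)
    have hi : ∀ (t : ℝ) (τ : ℂ), Integrable
        (fun p => ‖(H T + τ • h1) p‖ ^ 2 * Real.exp (-ψ t p)) M.μ := fun t τ =>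
      N2_integrable M hG (Atl.H0_le_Sec (hm τ)) (hc t)
    have i0 := N2_integrable M hG (hS T) (hc T)
    have i1 := N2_integrable M hG hS1 (hc T)
    have i2 := N2_integrable M hG (sub_mem hw hS1) (hc T)
    have i3 : Integrable (fun p => ψ₂ T p * ‖H T p‖ ^ 2 * Real.exp (-ψ T p)) M.μ :=
      (hθ.mul (hc T).neg.rexp).integrable_of_hasCompactSupport
        (HasCompactSupport.of_compactSpace _)
    have hsum : (M.N2 (ψ (T + 2 * r)) (H T + (r : ℂ) • h1) +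
        M.N2 (ψ (T - 2 * r)) (H T + (-r : ℂ) • h1) + M.N2 (ψ T) (H T + (Complex.I * r) • h1) +
        M.N2 (ψ T) (H T + (-(Complex.I * r)) • h1)) / 4 ≤ M.N2 (ψ T) (H T) + D * r ^ 3 := by
      have f1 := integral_mono (μ := M.μ)
        ((((hi (T + 2 * r) r).add (hi (T - 2 * r) (-r))).add (hi T (Complex.I * r))).add
          (hi T (-(Complex.I * r))))
        (((i0.const_mul (4 * (1 + C' * r ^ 3))).add (i1.const_mul (4 * C' * r ^ 3))).add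
          ((i2.const_mul (4 * r ^ 2)).sub (i3.const_mul (4 * r ^ 2)))) fun p => by
          have f2 := htay (fun t => ψ t p) (fun t => ψ₁ t p) (fun t => ψ₂ t p) (d₁ · p) (d₂ · p)
            (b₁ · p) (fun t => by rw [abs_of_nonneg (b₂ t p).1]; exact (b₂ t p).2) (b₃ · · p)
            T r (H T p) (h1 p) hr hr1
          simp only [Pi.add_apply, Pi.sub_apply, Pi.smul_apply, smul_eq_mul, neg_mul,
            ← sub_eq_add_neg]
          linarith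
      rw [integral_add' ((((hi _ _).add (hi _ _)).add (hi _ _))) (hi _ _),
        integral_add' ((hi _ _).add (hi _ _)) (hi _ _), integral_add' (hi _ _) (hi _ _),
        integral_add' ((i0.const_mul _).add (i1.const_mul _))
          ((i2.const_mul _).sub (i3.const_mul _)),
        integral_add' (i0.const_mul _) (i1.const_mul _),
        integral_sub' (i2.const_mul _) (i3.const_mul _), integral_const_mul, integral_const_mul,
        integral_const_mul, integral_const_mul] at f1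
      have f2 := mul_le_mul_of_nonneg_left hN (sq_nonneg r)
      rw [hD]
      unfold Model.N2 at f2 ⊢
      linarith
    have hq : ‖((r : ℂ) * h1 x) ^ 4‖ ≤ r ^ 3 * (r * ‖h1 x‖ ^ 4) := by
      rw [norm_pow, norm_mul, Complex.norm_real, Real.norm_eq_abs, abs_of_pos hr]
      exact le_of_eq (by ring)
    have hr3 : r ^ 3 ≤ 1 := pow_le_one₀ hr.le hr1
    have f3 := bern_log (hμ _) (hμ _) (hμ _) (sq_nonneg _) (sq_nonneg _) (sq_nonneg _)
      (sq_nonneg _) (hHm (T + 2 * r) _ (hm r)) (hHm (T - 2 * r) _ (hm (-r)))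
      (hHm T _ (hm (Complex.I * r))) (hHm T _ (hm (-(Complex.I * r)))) (by positivity) hsum
      (q := r ^ 3 * (r * ‖h1 x‖ ^ 4)) (by positivity) (by nlinarith) (by
        rw [← mul_pow, ← mul_pow, ← mul_pow, ← norm_mul, ← norm_mul, ← norm_mul]
        refine pow_le_pow_left₀ (by nlinarith) ?_ 2
        simp only [Pi.add_apply, Pi.smul_apply, smul_eq_mul, hH1]
        have f4 : (1 + r * h1 x) * (1 + -r * h1 x) * (1 + Complex.I * r * h1 x) *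
            (1 + -(Complex.I * r) * h1 x) = 1 - ((r : ℂ) * h1 x) ^ 4 := by
          linear_combination (-(r * h1 x) ^ 2 + (r * h1 x) ^ 4) * Complex.I_sq
        rw [f4]
        have f5 := norm_sub_norm_le (1 : ℂ) (((r : ℂ) * h1 x) ^ 4)
        rw [norm_one] at f5
        linarith)
    refine f3.trans ?_
    have f4 : 0 ≤ D / M.N2 (ψ T) (H T) * r ^ 3 := by have := hμ T; positivity
    have f5 : r ^ 3 * (r * ‖h1 x‖ ^ 4) ≤ r ^ 3 * ‖h1 x‖ ^ 4 :=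
      mul_le_mul_of_nonneg_left (mul_le_of_le_one_left (by positivity) hr1) (by positivity)
    have f6 : 0 ≤ r ^ 3 * ‖h1 x‖ ^ 4 := by positivity
    have f7 : 4 * (D * r ^ 3) / M.N2 (ψ T) (H T) = 4 * (D / M.N2 (ψ T) (H T) * r ^ 3) := by ring
    have f8 : (4 * D / M.N2 (ψ T) (H T) + 4 * ‖h1 x‖ ^ 4) * (2 * r) ^ 3 =
        32 * (D / M.N2 (ψ T) (H T) * r ^ 3) + 32 * (r ^ 3 * ‖h1 x‖ ^ 4) := by ring
    linarith
  have hcv := concave_of_symm hcont hsec (T0 := T0) (T1 := T1) hl0 hl1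
  intro h hh
  refine le_trans (mul_le_mul_of_nonneg_right ?_ (sq_nonneg _)) (hHm _ h hh)
  have e0 := h0 _ (hH T0)
  have e1 := h1 _ (hH T1)
  rw [hH1, norm_one, one_pow, mul_one] at e0 e1
  refine (mul_le_mul (Real.rpow_le_rpow hA e0 (by linarith)) (Real.rpow_le_rpow hB e1 hl0)
    (by positivity) (Real.rpow_nonneg (hμ _).le _)).trans ?_
  rw [Real.rpow_def_of_pos (hμ _), Real.rpow_def_of_pos (hμ _), ← Real.exp_add,
    ← Real.le_log_iff_exp_le (hμ _)]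
  linarith

end Vale.Agent.P271A
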