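import Vale.Agent.P271A.XDefs
import Vale.Agent.P271.Dist

/-! P271A: Jacobian sections. -/

open MeasureTheory Filter Topology Set
open scoped ContDiff ENNReal ComplexConjugate

noncomputable section

namespace Vale.Agent.P271A

open Vale.Agent.P271

variable {n : ℕ} {X : Type} [TopologicalSpace X] [MeasurableSpace X]

/-- the homogeneous Jacobian. -/
def jacM (f0 : Cn n → ℂ) (f : Fin n → Cn n → ℂ) (z : Cn n) : Cn n →L[ℂ] Cn n :=
  ContinuousLinearMap.pi fun l => f0 z • fderiv ℂ (f l) z - f l z • fderiv ℂ f0 z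

theorem jacM_an {f0 : Cn n → ℂ} {f : Fin n → Cn n → ℂ} {z : Cn n} (h0 : AnalyticAt ℂ f0 z)
    (h : ∀ l, AnalyticAt ℂ (f l) z) : AnalyticAt ℂ (fun w => (jacM f0 f w).det) z := by
  have h1 : ∀ {g : Cn n → ℂ}, AnalyticAt ℂ g z → ∀ v : Cn n,
      AnalyticAt ℂ (fun w => fderiv ℂ g w v) z := fun hg v =>
    ((ContinuousLinearMap.apply ℂ ℂ v).analyticAt _).comp hg.fderiv
  simp only [ContinuousLinearMap.det, ← LinearMap.det_toMatrix', Matrix.det_apply']
  refine Finset.analyticAt_fun_sum _ fun σ _ => analyticAt_const.mul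
    (Finset.analyticAt_fun_prod _ fun i _ => ?_)
  simp only [LinearMap.toMatrix'_apply]
  exact (h0.mul (h1 (h _) _)).sub ((h _).mul (h1 h0 _))

theorem jacM_change {f0 g0 γ : Cn n → ℂ} {f g : Fin n → Cn n → ℂ} {T : Cn n → Cn n} {z : Cn n}
    (hγ : DifferentiableAt ℂ γ z) (hT : DifferentiableAt ℂ T z)
    (h0 : DifferentiableAt ℂ g0 (T z)) (h : ∀ l, DifferentiableAt ℂ (g l) (T z))
    (e0 : f0 =ᶠ[𝓝 z] fun w => γ w * (g0 ∘ T) w) (e : ∀ l, f l =ᶠ[𝓝 z] fun w => γ w * (g l ∘ T) w) :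
    (jacM f0 f z).det = γ z ^ (2 * n) * ((jacM g0 g (T z)).det * (fderiv ℂ T z).det) := by
  have h1 : ∀ {F G : Cn n → ℂ}, DifferentiableAt ℂ G (T z) →
      (F =ᶠ[𝓝 z] fun w => γ w * (G ∘ T) w) → fderiv ℂ F z =
        γ z • (fderiv ℂ G (T z)).comp (fderiv ℂ T z) + G (T z) • fderiv ℂ γ z := fun hG e =>
    e.fderiv_eq.trans (hγ.hasFDerivAt.mul (hG.hasFDerivAt.comp z hT.hasFDerivAt)).fderiv
  have h2 : jacM f0 f z = γ z ^ 2 • (jacM g0 g (T z)).comp (fderiv ℂ T z) := by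
    refine ContinuousLinearMap.ext fun v => funext fun l => ?_
    simp only [jacM, h1 h0 e0, h1 (h l) (e l), e0.eq_of_nhds, (e l).eq_of_nhds,
      ContinuousLinearMap.pi_apply, sub_apply, add_apply, smul_apply, Pi.smul_apply,
      ContinuousLinearMap.comp_apply, Function.comp_apply, smul_eq_mul]
    ring
  rw [h2, pow_mul]
  refine (LinearMap.det_smul _ _).trans ?_
  rw [Module.finrank_fin_fun]
  exact congrArg _ (LinearMap.det_comp _ _)

theorem jac_lin {ι : Type} (L : ι → Cn n →L[ℂ] ℂ) (h : ∀ v ≠ 0, ∃ i, L i v ≠ 0) :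
    ∃ c : Fin n → ι, (ContinuousLinearMap.pi fun l => L (c l)).det ≠ 0 := by
  have h1 : Submodule.span ℂ (range fun i => (L i : Cn n →ₗ[ℂ] ℂ)) = ⊤ :=
    Submodule.span_eq_top_of_ne_zero fun v hv => (h v hv).elim fun i hi => ⟨_, ⟨i, rfl⟩, hi⟩
  obtain ⟨κ, a, -, h2, h3⟩ := exists_linearIndependent' ℂ fun i => (L i : Cn n →ₗ[ℂ] ℂ)
  rw [h1] at h2
  have := h3.finite
  have := Fintype.ofFinite κ
  have h4 := Module.finrank_eq_card_basis (Module.Basis.mk h3 h2.ge)
  rw [Subspace.dual_finrank_eq, Module.finrank_fin_fun] at h4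
  let e := Fintype.equivFinOfCardEq h4.symm
  refine ⟨fun l => a (e.symm l), fun h5 => LinearMap.det_eq_zero_iff_ker_ne_bot.1 h5 ?_⟩
  refine LinearMap.ker_eq_bot'.2 fun v hv => (Module.forall_dual_apply_eq_zero_iff ℂ v).1 fun φ => ?_
  have h6 : φ ∈ Submodule.span ℂ (range ((fun i => (L i : Cn n →ₗ[ℂ] ℂ)) ∘ a)) :=
    h2 ▸ Submodule.mem_top
  induction h6 using Submodule.span_induction with
  | mem φ hφ =>
    obtain ⟨k, rfl⟩ := hφ
    have h7 := congrFun hv (e k)
    simpa using h7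
  | zero => rfl
  | add φ ψ _ _ h h' => rw [LinearMap.add_apply, h, h', add_zero]
  | smul c φ _ h => rw [LinearMap.smul_apply, h, smul_zero]

theorem exists_jac (M : Model n X) (P : Pol M.toAtl) :
    ∃ W : Fin P.N × (Fin n → Fin P.N) → X → ℂ,
      (∀ I, W I ∈ M.H0 (M.k * P.u ^ (2 * n * P.k0))) ∧
      (∀ p, ∃ I : Fin P.N × (Fin n → Fin P.N), P.s I.1 p ≠ 0 ∧ W I p ≠ 0) ∧
      ∀ I a, ∀ p ∈ (M.e a).source, P.s I.1 p ≠ 0 →
        M.k a p * (W I p / P.s I.1 p ^ (2 * n)) =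
          (fderiv ℂ (M.loc a fun q l => P.s (I.2 l) q / P.s I.1 q) (M.e a p)).det := by
  have hu := P.gauge.pow P.k0
  let S : M.ι → Fin P.N → Cn n → ℂ := fun a i => M.loc a fun p => (P.u ^ P.k0) a p * P.s i p
  have hS : ∀ a i, AnalyticOnNhd ℂ (S a i) (M.e a).target := fun a i => P.imm.mem i a
  let J : M.ι → Fin P.N × (Fin n → Fin P.N) → Cn n → ℂ := fun a I z =>
    (jacM (S a I.1) (fun l => S a (I.2 l)) z).det
  choose c hc using M.cover
  let W : Fin P.N × (Fin n → Fin P.N) → X → ℂ := fun I p =>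
    J (c p) I (M.e (c p) p) / (M.k (c p) p * P.u (c p) p ^ (2 * n * P.k0))
  have key : ∀ I a, ∀ p ∈ (M.e a).source,
      M.k a p * P.u a p ^ (2 * n * P.k0) * W I p = J a I (M.e a p) := fun I a p hp => by
    have hz : M.e a p ∈ M.ov a (c p) :=
      ⟨(M.e a).map_source hp, by rw [mem_preimage, (M.e a).left_inv hp]; exact hc p⟩
    have ht : M.tr a (c p) (M.e a p) = M.e (c p) p := congrArg _ ((M.e a).left_inv hp)
    have hd : ∀ i, DifferentiableAt ℂ (S (c p) i) (M.tr a (c p) (M.e a p)) := fun i =>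
      (hS _ i _ (M.mapsTo_tr a _ hz).1).differentiableAt
    have h1 := jacM_change (hu.hol a (c p) _ hz).differentiableAt
      (M.analyticOnNhd_tr a (c p) _ hz).differentiableAt (hd I.1) (fun l => hd (I.2 l))
      (Atl.api_change hu _ hz) fun l => Atl.api_change hu _ hz
    have h2 := M.k_tr a (c p) _ hz
    rw [(M.e a).left_inv hp] at h2
    rw [M.loc_e a _ hp, ht] at h1
    refine Eq.trans ?_ h1.symm
    have h3 := M.k_gauge.ne _ _ (hc p)
    have h4 := P.gauge.ne _ _ (hc p)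
    simp only [W, J, h2, Pi.pow_apply, div_pow, ← pow_mul, mul_comm P.k0]
    field_simp
  have h3 : ∀ (I : Fin P.N × (Fin n → Fin P.N)) a, ∀ p ∈ (M.e a).source, P.s I.1 p ≠ 0 →
      M.k a p * (W I p / P.s I.1 p ^ (2 * n)) = (ContinuousLinearMap.pi fun l =>
        fderiv ℂ (M.loc a fun q => P.s (I.2 l) q / P.s I.1 q) (M.e a p)).det := fun I a p hp h => by
    have hz := (M.e a).map_source hp
    have h' : P.s I.1 ((M.e a).symm (M.e a p)) ≠ 0 := by rwa [(M.e a).left_inv hp]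
    have hd := fun l => Atl.analyticAt_div hu (P.imm.mem (I.2 l)) (P.imm.mem I.1) hz h'
    have h4 : ∀ᶠ w in 𝓝 (M.e a p), P.s I.1 ((M.e a).symm w) ≠ 0 :=
      ((M.e a).continuousAt_symm hz).eventually
        ((Atl.isOpen_ne_zero hu (Atl.H0_le_Sec (P.imm.mem I.1))).mem_nhds h')
    have h1 := jacM_change (f0 := S a I.1) (f := fun l => S a (I.2 l)) (g0 := fun _ => 1) (T := id)
      (hS a I.1 _ hz).differentiableAt differentiableAt_id (differentiableAt_const _)
      (fun l => (hd l).differentiableAt) (Eventually.of_forall fun w => (mul_one _).symm)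
      fun l => h4.mono fun w hw => by
        simp only [S, Atl.loc, Function.comp_apply, id]
        field_simp
    have h5 := P.gauge.ne _ _ hp
    have h6 := (key I a p hp).trans h1
    have h7 : ∀ (t : ℂ) (L : Cn n →L[ℂ] ℂ), L - t • (0 : Cn n →L[ℂ] ℂ) = L := fun t L => by
      ext v
      simp
    simp only [jacM, S, M.loc_e a _ hp, fderiv_id, fderiv_const_apply, h7,
      one_smul, id, Pi.pow_apply, mul_pow, ← pow_mul, mul_comm P.k0] at h6
    rw [show (ContinuousLinearMap.id ℂ (Cn n)).det = 1 from LinearMap.det_id, mul_one] at h6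
    refine mul_left_cancel₀ (mul_ne_zero (pow_ne_zero (2 * n * P.k0) h5) (pow_ne_zero (2 * n) h))
      (Eq.trans ?_ h6)
    field_simp
  refine ⟨W, fun I a => ?_, fun p => ?_, fun I a p hp h => (h3 I a p hp h).trans ?_⟩
  · refine AnalyticOnNhd.congr (M.e a).open_target
      (fun z hz => jacM_an (hS a I.1 z hz) fun l => hS a (I.2 l) z hz) fun z hz => ?_
    have h1 := key I a _ ((M.e a).map_target hz)
    rw [(M.e a).right_inv hz] at h1
    exact h1.symm
  · obtain ⟨i, hi⟩ := P.imm.bpf p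
    obtain ⟨d, hd⟩ := jac_lin (fun j => fderiv ℂ (M.loc (c p) fun q => P.s j q / P.s i q)
      (M.e (c p) p)) fun v hv => P.imm.exists_fderiv_ne hu ((M.e _).map_source (hc p))
        (P.imm.mem i) (by rwa [(M.e _).left_inv (hc p)]) hv
    refine ⟨(i, d), hi, fun h => hd ?_⟩
    rw [← h3 (i, d) _ p (hc p) hi, h, zero_div, mul_zero]
  · exact congrArg _ (fderiv_pi fun l => (Atl.analyticAt_div hu (P.imm.mem (I.2 l)) (P.imm.mem I.1)
      ((M.e a).map_source hp) (by rwa [(M.e a).left_inv hp])).differentiableAt).symm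

end Vale.Agent.P271A
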