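import Vale.Agent.P271A.CovA
import Vale.Agent.P271A.Jac
import Vale.Agent.P271A.Meas
import Vale.Agent.P271A.Levi

/-! P271A: the cover as a pseudoconvex Riemann domain. -/

open MeasureTheory Filter Topology Set
open scoped ContDiff ENNReal ComplexConjugate

noncomputable section

namespace Vale.Agent.P271A

open Vale.Agent.P271

variable {n : ℕ} {X : Type} [TopologicalSpace X] [T2Space X] [CompactSpace X] [ConnectedSpace X]
  [MeasurableSpace X] [BorelSpace X]

/-- A continuous root of a holomorphic function is holomorphic. -/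
theorem analyticAt_root {f g : Cn n → ℂ} {z : Cn n} {k : ℕ} (hk : 0 < k) (hf : ContinuousAt f z)
    (hg : AnalyticAt ℂ g z) (h0 : g z ≠ 0) (h : ∀ᶠ w in 𝓝 z, f w ^ k = g w) :
    AnalyticAt ℂ f z := by
  have hz : f z ^ k = g z := h.self_of_nhds
  have hk' : (k : ℂ) ≠ 0 := Nat.cast_ne_zero.2 hk.ne'
  have hf0 : f z ≠ 0 := fun h1 => h0 (by rw [← hz, h1, zero_pow hk.ne'])
  have hq : AnalyticAt ℂ (fun w => g w / g z) z := hg.div analyticAt_const h0
  have hR : AnalyticAt ℂ (fun w => f z * Complex.exp (Complex.log (g w / g z) / k)) z :=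
    analyticAt_const.mul ((hq.clog (by rw [div_self h0]; exact Complex.one_mem_slitPlane)).div
      analyticAt_const hk').cexp'
  have hRne : ∀ w, f z * Complex.exp (Complex.log (g w / g z) / k) ≠ 0 := fun w =>
    mul_ne_zero hf0 (Complex.exp_ne_zero _)
  have h2 : Tendsto (fun w => f w / (f z * Complex.exp (Complex.log (g w / g z) / k))) (𝓝 z)
      (𝓝 1) := by
    have h3 := (hf.div hR.continuousAt (hRne z)).tendsto
    simp only [Pi.div_apply, div_self h0, Complex.log_one, zero_div, Complex.exp_zero, mul_one,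
      div_self hf0] at h3
    exact h3
  refine hR.congr ?_
  filter_upwards [h2.eventually (cova_isolated hk), h, hg.continuousAt.eventually_ne h0]
    with w hw hw1 hw2
  refine ((div_eq_one_iff_eq (hRne w)).1 (hw ?_)).symm
  rw [div_pow, hw1, mul_pow, hz, ← Complex.exp_nat_mul, mul_div_cancel₀ _ hk',
    Complex.exp_log (div_ne_zero hw2 h0), mul_div_cancel₀ _ h0, div_self hw2]

theorem covb_inverse {F T : Cn n → Cn n} {z : Cn n} (hF : AnalyticAt ℂ F (T z))
    (hd : (fderiv ℂ F (T z)).det ≠ 0) (hT : ContinuousAt T z) (h : ∀ᶠ w in 𝓝 z, F (T w) = w) :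
    AnalyticAt ℂ T z := by
  have h1 : ContDiffAt ℂ ω F (T z) := hF.contDiffAt
  have h2 : HasFDerivAt F (((fderiv ℂ F (T z)).toContinuousLinearEquivOfDetNeZero hd :
      Cn n ≃L[ℂ] Cn n) : Cn n →L[ℂ] Cn n) (T z) := by
    rw [ContinuousLinearMap.coe_toContinuousLinearEquivOfDetNeZero]
    exact hF.differentiableAt.hasFDerivAt
  have h3 := (h1.to_localInverse h2 (by simp)).analyticAt
  rw [h.self_of_nhds] at h3
  refine h3.congr ?_
  filter_upwards [hT.eventually (h1.hasStrictFDerivAt' h2 (by simp)).eventually_left_inverse, h]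
    with w hw hw'
  rw [hw'] at hw
  exact hw

section

omit [T2Space X] [CompactSpace X] [ConnectedSpace X] [MeasurableSpace X] [BorelSpace X]

theorem covb_lh {A : Atl n X} {pr0 : X → Cn n} {O : Set X}
    (h : ∀ a, ∀ p ∈ O, p ∈ (A.e a).source → AnalyticAt ℂ (A.loc a pr0) (A.e a p) ∧
      (fderiv ℂ (A.loc a pr0) (A.e a p)).det ≠ 0) : IsLocalHomeomorphOn pr0 O := by
  refine IsLocalHomeomorphOn.mk _ _ fun p hp => ?_
  obtain ⟨a, ha⟩ := A.cover p
  obtain ⟨hF, hd⟩ := h a p hp ha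
  have h2 : HasStrictFDerivAt (A.loc a pr0)
      (((fderiv ℂ (A.loc a pr0) (A.e a p)).toContinuousLinearEquivOfDetNeZero hd :
      Cn n ≃L[ℂ] Cn n) : Cn n →L[ℂ] Cn n) (A.e a p) := by
    rw [ContinuousLinearMap.coe_toContinuousLinearEquivOfDetNeZero]
    exact (hF.contDiffAt (n := 1)).hasStrictFDerivAt one_ne_zero
  refine ⟨(A.e a).trans (h2.toOpenPartialHomeomorph _), ⟨ha, ?_⟩, fun q hq => ?_⟩
  · exact h2.mem_toOpenPartialHomeomorph_source
  · exact (A.loc_e a pr0 hq.1).symm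

variable {Y : Type} [TopologicalSpace Y] [MeasurableSpace Y] {A : Atl n X} {D : RD n Y}
  {π : Y → X}

theorem covb_sec (D : RD n Y) (q : Y) : ContinuousAt (D.sec q) (D.pr q) :=
  D.tendsto_sec' (D.pr_mem (D.mem_ch q))

theorem covb_ev (hπ : Continuous π) {a : A.ι} {q : Y} (hq : π q ∈ (A.e a).source) :
    ∀ᶠ z in 𝓝 (D.pr q), π (D.sec q z) ∈ (A.e a).source :=
  (hπ.continuousAt.tendsto.comp (D.tendsto_sec q)).eventually ((A.e a).open_source.mem_nhds hq)

theorem covb_T (hπ : Continuous π) {pr0 : X → Cn n} (hpr : ∀ q, D.pr q = pr0 (π q)) {a : A.ι}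
    {q : Y} (hq : π q ∈ (A.e a).source) (hF : AnalyticAt ℂ (A.loc a pr0) (A.e a (π q)))
    (hd : (fderiv ℂ (A.loc a pr0) (A.e a (π q))).det ≠ 0) :
    AnalyticAt ℂ (fun z => A.e a (π (D.sec q z))) (D.pr q) := by
  have hs : D.sec q (D.pr q) = q := D.sec_pr (D.mem_ch q)
  refine covb_inverse (F := A.loc a pr0) (by rwa [hs]) (by rwa [hs]) ?_ ?_
  · refine ContinuousAt.comp (f := fun z => π (D.sec q z)) ((A.e a).continuousAt (by rwa [hs]))
      (hπ.continuousAt.comp (covb_sec D q))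
  · filter_upwards [covb_ev (D := D) hπ hq, D.target_nhds q] with z hz hz'
    rw [A.loc_e a pr0 hz, ← hpr, D.pr_sec hz']

theorem covb_pull (hπ : Continuous π) {a : A.ι} {q : Y} (hq : π q ∈ (A.e a).source)
    (hT : AnalyticAt ℂ (fun z => A.e a (π (D.sec q z))) (D.pr q)) {f : X → ℂ}
    (hf : AnalyticAt ℂ (A.loc a f) (A.e a (π q))) :
    AnalyticAt ℂ (fun z => f (π (D.sec q z))) (D.pr q) := by
  have hs : D.sec q (D.pr q) = q := D.sec_pr (D.mem_ch q)
  have h1 := AnalyticAt.comp (g := A.loc a f) (f := fun z => A.e a (π (D.sec q z)))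
    (by rwa [hs]) hT
  refine h1.congr ?_
  filter_upwards [covb_ev (D := D) hπ hq] with z hz
  exact A.loc_e a f hz

theorem covb_one_le {ι : Type} [Fintype ι] (F : ι → ℂ) (i : ι) (h : F i ≠ 0) :
    1 ≤ ∑ j, ‖F j / F i‖ ^ 2 + 0 := by
  have := Finset.single_le_sum (f := fun j => ‖F j / F i‖ ^ 2) (fun j _ => sq_nonneg _)
    (Finset.mem_univ i)
  simp only [div_self h, norm_one, one_pow] at this
  rwa [add_zero]

theorem covb_le {ι : Type} [Fintype ι] (F : ι → ℂ) (i : ι) (h : F i ≠ 0) {c : ℝ}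
    (hc : Real.log (∑ j, ‖F j / F i‖ ^ 2 + 0) ≤ c) : ∑ j, ‖F j‖ ^ 2 ≤ Real.exp c * ‖F i‖ ^ 2 := by
  rw [Real.log_le_iff_le_exp (lt_of_lt_of_le one_pos (covb_one_le F i h)), add_zero] at hc
  simp only [norm_div, div_pow] at hc
  rw [← Finset.sum_div, div_le_iff₀ (by positivity)] at hc
  exact hc

/-- The logarithm of the sum of the squares of quotients of sections. -/
theorem covb_rho (hπ : Continuous π) {u : A.ι → X → ℂ} (hu : A.IsGauge u) {ι : Type} [Fintype ι]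
    {s : ι → X → ℂ} (hs : ∀ j, s j ∈ A.H0 u) (i : ι) (hi : ∀ q, s i (π q) ≠ 0)
    (hT : ∀ a q, π q ∈ (A.e a).source → AnalyticAt ℂ (fun z => A.e a (π (D.sec q z))) (D.pr q)) :
    D.SmR (fun q => Real.log (∑ j, ‖s j (π q) / s i (π q)‖ ^ 2 + 0)) ∧
      ∀ q v, 0 ≤ D.levi (fun q => Real.log (∑ j, ‖s j (π q) / s i (π q)‖ ^ 2 + 0)) q v := by
  have hol : ∀ j, D.Hol fun q => s j (π q) / s i (π q) := by
    intro j q
    obtain ⟨a, ha⟩ := A.cover (π q)
    exact (covb_pull hπ ha (hT a q ha) (f := fun p => s j p / s i p)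
      (Atl.analyticAt_div hu (hs j) (hs i) ((A.e a).map_source ha)
        (by rw [(A.e a).left_inv ha]; exact hi q))).differentiableAt
  have hpos : ∀ q, 0 < ∑ j, ‖s j (π q) / s i (π q)‖ ^ 2 + 0 := fun q =>
    lt_of_lt_of_le one_pos (covb_one_le (fun j => s j (π q)) i (hi q))
  exact ⟨((RD.SmR.sum Finset.univ fun j _ => (hol j).sm.normSq).add (RD.smR_const 0)).log
    fun q => (hpos q).ne', fun q v =>
      RD.levi_log_sum_nonneg Finset.univ (fun j _ => hol j) le_rfl hpos⟩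

theorem covb_closed {u : A.ι → X → ℂ} (hu : A.IsGauge u) {ι : Type} [Fintype ι]
    {s : ι → X → ℂ} (hs : ∀ j, s j ∈ A.H0 u) (i : ι) (c : ℝ) :
    IsClosed {p | ∑ j, ‖s j p‖ ^ 2 ≤ c * ‖s i p‖ ^ 2} := by
  have h : ∀ j, Continuous fun p => ‖s j p‖ ^ 2 := fun j =>
    (Atl.continuous_norm_of_mem hu (Atl.H0_le_Sec (hs j))).pow 2
  exact isClosed_le (continuous_finsetSum _ fun j _ => h j) (continuous_const.mul (h i))

theorem covb_ne {ι : Type} [Fintype ι] (F : ι → ℂ) (i : ι) {c : ℝ} (h : ∃ j, F j ≠ 0)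
    (hc : ∑ j, ‖F j‖ ^ 2 ≤ c * ‖F i‖ ^ 2) : F i ≠ 0 := by
  intro h0
  obtain ⟨j, hj⟩ := h
  have h1 := Finset.single_le_sum (f := fun j => ‖F j‖ ^ 2) (fun j _ => sq_nonneg _)
    (Finset.mem_univ j)
  have h2 : 0 < ‖F j‖ ^ 2 := by positivity
  rw [h0, norm_zero, zero_pow two_ne_zero, mul_zero] at hc
  exact absurd (h2.trans_le (h1.trans hc)) (lt_irrefl _)

end

theorem exists_cov (M : Model n X) (P : Pol M.toAtl) : Nonempty (Cov M P) := by
  obtain ⟨W, hW, hW0, hWd⟩ := exists_jac M P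
  obtain ⟨p0⟩ : Nonempty X := inferInstance
  obtain ⟨I, hI1, hI2⟩ := hW0 p0
  have hgu : M.IsGauge (P.u ^ P.k0) := P.gauge.pow _
  have hgW : M.IsGauge (M.k * P.u ^ (2 * n * P.k0)) := M.k_gauge.mul (P.gauge.pow _)
  have hG := hgu.mul hgW
  have hZ := Atl.mul_mem_H0 (P.imm.mem I.1) (hW I)
  have hO := Atl.isOpen_ne_zero hG (Atl.H0_le_Sec hZ)
  have hO1 : ∀ p ∈ {p | (P.s I.1 * W I) p ≠ 0}, P.s I.1 p ≠ 0 := fun p hp => left_ne_zero_of_mul hp
  have hO2 : ∀ p ∈ {p | (P.s I.1 * W I) p ≠ 0}, W I p ≠ 0 := fun p hp => right_ne_zero_of_mul hp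
  obtain ⟨K⟩ := exists_kum M P.gauge P.k0_pos (P.imm.mem I.1) hO hO1
  have hK : ∀ q, K.π q ∈ {p | (P.s I.1 * W I) p ≠ 0} := fun q =>
    K.range_π.subset (mem_range_self q)
  have hπ := K.lh.continuous
  let ms : MeasurableSpace K.Y := borel K.Y
  have bs : BorelSpace K.Y := ⟨rfl⟩
  set pr0 : X → Cn n := fun p l => P.s (I.2 l) p / P.s I.1 p with hpr0
  have hΩ : ∀ p ∈ {p | (P.s I.1 * W I) p ≠ 0}, W I p / P.s I.1 p ^ (2 * n) ≠ 0 := fun p hp =>
    div_ne_zero (hO2 p hp) (pow_ne_zero _ (hO1 p hp))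
  have han : ∀ a, ∀ p ∈ {p | (P.s I.1 * W I) p ≠ 0}, p ∈ (M.e a).source →
      AnalyticAt ℂ (M.loc a pr0) (M.e a p) ∧ (fderiv ℂ (M.loc a pr0) (M.e a p)).det ≠ 0 := by
    intro a p hp ha
    refine ⟨analyticAt_pi_iff.2 fun l => Atl.analyticAt_div hgu (P.imm.mem (I.2 l))
      (P.imm.mem I.1) ((M.e a).map_source ha) (by rw [(M.e a).left_inv ha]; exact hO1 p hp), ?_⟩
    rw [hpr0, ← hWd I a p ha (hO1 p hp)]
    exact mul_ne_zero (M.k_gauge.ne a p ha) (hΩ p hp)
  have lh : IsLocalHomeomorph (pr0 ∘ K.π) :=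
    isLocalHomeomorph_iff_isLocalHomeomorphOn_univ.2
      ((covb_lh han).comp K.lh.isLocalHomeomorphOn fun q _ => hK q)
  obtain ⟨D, hD⟩ := exists_RD _ lh
  have hpr : ∀ q, D.pr q = pr0 (K.π q) := fun q => by rw [hD]; rfl
  have hT : ∀ a q, K.π q ∈ (M.e a).source →
      AnalyticAt ℂ (fun z => M.e a (K.π (D.sec q z))) (D.pr q) := fun a q hq =>
    covb_T hπ hpr hq (han a _ (hK q) hq).1 (han a _ (hK q) hq).2
  obtain ⟨r1, r2⟩ := covb_rho (D := D) hπ hgu P.imm.mem I.1 (fun q => hO1 _ (hK q)) hT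
  obtain ⟨r3, r4⟩ := covb_rho (D := D) hπ hgW hW I (fun q => hO2 _ (hK q)) hT
  refine ⟨{
    Y := K.Y
    D := D
    π := K.π
    lh := K.lh
    G := _
    hG := hG
    Z := _
    hZ := hZ
    Z_ne := fun h => mul_ne_zero hI1 hI2 (congrFun h p0)
    range_π := K.range_π
    τ := K.τ
    π_τ := K.π_τ
    τ_per := K.τ_per
    fiber := K.fiber
    free := K.free
    pr0 := pr0
    hpr := hpr
    Ω := fun p => W I p / P.s I.1 p ^ (2 * n)
    Ω_ne := fun q => hΩ _ (hK q)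
    Ω_meas := ?_
    pr0_an := fun a q hq => (han a _ (hK q) hq).1
    Ω_det := fun a q hq => hWd I a _ hq (hO1 _ (hK q))
    T_an := hT
    Ω_an := fun a q hq => covb_pull hπ hq (hT a q hq)
      (f := fun p => M.k a p * (W I p / P.s I.1 p ^ (2 * n))) ?_
    t := K.t
    t_ne := K.t_ne
    t_an := fun a q hq => ?_
    ρ := _
    ρ_sm := r1.add r3
    ρ_cpt := fun c => ?_
    ρ_psh := fun q v => by rw [RD.levi_add r1 r3]; exact add_nonneg (r2 q v) (r4 q v) }⟩
  · simp only [norm_div, norm_pow]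
    exact (Atl.continuous_norm_of_mem hgW (Atl.H0_le_Sec (hW I))).measurable.div
      ((Atl.continuous_norm_of_mem hgu (Atl.H0_le_Sec (P.imm.mem I.1))).measurable.pow_const _)
  · have h1 := hW I a _ ((M.e a).map_source hq)
    have h2 := P.imm.mem I.1 a _ ((M.e a).map_source hq)
    have h3 := h1.div (h2.pow (2 * n)) (pow_ne_zero _ (by
      rw [M.loc_e a _ hq]
      exact mul_ne_zero (hgu.ne a _ hq) (hO1 _ (hK q))))
    refine h3.congr ?_
    filter_upwards [(M.e a).open_target.mem_nhds ((M.e a).map_source hq)] with z hz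
    have h4 := pow_ne_zero (2 * n * P.k0) (P.gauge.ne a _ ((M.e a).map_target hz))
    simp only [Atl.loc, Pi.div_apply, Pi.mul_apply, Pi.pow_apply, mul_pow, ← pow_mul]
    rw [mul_comm P.k0, mul_comm (M.k a _), mul_assoc, mul_div_mul_left _ _ h4, mul_div_assoc]
  · have hs : D.sec q (D.pr q) = q := D.sec_pr (D.mem_ch q)
    refine analyticAt_root P.k0_pos ?_ (covb_pull hπ hq (hT a q hq)
      (f := fun p => (P.u ^ P.k0) a p * P.s I.1 p) (P.imm.mem I.1 a _ ((M.e a).map_source hq)))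
      ?_ (Eventually.of_forall fun z => ?_)
    · refine ContinuousAt.comp (f := D.sec q) (g := fun q => P.u a (K.π q) * K.t q) ?_
        (covb_sec D q)
      rw [hs]
      exact (K.cont a).continuousAt (((M.e a).open_source.preimage hπ).mem_nhds hq)
    · rw [hs]
      exact mul_ne_zero (hgu.ne a _ hq) (hO1 _ (hK q))
    · rw [mul_pow, K.t_pow]
      rfl
  · have hc := ((covb_closed hgu P.imm.mem I.1 (Real.exp c)).inter
      (covb_closed hgW hW I (Real.exp c))).isCompact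
    refine (K.proper _ hc fun p hp => mul_ne_zero
      (covb_ne (fun j => P.s j p) I.1 (P.imm.bpf p) hp.1)
      (covb_ne (fun J => W J p) I ((hW0 p).imp fun J hJ => hJ.2) hp.2)).of_isClosed_subset
      (isClosed_le (r1.add r3).continuous continuous_const) fun q hq => ?_
    have h1 := Real.log_nonneg (covb_one_le (fun j => P.s j (K.π q)) I.1 (hO1 _ (hK q)))
    have h2 := Real.log_nonneg (covb_one_le (fun J => W J (K.π q)) I (hO2 _ (hK q)))
    have h3 : Real.log (∑ j, ‖P.s j (K.π q) / P.s I.1 (K.π q)‖ ^ 2 + 0) +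
      Real.log (∑ J, ‖W J (K.π q) / W I (K.π q)‖ ^ 2 + 0) ≤ c := hq
    exact ⟨covb_le (fun j => P.s j (K.π q)) I.1 (hO1 _ (hK q)) (by linarith),
      covb_le (fun J => W J (K.π q)) I (hO2 _ (hK q)) (by linarith)⟩

end Vale.Agent.P271A
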