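import Vale.Agent.P271A.Ext
import Vale.Agent.P271A.Meas

/-! P271A: the volume of the cover. -/

open MeasureTheory Filter Topology Set
open scoped ContDiff ENNReal ComplexConjugate

noncomputable section

namespace Vale.Agent.P271A

open Vale.Agent.P271

theorem covm_ext {Y : Type} [TopologicalSpace Y] [SecondCountableTopology Y] [MeasurableSpace Y]
    [BorelSpace Y] {μ ν : Measure Y} {O : Set Y}
    (h : ∀ x ∈ O, ∃ U, IsOpen U ∧ x ∈ U ∧ ∀ A ⊆ U, MeasurableSet A → μ A = ν A) :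
    μ.restrict O = ν.restrict O := by
  choose! U h1 h2 h3 using h
  obtain ⟨t, htO, htc, hcov⟩ := TopologicalSpace.countable_cover_nhdsWithin (f := U) (s := O)
    fun x hx => mem_nhdsWithin_of_mem_nhds ((h1 x hx).mem_nhds (h2 x hx))
  refine Measure.restrict_congr_mono hcov ((Measure.restrict_biUnion_congr htc).2 fun x hx => ?_)
  ext A hA
  rw [Measure.restrict_apply hA, Measure.restrict_apply hA]
  exact h3 x (htO hx) _ inter_subset_right (hA.inter (h1 x (htO hx)).measurableSet)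

theorem covm_image {n : ℕ} {Y : Type} [TopologicalSpace Y] [MeasurableSpace Y] [BorelSpace Y]
    (e : OpenPartialHomeomorph Y (Cn n)) {A : Set Y} (hA : MeasurableSet A) (h : A ⊆ e.source) :
    MeasurableSet (e '' A) := by
  have h1 := (RD.meas_emb_val _ e.open_target).measurableSet_image.2
    ((RD.meas_emb_symm e).measurable hA)
  have h2 : e '' A = Subtype.val '' ((fun z : e.target => e.symm z) ⁻¹' A) := by
    ext z
    constructor
    · rintro ⟨p, hp, rfl⟩
      refine ⟨⟨e p, e.map_source (h hp)⟩, ?_, rfl⟩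
      change e.symm (e p) ∈ A
      rwa [e.left_inv (h hp)]
    · rintro ⟨w, hw, rfl⟩
      exact ⟨_, hw, e.right_inv w.2⟩
  rwa [h2]

theorem covm_chart {n : ℕ} {Y : Type} [TopologicalSpace Y] [T2Space Y] [SecondCountableTopology Y]
    [MeasurableSpace Y] [BorelSpace Y] (D : RD n Y) (y : Y) {B : Set Y} (hB : MeasurableSet B)
    (h : B ⊆ (D.ch y).source) (w : Y → ℝ≥0∞) :
    ∫⁻ q in B, w q ∂D.μ = ∫⁻ z in D.pr '' B, w (D.sec y z) := by
  have hm : MeasurableSet (D.pr '' B) :=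
    meas_measurableSet_image D.lh (D.ch y).open_source (D.injOn_ch y) h hB
  have hs : D.pr '' B ⊆ (D.ch y).target := by
    rintro _ ⟨q, hq, rfl⟩
    exact D.pr_mem (h hq)
  have h1 := RD.lintegral_chart (D.ch y) (D.ch_eqOn y) (B.indicator w)
  rw [lintegral_indicator hB, Measure.restrict_restrict_of_subset h] at h1
  rw [h1, ← Measure.restrict_restrict_of_subset hs, ← lintegral_indicator hm]
  refine setLIntegral_congr_fun (D.ch y).open_target.measurableSet fun z hz => ?_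
  by_cases hz' : D.sec y z ∈ B
  · rw [indicator_of_mem (show z ∈ D.pr '' B from ⟨_, hz', D.pr_sec hz⟩)]
    exact indicator_of_mem hz' w
  · rw [indicator_of_notMem (show z ∉ D.pr '' B by
      rintro ⟨q, hq, rfl⟩
      exact hz' (by rwa [D.sec_pr (h hq)]))]
    exact indicator_of_notMem hz' w

variable {n : ℕ} {X : Type} [TopologicalSpace X] [T2Space X] [CompactSpace X] [ConnectedSpace X]
  [MeasurableSpace X] [BorelSpace X]
  {M : Model n X} {P : Pol M.toAtl} (C : Cov M P)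

/-- A homeomorphism commuting with the projection preserves the volume. -/
theorem RD.measurePreserving_of_pr {Y : Type} [TopologicalSpace Y] [T2Space Y]
    [SecondCountableTopology Y] [MeasurableSpace Y] [BorelSpace Y] (D : RD n Y) (τ : Y ≃ₜ Y)
    (h : ∀ q, D.pr (τ q) = D.pr q) : MeasurePreserving τ D.μ D.μ := by
  refine ⟨τ.continuous.measurable, ?_⟩
  have key := covm_ext (μ := D.μ.map τ) (ν := D.μ) (O := univ) fun y _ =>
    ⟨(D.ch y).source, (D.ch y).open_source, D.mem_ch y, fun A hA hm => by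
      rw [Measure.map_apply τ.continuous.measurable hm,
        D.hμ _ (D.ch y).open_source (D.injOn_ch y) A hA hm,
        D.hμ (τ ⁻¹' (D.ch y).source) ((D.ch y).open_source.preimage τ.continuous)
          (fun p hp q hq hpq => τ.injective (D.injOn_ch y hp hq (by rw [h, h, hpq])))
          _ (preimage_mono hA) (τ.continuous.measurable hm)]
      congr 1
      ext z
      constructor
      · rintro ⟨q, hq, rfl⟩
        exact ⟨τ q, hq, h q⟩
      · rintro ⟨q, hq, rfl⟩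
        refine ⟨τ.symm q, by simpa using hq, ?_⟩
        rw [← h, τ.apply_symm_apply]⟩
  rwa [Measure.restrict_univ, Measure.restrict_univ] at key

theorem real_det (L : Cn n →L[ℂ] Cn n) : |(L.restrictScalars ℝ).det| = ‖L.det‖ ^ 2 := by
  have h : (L.restrictScalars ℝ).det = Algebra.norm ℝ L.det :=
    LinearMap.det_restrictScalars (R := ℝ) (S := ℂ) (f := (L : Cn n →ₗ[ℂ] Cn n))
  rw [h, Algebra.norm_complex_apply, Complex.normSq_eq_norm_sq, abs_of_nonneg (sq_nonneg _)]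

omit [T2Space X] [CompactSpace X] [ConnectedSpace X] in
theorem covm_w_meas : Measurable fun q => ENNReal.ofReal ((‖C.Ω (C.π q)‖ ^ 2)⁻¹) :=
  ((C.Ω_meas.comp C.lh.continuous.measurable).pow_const 2).inv.ennreal_ofReal

omit [T2Space X] [CompactSpace X] [ConnectedSpace X] [BorelSpace X] in
theorem covm_iter (i : ℕ) (q : C.Y) : C.π (C.τ^[i] q) = C.π q := by
  induction i with
  | zero => rfl
  | succ i ih => rw [Function.iterate_succ_apply', C.π_τ, ih]

omit [T2Space X] [CompactSpace X] [ConnectedSpace X] in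
theorem covm_sheets {e : OpenPartialHomeomorph C.Y X} (he : C.π = e) {A : Set X}
    (hA : MeasurableSet A) (hAe : A ⊆ e.target) :
    ∫⁻ q in C.π ⁻¹' A, ENNReal.ofReal ((‖C.Ω (C.π q)‖ ^ 2)⁻¹) ∂C.D.μ =
      P.k0 * ∫⁻ q in e.source ∩ C.π ⁻¹' A, ENNReal.ofReal ((‖C.Ω (C.π q)‖ ^ 2)⁻¹) ∂C.D.μ := by
  have hB : MeasurableSet (e.source ∩ C.π ⁻¹' A) :=
    e.open_source.measurableSet.inter (C.lh.continuous.measurable hA)
  have hτ : MeasurePreserving C.τ C.D.μ C.D.μ :=
    C.D.measurePreserving_of_pr C.τ fun q => by rw [C.hpr, C.hpr, C.π_τ]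
  have h1 : C.π ⁻¹' A = ⋃ i : Fin P.k0, C.τ^[i] ⁻¹' (e.source ∩ C.π ⁻¹' A) := by
    ext q
    constructor
    · intro hq
      have h2 : C.π (e.symm (C.π q)) = C.π q := by
        have := e.right_inv (hAe hq)
        rwa [← he] at this
      obtain ⟨i, hi, h3⟩ := C.fiber q _ h2.symm
      refine mem_iUnion.2 ⟨⟨i, hi⟩, ?_, ?_⟩
      · rw [← h3]
        exact e.map_target (hAe hq)
      · rw [mem_preimage, covm_iter]
        exact hq
    · intro hq
      obtain ⟨i, -, h2⟩ := mem_iUnion.1 hq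
      rwa [mem_preimage, covm_iter] at h2
  conv_lhs => rw [h1]
  rw [lintegral_iUnion (fun i : Fin P.k0 => (hτ.iterate i).measurable hB)]
  · have h2 : ∀ i : Fin P.k0, ∫⁻ q in C.τ^[i] ⁻¹' (e.source ∩ C.π ⁻¹' A),
        ENNReal.ofReal ((‖C.Ω (C.π q)‖ ^ 2)⁻¹) ∂C.D.μ =
        ∫⁻ q in e.source ∩ C.π ⁻¹' A, ENNReal.ofReal ((‖C.Ω (C.π q)‖ ^ 2)⁻¹) ∂C.D.μ := by
      intro i
      rw [← (hτ.iterate i).setLIntegral_comp_preimage hB (covm_w_meas C)]
      simp only [covm_iter]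
    simp only [h2, tsum_fintype, Finset.sum_const, Finset.card_univ, Fintype.card_fin,
      nsmul_eq_mul]
  · intro i j hij
    refine Set.disjoint_left.2 fun q hi hj => hij (Fin.ext (C.free q i i.2 j j.2 ?_))
    refine e.injOn hi.1 hj.1 ?_
    rw [← he, covm_iter, covm_iter]

omit [T2Space X] [CompactSpace X] [ConnectedSpace X] in
theorem covm_sheet {e : OpenPartialHomeomorph C.Y X} (he : C.π = e) {A : Set X}
    (hA : MeasurableSet A) (hAe : A ⊆ e.target) {q0 : C.Y}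
    (hch : ∀ p ∈ A, e.symm p ∈ (C.D.ch q0).source) {a : M.ι} (ha : A ⊆ (M.e a).source) :
    ∫⁻ q in e.source ∩ C.π ⁻¹' A, ENNReal.ofReal ((‖C.Ω (C.π q)‖ ^ 2)⁻¹) ∂C.D.μ = M.μ A := by
  have hB : MeasurableSet (e.source ∩ C.π ⁻¹' A) :=
    e.open_source.measurableSet.inter (C.lh.continuous.measurable hA)
  have hr : ∀ p ∈ A, C.π (e.symm p) = p := fun p hp => by
    rw [he]; exact e.right_inv (hAe hp)
  have hl : ∀ q ∈ e.source, e.symm (C.π q) = q := fun q hq => by
    rw [he]; exact e.left_inv hq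
  have hF : ∀ p ∈ A, M.loc a C.pr0 (M.e a p) = C.D.pr (e.symm p) := fun p hp => by
    rw [M.loc_e a _ (ha hp), C.hpr, hr p hp]
  have him : C.D.pr '' (e.source ∩ C.π ⁻¹' A) = M.loc a C.pr0 '' (M.e a '' A) := by
    ext z
    constructor
    · rintro ⟨q, hq, rfl⟩
      exact ⟨_, ⟨_, hq.2, rfl⟩, by rw [hF _ hq.2, hl q hq.1]⟩
    · rintro ⟨_, ⟨p, hp, rfl⟩, rfl⟩
      exact ⟨e.symm p, ⟨e.map_target (hAe hp), by rwa [mem_preimage, hr p hp]⟩, (hF p hp).symm⟩
  have hS := covm_image (M.e a) hA ha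
  rw [covm_chart C.D q0 hB (fun q hq => by rw [← hl q hq.1]; exact hch _ hq.2), him,
    lintegral_image_eq_lintegral_abs_det_fderiv_mul volume hS
      (f' := fun x => (fderiv ℂ (M.loc a C.pr0) x).restrictScalars ℝ), M.measure_chart a hA ha]
  · refine setLIntegral_congr_fun hS ?_
    rintro _ ⟨p, hp, rfl⟩
    have h1 := C.Ω_det a (e.symm p) (by rw [hr p hp]; exact ha hp)
    have h2 := norm_ne_zero_iff.2 (C.Ω_ne (e.symm p))
    rw [hr p hp] at h1 h2
    dsimp only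
    rw [real_det, ← h1, hF p hp, C.D.sec_pr (hch p hp), hr p hp, (M.e a).left_inv (ha hp),
      ← ENNReal.ofReal_mul (sq_nonneg _), norm_mul]
    congr 1
    field_simp
  · rintro _ ⟨p, hp, rfl⟩
    have h1 := C.pr0_an a (e.symm p) (by rw [hr p hp]; exact ha hp)
    rw [hr p hp] at h1
    exact (h1.differentiableAt.hasFDerivAt.restrictScalars ℝ).hasFDerivWithinAt
  · rintro _ ⟨p, hp, rfl⟩ _ ⟨p', hp', rfl⟩ h
    rw [hF p hp, hF p' hp'] at h
    have h1 := C.D.injOn_ch q0 (hch p hp) (hch p' hp') h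
    rw [← hr p hp, h1, hr p' hp']

theorem covm_map : (C.D.μ.withDensity
    fun q => ENNReal.ofReal ((‖C.Ω (C.π q)‖ ^ 2)⁻¹)).map C.π = (P.k0 : ℝ≥0∞) • M.μ := by
  have hsc := secondCountable_of_atl M.toAtl
  have hπ := C.lh.continuous.measurable
  have hO : MeasurableSet (range C.π) := C.lh.isOpenMap.isOpen_range.measurableSet
  have h1 : ∀ᵐ p ∂((C.D.μ.withDensity
      fun q => ENNReal.ofReal ((‖C.Ω (C.π q)‖ ^ 2)⁻¹)).map C.π), p ∈ range C.π :=
    (ae_map_iff hπ.aemeasurable hO).2 (Eventually.of_forall fun q => mem_range_self q)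
  have h2 : ∀ᵐ p ∂((P.k0 : ℝ≥0∞) • M.μ), p ∈ range C.π := by
    refine Measure.ae_smul_measure ?_ _
    rw [C.range_π, ae_iff]
    simpa using null_zero M C.hG C.hZ C.Z_ne
  rw [← Measure.restrict_eq_self_of_ae_mem h1, ← Measure.restrict_eq_self_of_ae_mem h2]
  refine covm_ext ?_
  rintro _ ⟨q0, rfl⟩
  obtain ⟨e, he, hπe⟩ := C.lh q0
  obtain ⟨a, ha⟩ := M.cover (C.π q0)
  refine ⟨(e.target ∩ e.symm ⁻¹' (C.D.ch q0).source) ∩ (M.e a).source,
    (e.isOpen_inter_preimage_symm (C.D.ch q0).open_source).inter (M.e a).open_source,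
    ⟨⟨hπe ▸ e.map_source he, ?_⟩, ha⟩, fun A hA hm => ?_⟩
  · rw [mem_preimage, hπe, e.left_inv he]
    exact C.D.mem_ch q0
  · rw [Measure.map_apply hπ hm, withDensity_apply _ (hπ hm),
      covm_sheets C hπe hm fun p hp => (hA hp).1.1,
      covm_sheet C hπe hm (fun p hp => (hA hp).1.1) (fun p hp => (hA hp).1.2)
        fun p hp => (hA hp).2, Measure.smul_apply, smul_eq_mul]

theorem Cov.lintegral_pull {G : X → ℝ≥0∞} (hG : Measurable G) :
    ∫⁻ q, G (C.π q) * ENNReal.ofReal ((‖C.Ω (C.π q)‖ ^ 2)⁻¹) ∂C.D.μ =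
      P.k0 * ∫⁻ p, G p ∂M.μ := by
  have hπ := C.lh.continuous.measurable
  have h1 := lintegral_map (μ := C.D.μ.withDensity
    fun q => ENNReal.ofReal ((‖C.Ω (C.π q)‖ ^ 2)⁻¹)) hG hπ
  rw [covm_map, lintegral_smul_measure, smul_eq_mul,
    lintegral_withDensity_eq_lintegral_mul _ (covm_w_meas C) (g := fun q => G (C.π q))
      (hG.comp hπ)] at h1
  rw [h1]
  exact lintegral_congr fun q => mul_comm _ _

theorem Cov.integral_pull {θ : X → ℝ} (hθ : Continuous θ) (h0 : ∀ p, 0 ≤ θ p) :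
    Integrable (fun q => θ (C.π q) * (‖C.Ω (C.π q)‖ ^ 2)⁻¹) C.D.μ ∧
      ∫ q, θ (C.π q) * (‖C.Ω (C.π q)‖ ^ 2)⁻¹ ∂C.D.μ = P.k0 * ∫ p, θ p ∂M.μ := by
  have hπ := C.lh.continuous.measurable
  have hi : Integrable θ M.μ := hθ.integrable_of_hasCompactSupport (HasCompactSupport.of_compactSpace θ)
  have hm : Measurable fun q => θ (C.π q) * (‖C.Ω (C.π q)‖ ^ 2)⁻¹ :=
    (hθ.measurable.comp hπ).mul ((C.Ω_meas.comp hπ).pow_const 2).inv
  have hnn : ∀ q, 0 ≤ θ (C.π q) * (‖C.Ω (C.π q)‖ ^ 2)⁻¹ := fun q =>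
    mul_nonneg (h0 _) (by positivity)
  have h1 : ∫⁻ q, ENNReal.ofReal (θ (C.π q) * (‖C.Ω (C.π q)‖ ^ 2)⁻¹) ∂C.D.μ =
      ENNReal.ofReal (P.k0 * ∫ p, θ p ∂M.μ) := by
    simp only [ENNReal.ofReal_mul (h0 _)]
    rw [C.lintegral_pull (G := fun p => ENNReal.ofReal (θ p)) hθ.measurable.ennreal_ofReal,
      ← ofReal_integral_eq_lintegral_ofReal hi (Eventually.of_forall h0),
      ENNReal.ofReal_mul (Nat.cast_nonneg _), ENNReal.ofReal_natCast]
  refine ⟨⟨hm.aestronglyMeasurable, ?_⟩, ?_⟩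
  · rw [hasFiniteIntegral_iff_ofReal (Eventually.of_forall hnn), h1]
    exact ENNReal.ofReal_lt_top
  · rw [integral_eq_lintegral_of_nonneg_ae (Eventually.of_forall hnn) hm.aestronglyMeasurable, h1,
      ENNReal.toReal_ofReal (mul_nonneg (Nat.cast_nonneg _) (integral_nonneg h0))]

end Vale.Agent.P271A
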