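import Vale.Agent.P271A.HormX

/-! P271A: the criterion for a base point. -/

open MeasureTheory Filter Topology Set
open scoped ContDiff ENNReal ComplexConjugate

noncomputable section

namespace Vale.Agent.P271A

open Vale.Agent.P271

variable {n : ℕ} {X : Type} [TopologicalSpace X] [T2Space X] [CompactSpace X] [ConnectedSpace X]
  [MeasurableSpace X] [BorelSpace X]

omit [T2Space X] [ConnectedSpace X] [MeasurableSpace X] [BorelSpace X] in
/-- A smooth section concentrated near `x` and holomorphic near `x`. -/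
theorem crit_cut {A : Atl n X} (P : Pol A) {G : A.ι → X → ℂ} (hG : A.IsGauge G) {x : X}
    {i0 : Fin P.N} (hx : P.s i0 x ≠ 0) {δ0 : ℝ} (hδ0 : 0 < δ0) :
    ∃ δ > (0 : ℝ), 2 * δ ≤ δ0 ∧ ∃ w ∈ A.Sec G, ∃ c > (0 : ℝ), ∃ C > (0 : ℝ),
      (∀ p, P.r x i0 p ≤ δ / 2 → c ≤ ‖w p‖) ∧ ∀ p, ∃ a, p ∈ (A.e a).source ∧ ∀ ξ,
        ‖dzb ξ (A.loc a fun q => G a q * w q) (A.e a p)‖ ^ 2 ≤
          C * ‖G a p‖ ^ 2 * Lv P (fun _ => 0) 1 a p ξ ∧
        (P.r x i0 p < δ / 2 ∨ δ < P.r x i0 p →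
          dzb ξ (A.loc a fun q => G a q * w q) (A.e a p) = 0) := by
  obtain ⟨a, ha⟩ := A.cover x
  obtain ⟨δ', hδ', hsub⟩ := P.exists_r_lt_subset hx ((A.e a).open_source.mem_nhds ha)
  obtain ⟨δ, hδ, d1, d2⟩ : ∃ δ > (0 : ℝ), 2 * δ ≤ δ0 ∧ δ < δ' :=
    ⟨min (δ0 / 2) (δ' / 2), by positivity, by linarith [min_le_left (δ0 / 2) (δ' / 2)],
      by linarith [min_le_right (δ0 / 2) (δ' / 2)]⟩
  have hr := P.continuous_r x i0
  have hK : IsCompact {p | P.r x i0 p ≤ δ} := (isClosed_le hr continuous_const).isCompact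
  have hKa : {p | P.r x i0 p ≤ δ} ⊆ (A.e a).source := fun p hp => hsub p (lt_of_le_of_lt hp d2)
  have hne : {p | P.r x i0 p ≤ δ}.Nonempty :=
    ⟨x, (le_of_eq ((P.r_eq_zero_iff hx x).2 rfl)).trans hδ.le⟩
  obtain ⟨χ, hχ⟩ : ∃ χ : X → ℝ, χ = fun p =>
    Real.smoothTransition (2 - 4 * P.r x i0 p ^ 2 / δ ^ 2) := ⟨_, rfl⟩
  have hχs : A.Sm χ := by
    rw [hχ]
    simp only [P.r_sq]
    exact sm_comp (sq_dist (P := P) i0 fun i => P.s i x / P.s i0 x).sm
      (χ := fun t => Real.smoothTransition (2 - 4 * t / δ ^ 2)) fun q =>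
      Real.smoothTransition.contDiffAt.comp _ (by fun_prop)
  have hχ1 : ∀ p, P.r x i0 p ≤ δ / 2 → χ p = 1 := fun p hp => by
    rw [hχ]
    refine Real.smoothTransition.one_of_one_le ?_
    have h1 : 4 * P.r x i0 p ^ 2 / δ ^ 2 ≤ 1 := by
      rw [div_le_one (by positivity)]
      nlinarith [P.r_nonneg x i0 p]
    linarith
  have hχ0 : ∀ p, δ < P.r x i0 p → χ p = 0 := fun p hp => by
    rw [hχ]
    refine Real.smoothTransition.zero_of_nonpos ?_
    have h1 : 2 ≤ 4 * P.r x i0 p ^ 2 / δ ^ 2 := by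
      rw [le_div_iff₀ (by positivity)]
      nlinarith
    linarith
  have e1 : ∀ p ∈ (A.e a).source, (A.loc a fun q => G a q * ((χ q : ℂ) / G a q)) =ᶠ[𝓝 (A.e a p)]
      A.loc a fun q => (χ q : ℂ) := fun p hp =>
    (ev_source hp).mono fun z hz => mul_div_cancel₀ _ (hG.ne a _ hz)
  have e2 : ∀ b, ∀ p ∈ (A.e b).source, δ < P.r x i0 p →
      (A.loc b fun q => G b q * ((χ q : ℂ) / G a q)) =ᶠ[𝓝 (A.e b p)] fun _ => 0 :=
    fun b p hp h => (((A.e b).tendsto_symm hp).eventually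
      ((isOpen_lt continuous_const hr).mem_nhds h)).mono fun z hz => by
        simp [Atl.loc, hχ0 _ hz]
  obtain ⟨C, hC, hCb⟩ := exists_dzb_le P hK hKa hχs
  have hc := (Atl.continuousOn_norm_gauge hG a).mono hKa
  obtain ⟨p0, hp0, hmin⟩ := hK.exists_isMinOn hne hc
  obtain ⟨p1, hp1, hmax⟩ := hK.exists_isMaxOn hne hc
  have g0 : 0 < ‖G a p0‖ := norm_pos_iff.2 (hG.ne a _ (hKa hp0))
  have g1 : 0 < ‖G a p1‖ := norm_pos_iff.2 (hG.ne a _ (hKa hp1))
  refine ⟨δ, hδ, d1, fun q => (χ q : ℂ) / G a q, Atl.mem_Sec_of_local hG fun p => ?_,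
    ‖G a p1‖⁻¹, by positivity, C / ‖G a p0‖ ^ 2, by positivity, fun p hp => ?_, fun p => ?_⟩
  · rcases le_or_gt (P.r x i0 p) δ with h | h
    · exact ⟨a, hKa h, (Brid_ofReal (sm_at hχs (hKa h))).congr_of_eventuallyEq (e1 p (hKa h))⟩
    · obtain ⟨b, hb⟩ := A.cover p
      exact ⟨b, hb, contDiffAt_const.congr_of_eventuallyEq (e2 b p hb h)⟩
  · have h : p ∈ {p | P.r x i0 p ≤ δ} := hp.trans (half_le_self hδ.le)
    simp only [hχ1 p hp, Complex.ofReal_one, one_div, norm_inv]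
    exact inv_anti₀ (norm_pos_iff.2 (hG.ne a _ (hKa h))) (hmax h)
  · rcases le_or_gt (P.r x i0 p) δ with h | h
    · refine ⟨a, hKa h, fun ξ => ?_⟩
      rw [dzb_congr (e1 p (hKa h))]
      refine ⟨(hCb p h ξ).trans (mul_le_mul_of_nonneg_right ?_ (Lv_fs_nonneg P (hKa h))),
        fun h' => ?_⟩
      · rw [div_mul_eq_mul_div, le_div_iff₀ (by positivity)]
        exact mul_le_mul_of_nonneg_left (pow_le_pow_left₀ g0.le (hmin h) 2) hC.le
      · have e3 : (A.loc a fun q => (χ q : ℂ)) =ᶠ[𝓝 (A.e a p)] fun _ => 1 :=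
          (((A.e a).tendsto_symm (hKa h)).eventually ((isOpen_lt hr continuous_const).mem_nhds
            (h'.resolve_right (not_lt.2 h)))).mono fun z hz => by
              simp [Atl.loc, hχ1 _ (le_of_lt hz)]
        rw [dzb_congr e3, dzb_const]
    · obtain ⟨b, hb⟩ := A.cover p
      refine ⟨b, hb, fun ξ => ?_⟩
      rw [dzb_congr (e2 b p hb h), dzb_const, norm_zero, zero_pow two_ne_zero]
      exact ⟨mul_nonneg (by positivity) (Lv_fs_nonneg P hb), fun _ => rfl⟩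

theorem crit_bump {δ : ℝ} (hδ : 0 < δ) : ∃ χ : ℝ → ℝ, Continuous χ ∧ (∀ t, 0 ≤ χ t ∧ χ t ≤ 1) ∧
    (∀ t, δ / 2 ≤ t → t ≤ δ → χ t = 1) ∧ ∀ t, ¬(δ / 4 ≤ t ∧ t < 2 * δ) → χ t = 0 := by
  refine ⟨fun t => max 0 (min 1 (min (4 * t / δ - 1) (2 - t / δ))), by fun_prop,
    fun t => ⟨le_max_left _ _, max_le zero_le_one (min_le_left _ _)⟩, fun t h1 h2 => ?_,
    fun t h => max_eq_left ((min_le_right _ _).trans ?_)⟩
  · have e1 : 2 ≤ 4 * t / δ := by rw [le_div_iff₀ hδ]; linarith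
    have e2 : t / δ ≤ 1 := (div_le_one hδ).2 h2
    simp only
    rw [min_eq_left (le_min (by linarith) (by linarith)), max_eq_right zero_le_one]
  · rcases not_and_or.1 h with h | h
    · have e1 : 4 * t / δ ≤ 1 := by rw [div_le_one hδ]; linarith
      exact (min_le_left _ _).trans (by linarith)
    · have e1 : 2 ≤ t / δ := by rw [le_div_iff₀ hδ]; linarith
      exact (min_le_right _ _).trans (by linarith)

theorem crit (M : Model n X) (P : Pol M.toAtl) (m j : ℕ) {x : X} {i0 : Fin P.N}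
    (hx : P.s i0 x ≠ 0) (hz : ∀ h ∈ M.H0 (M.k * (P.u ^ m * M.k⁻¹ ^ j)), h x = 0)
    {δ0 l : ℝ} (hδ : 0 < δ0) (hl : 0 < l) : ∃ δ1 > (0 : ℝ), ∃ C > (0 : ℝ), ∀ ψ : X → ℝ, M.Sm ψ →
      (∀ a, ∀ p ∈ (M.e a).source, ∀ ξ, l * Lv P (fun _ => 0) 1 a p ξ ≤
        Lev (M.wt (P.u ^ m * M.k⁻¹ ^ j) ψ a) (M.e a p) ξ) →
      ∀ Ψ0 E s : ℝ, (∀ p, ψ p ≤ Ψ0) →
        ∫ p in {p | δ1 ≤ P.r x i0 p ∧ P.r x i0 p < δ0}, Real.exp (-ψ p) ∂M.μ ≤ E →
        0 < s → s * (1 + √(Real.exp Ψ0 * E)) ≤ 1 / C →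
        ∫ p in {p | P.r x i0 p ≤ s}, Real.exp (-ψ p) ∂M.μ ≤ C * E := by
  have hG : M.IsGauge (M.k * (P.u ^ m * M.k⁻¹ ^ j)) :=
    M.k_gauge.mul ((P.gauge.pow m).mul (M.k_gauge.inv.pow j))
  obtain ⟨δ, hd, d1, w, hw, c, hc, C0, hC0, hw1, hw2⟩ := crit_cut P hG hx hδ
  obtain ⟨χ, hχ, x1, x2, x3⟩ := crit_bump hd
  obtain ⟨C2, hC2, δ2, hδ2, hlip⟩ := lip_le M hG P hx hz
  obtain ⟨C1, hC1⟩ : ∃ C1, C1 = C0 / l := ⟨_, rfl⟩
  have hC1' : 0 < C1 := by rw [hC1]; positivity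
  have hW : 0 ≤ M.N2 (fun _ => 0) w := N2_nonneg M
  obtain ⟨C, hC⟩ : ∃ C, C = 1 + 2 / δ2 + 2 / δ + 8 * C2 * (M.N2 (fun _ => 0) w + C1) / c ^ 2 +
    4 * C1 / c ^ 2 := ⟨_, rfl⟩
  have c1 : 0 < 2 / δ2 := by positivity
  have c2 : 0 < 2 / δ := by positivity
  have c3 : 0 < 8 * C2 * (M.N2 (fun _ => 0) w + C1) / c ^ 2 := by positivity
  have c4 : 0 < 4 * C1 / c ^ 2 := by positivity
  have hC0' : 0 < C := by linarith
  refine ⟨δ / 4, by positivity, C, hC0', fun ψ hψ hcur Ψ0 E s hΨ hE hs hsC => ?_⟩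
  have hr := P.continuous_r x i0
  have hψc := hψ.continuous
  have hi : Integrable (fun p => Real.exp (-ψ p)) M.μ := onb_int M hψc.neg.rexp
  have hE0 : 0 ≤ E := le_trans (integral_nonneg fun p => (Real.exp_pos _).le) hE
  have hθ : Continuous fun p => C1 * χ (P.r x i0 p) := continuous_const.mul (hχ.comp hr)
  obtain ⟨h, hh, hN⟩ := hormX M P m j hψ hw hθ (fun p => mul_nonneg hC1'.le (x1 _).1) fun p => by
    obtain ⟨a, ha, h1⟩ := hw2 p
    refine ⟨a, ha, fun ξ => ?_⟩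
    have h2 := hcur a p ha ξ
    have h3 := (mul_nonneg hl.le (Lv_fs_nonneg P ha)).trans h2
    refine ⟨h3, ?_⟩
    by_cases h4 : P.r x i0 p < δ / 2 ∨ δ < P.r x i0 p
    · rw [(h1 ξ).2 h4, norm_zero, zero_pow two_ne_zero]
      exact mul_nonneg (mul_nonneg (mul_nonneg hC1'.le (x1 _).1) (sq_nonneg _)) h3
    · rw [not_or, not_lt, not_lt] at h4
      rw [x2 _ h4.1 h4.2, mul_one]
      refine (h1 ξ).1.trans (le_trans (le_of_eq ?_)
        (mul_le_mul_of_nonneg_left h2 (by positivity)))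
      rw [hC1]
      field_simp
  have hS : MeasurableSet {p | δ / 4 ≤ P.r x i0 p ∧ P.r x i0 p < δ0} :=
    (isClosed_le continuous_const hr).measurableSet.inter
      (isOpen_lt hr continuous_const).measurableSet
  have hN1 : M.N2 ψ (w - h) ≤ C1 * E := by
    refine hN.trans (le_trans ?_ (mul_le_mul_of_nonneg_left hE hC1'.le))
    rw [← integral_const_mul, ← integral_indicator hS]
    refine integral_mono (onb_int M (hθ.mul hψc.neg.rexp)) ((hi.const_mul _).indicator hS)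
      fun p => ?_
    by_cases hp : p ∈ {p | δ / 4 ≤ P.r x i0 p ∧ P.r x i0 p < δ0}
    · simp only [indicator_of_mem hp]
      exact mul_le_mul_of_nonneg_right (mul_le_of_le_one_right hC1'.le (x1 _).2)
        (Real.exp_pos _).le
    · simp only [indicator_of_notMem hp]
      rw [x3 _ fun h => hp ⟨h.1, h.2.trans_le d1⟩, mul_zero, zero_mul]
  have hwh : w - h ∈ M.Sec (M.k * (P.u ^ m * M.k⁻¹ ^ j)) := sub_mem hw (Atl.H0_le_Sec hh)
  obtain ⟨Y, hY⟩ : ∃ Y, Y = √(Real.exp Ψ0 * E) := ⟨_, rfl⟩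
  have hY0 : 0 ≤ Y := by rw [hY]; positivity
  have hN2 : M.N2 (fun _ => 0) h ≤ 2 * M.N2 (fun _ => 0) w + 2 * (C1 * Y ^ 2) := by
    have h1 := N2_sub_le M hG hw hwh (ψ := fun _ => 0) continuous_const
    have h2 := N2_le_exp M hG hwh hψc (ψ' := fun _ => 0) continuous_const (c := Ψ0)
      fun p => by simpa using hΨ p
    have h3 := mul_le_mul_of_nonneg_left hN1 (Real.exp_pos Ψ0).le
    rw [sub_sub_cancel] at h1
    rw [hY, Real.sq_sqrt (by positivity)]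
    linarith
  rw [← hY, le_div_iff₀ hC0'] at hsC
  have s0 : 0 ≤ s * Y * C := by positivity
  have s1 : s * C ≤ 1 := by linarith
  have s2 : s * Y * C ≤ 1 := by nlinarith [mul_pos hs hC0']
  have s3 : s < δ2 := by
    have : s * (2 / δ2) ≤ 1 := (mul_le_mul_of_nonneg_left (by linarith) hs.le).trans s1
    rw [← mul_div_assoc, div_le_one hδ2] at this
    linarith
  have s4 : s ≤ δ / 2 := by
    have : s * (2 / δ) ≤ 1 := (mul_le_mul_of_nonneg_left (by linarith) hs.le).trans s1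
    rw [← mul_div_assoc, div_le_one hd] at this
    linarith
  have s5 : s ^ 2 * C ≤ 1 := by
    have : s ≤ 1 := (le_mul_of_one_le_right hs.le (by linarith)).trans s1
    nlinarith
  have s6 : (s * Y) ^ 2 * C ≤ 1 := by
    have : s * Y ≤ 1 := (le_mul_of_one_le_right (by positivity) (by linarith)).trans s2
    nlinarith
  have s7 : C2 * M.N2 (fun _ => 0) h * s ^ 2 ≤ (c / 2) ^ 2 := by
    have h1 : 8 * C2 * (M.N2 (fun _ => 0) w + C1) ≤ C * c ^ 2 := by
      rw [← div_le_iff₀ (by positivity)]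
      linarith
    have h2 := mul_le_mul_of_nonneg_left hN2 (show 0 ≤ C2 * s ^ 2 * C by positivity)
    have h3 := mul_le_mul_of_nonneg_left s5 (show 0 ≤ C2 * M.N2 (fun _ => 0) w by positivity)
    have h4 := mul_le_mul_of_nonneg_left s6 (show 0 ≤ C2 * C1 by positivity)
    refine le_of_mul_le_mul_right ?_ hC0'
    linarith
  have hS' : MeasurableSet {p | P.r x i0 p ≤ s} := (isClosed_le hr continuous_const).measurableSet
  have hi2 := N2_integrable M hG hwh hψc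
  have h1 : (c / 2) ^ 2 * ∫ p in {p | P.r x i0 p ≤ s}, Real.exp (-ψ p) ∂M.μ ≤ C1 * E := by
    refine le_trans ?_ ((setIntegral_le_integral (s := {p | P.r x i0 p ≤ s}) hi2
      (Eventually.of_forall fun p => by positivity)).trans hN1)
    rw [← integral_const_mul]
    refine setIntegral_mono_on (hi.const_mul _).integrableOn hi2.integrableOn hS' fun p hp => ?_
    refine mul_le_mul_of_nonneg_right (pow_le_pow_left₀ (by positivity) ?_ 2) (Real.exp_pos _).le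
    have h2 : ‖h p‖ ≤ c / 2 := by
      refine le_of_sq_le_sq ?_ (by positivity)
      refine (hlip h hh p (lt_of_le_of_lt hp s3)).trans (le_trans ?_ s7)
      exact mul_le_mul_of_nonneg_left (pow_le_pow_left₀ (P.r_nonneg x i0 p) hp 2)
        (mul_nonneg hC2.le (N2_nonneg M))
    have h3 := hw1 p (le_trans hp s4)
    have h4 := norm_sub_norm_le (w p) (h p)
    rw [Pi.sub_apply]
    linarith
  rw [← le_div_iff₀' (by positivity)] at h1
  refine h1.trans (le_trans (le_of_eq ?_)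
    (mul_le_mul_of_nonneg_right (show 4 * C1 / c ^ 2 ≤ C by linarith) hE0))
  field_simp
  norm_num

theorem peak (M : Model n X) (P : Pol M.toAtl) (m0 j : ℕ)
    (h0 : ∀ a, ∀ p ∈ (M.e a).source, ∀ ξ,
      0 ≤ Lev (M.wt (P.u ^ m0 * M.k⁻¹ ^ j) (fun _ => 0) a) (M.e a p) ξ)
    {m : ℕ} (hm : m0 + (n + 1) * P.k0 + 1 ≤ m) (x : X) :
    ∃ h ∈ M.H0 (M.k * (P.u ^ m * M.k⁻¹ ^ j)), h x ≠ 0 := by
  by_contra hz
  push Not at hz
  obtain ⟨i0, hx⟩ := P.imm.bpf x
  obtain ⟨δ, hδ, C, hC, h⟩ := crit M P m j hx hz one_pos one_pos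
  obtain ⟨c, hc, t0, ht0, hμ⟩ := M.measure_r_lt P hx
  have hr := P.continuous_r x i0
  obtain ⟨B, hB⟩ := (isCompact_range (hr.pow 2)).bddAbove
  obtain ⟨E, hE⟩ : ∃ E, E = ((δ ^ 2) ^ (n + 1))⁻¹ * M.μ.real univ := ⟨_, rfl⟩
  have hE0 : 0 ≤ E := by rw [hE]; positivity
  obtain ⟨Y, hY⟩ : ∃ Y, Y = √(Real.exp ((n + 1 : ℕ) * Real.log (1 + B)) * E) := ⟨_, rfl⟩
  have hY0 : 0 ≤ Y := by rw [hY]; positivity
  obtain ⟨s, hs, s1, s2, s3, s4⟩ : ∃ s > (0 : ℝ), s ≤ 1 ∧ s ≤ t0 ∧ s * (1 + Y) ≤ 1 / C ∧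
      s * (2 ^ (n + 1) * (C * E) + 1) ≤ c := by
    refine ⟨min (min 1 t0) (min (1 / C / (1 + Y)) (c / (2 ^ (n + 1) * (C * E) + 1))),
      by positivity, (min_le_left _ _).trans (min_le_left _ _),
      (min_le_left _ _).trans (min_le_right _ _), ?_, ?_⟩
    · exact (le_div_iff₀ (by positivity)).1 ((min_le_right _ _).trans (min_le_left _ _))
    · exact (le_div_iff₀ (by positivity)).1 ((min_le_right _ _).trans (min_le_right _ _))
  have hQ : SQ P 1 fun p => P.r x i0 p ^ 2 := by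
    simp only [P.r_sq]
    exact sq_dist i0 _
  have hη : 0 < s ^ 2 := by positivity
  have hl := hQ.sm_log hη zero_le_one
  have hψ : M.Sm fun q => ((n + 1 : ℕ) : ℝ) * Real.log (s ^ 2 + P.r x i0 q ^ 2 * 1) :=
    sm_mul (sm_const _) hl
  have he : ∀ q, Real.exp (-(((n + 1 : ℕ) : ℝ) * Real.log (s ^ 2 + P.r x i0 q ^ 2 * 1))) =
      ((s ^ 2 + P.r x i0 q ^ 2) ^ (n + 1))⁻¹ := fun q => by
    rw [Real.exp_neg, ← Real.log_pow, Real.exp_log (by positivity), mul_one]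
  have hi : Integrable (fun q => Real.exp
      (-(((n + 1 : ℕ) : ℝ) * Real.log (s ^ 2 + P.r x i0 q ^ 2 * 1)))) M.μ :=
    onb_int M hψ.continuous.neg.rexp
  have h1 := h _ hψ (fun a p hp ξ => by
      obtain ⟨m', rfl⟩ := Nat.exists_eq_add_of_le hm
      have e : (((n + 1) * P.k0 + 1 + m' : ℕ) : ℝ) =
          ((n + 1 : ℕ) : ℝ) * ((1 : ℕ) * P.k0) + (1 + m') := by push_cast; ring
      rw [add_assoc m0, add_assoc m0, wt_pow_mul P (M.k_gauge.inv.pow j) hψ _ _ hp, e,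
        Lv_split P hψ _ _ hp, Lv_const_mul P hl _ _ hp]
      have h1 := mul_nonneg (Nat.cast_nonneg (α := ℝ) (n + 1))
        (hQ.Lv_log (ξ := ξ) hη zero_le_one hp)
      have h2 := mul_nonneg (Nat.cast_nonneg (α := ℝ) m') (Lv_fs_nonneg P (ξ := ξ) hp)
      rw [add_mul (1 : ℝ)]
      exact le_add_of_nonneg_of_le (h0 a p hp ξ)
        (le_add_of_nonneg_of_le h1 (le_add_of_nonneg_right h2)))
    ((n + 1 : ℕ) * Real.log (1 + B)) E s (fun p => by
      refine mul_le_mul_of_nonneg_left (Real.log_le_log (by positivity) ?_) (Nat.cast_nonneg _)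
      have h1 : P.r x i0 p ^ 2 ≤ B := hB (mem_range_self p)
      nlinarith) (by
      have hS : MeasurableSet {p | δ ≤ P.r x i0 p ∧ P.r x i0 p < 1} :=
        (isClosed_le continuous_const hr).measurableSet.inter
          (isOpen_lt hr continuous_const).measurableSet
      refine (setIntegral_mono_on hi.integrableOn
        (integrable_const ((δ ^ 2) ^ (n + 1))⁻¹).integrableOn hS fun p hp => ?_).trans ?_
      · rw [he]
        refine inv_anti₀ (by positivity) (pow_le_pow_left₀ (by positivity) ?_ _)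
        linarith [pow_le_pow_left₀ hδ.le hp.1 2]
      · rw [setIntegral_const, hE, smul_eq_mul, mul_comm]
        exact mul_le_mul_of_nonneg_left (measureReal_mono (subset_univ _)) (by positivity))
    hs (hY ▸ s3)
  have h2 : c * s ^ (2 * n) ≤ M.μ.real {p | P.r x i0 p ≤ s} :=
    (ENNReal.ofReal_le_iff_le_toReal (measure_ne_top _ _)).1
      ((hμ s hs s2).trans (measure_mono fun p (hp : P.r x i0 p < s) => hp.le))
  have h3 := setIntegral_mono_on (integrable_const ((2 * s ^ 2) ^ (n + 1))⁻¹).integrableOn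
    hi.integrableOn (isClosed_le hr (continuous_const (y := s))).measurableSet fun p hp => by
      rw [he]
      refine inv_anti₀ (by positivity) (pow_le_pow_left₀ (by positivity) ?_ _)
      linarith [pow_le_pow_left₀ (P.r_nonneg x i0 p) hp 2]
  rw [setIntegral_const, smul_eq_mul] at h3
  have h4 := (mul_le_mul_of_nonneg_right h2 (by positivity)).trans (h3.trans h1)
  rw [← div_eq_mul_inv, div_le_iff₀ (by positivity), mul_pow, pow_succ (s ^ 2), ← pow_mul] at h4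
  have h5 : c ≤ s ^ 2 * (2 ^ (n + 1) * (C * E)) :=
    le_of_mul_le_mul_right (h4.trans (le_of_eq (by ring))) (pow_pos hs (2 * n))
  have h6 : s ^ 2 * (2 ^ (n + 1) * (C * E)) ≤ s * (2 ^ (n + 1) * (C * E)) :=
    mul_le_mul_of_nonneg_right (by nlinarith) (by positivity)
  linarith

theorem peak0 (M : Model n X) (P : Pol M.toAtl) {m : ℕ} (hm : (n + 1) * P.k0 + 1 ≤ m) (x : X) :
    ∃ h ∈ M.H0 (M.k * P.u ^ m), h x ≠ 0 := by
  have h := peak M P 0 0 (fun a p _ ξ => by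
    rw [pow_zero, pow_zero, mul_one]
    exact (Lev_const (0 + Real.log (‖(1 : ℂ)‖ ^ 2))).ge) (m := m) (by omega) x
  rwa [pow_zero, mul_one] at h

theorem vp (M : Model n X) (P : Pol M.toAtl) :
    ∃ i : ℕ, ∀ p, ∃ t ∈ M.H0 (P.u ^ (i * P.k0 + 1)), t p ≠ 0 := by
  obtain ⟨m0, h0⟩ := exists_semipos M P (M.k_gauge.inv.pow 1)
  refine ⟨m0 + (n + 1), fun p => ?_⟩
  have h := peak M P m0 1 h0 (m := (m0 + (n + 1)) * P.k0 + 1) (by
    rw [add_mul m0]
    exact Nat.add_le_add_right (Nat.add_le_add_right (Nat.le_mul_of_pos_right _ P.k0_pos) _) 1) p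
  rwa [Atl.H0_congr (v := P.u ^ ((m0 + (n + 1)) * P.k0 + 1)) fun a q hq => by
    simp only [Pi.mul_apply, pow_one, Pi.inv_apply]
    rw [mul_left_comm, mul_inv_cancel₀ (M.k_gauge.ne a q hq), mul_one]] at h

end Vale.Agent.P271A
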