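import Vale.Agent.P271A.DualC

/-! P271A: the dual estimate on a pseudoconvex Riemann domain. -/

open MeasureTheory Filter Topology Set Complex
open scoped ContDiff ENNReal ComplexConjugate

namespace Vale.Agent.P271A

variable {n : ℕ} {Y : Type} [TopologicalSpace Y] [T2Space Y] [SecondCountableTopology Y]
  [MeasurableSpace Y] [BorelSpace Y] {D : RD n Y}

theorem dual_prim : ∃ F : ℝ → ℝ, (∀ t, HasDerivAt F (Real.smoothTransition t) t) ∧
    (∀ t ≤ 0, F t = 0) ∧ 0 < F 1 := by
  refine ⟨fun t => ∫ x in (0 : ℝ)..t, Real.smoothTransition x, fun t =>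
    (Real.smoothTransition.continuous.integral_hasStrictDerivAt 0 t).hasDerivAt, fun t ht => ?_, ?_⟩
  · refine (intervalIntegral.integral_congr (g := fun _ => 0) fun x hx => ?_).trans (by simp)
    rw [uIcc_of_ge ht] at hx
    exact Real.smoothTransition.zero_of_nonpos hx.2
  · exact intervalIntegral.intervalIntegral_pos_of_pos_on
      (Real.smoothTransition.continuous.intervalIntegrable _ _)
      (fun x hx => Real.smoothTransition.pos_of_pos hx.1) one_pos

/-- Rapidly increasing smooth convex functions. -/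
theorem exists_convex (c : ℕ → ℝ) (r : ℝ) : ∃ χ : ℝ → ℝ, ContDiff ℝ ∞ χ ∧ (∀ t ≤ r, χ t = 0) ∧
    (∀ t, 0 ≤ χ t) ∧ (∀ t, 0 ≤ deriv χ t) ∧ (∀ t, 0 ≤ deriv (deriv χ) t) ∧
    ∀ (k : ℕ) (t : ℝ), r + 1 + k ≤ t → c k ≤ χ t := by
  obtain ⟨F, hF, hF0, hF1⟩ := dual_prim
  have hFd : deriv F = Real.smoothTransition := funext fun t => (hF t).deriv
  have hFs : ContDiff ℝ ∞ F := contDiff_infty_iff_deriv.2
    ⟨fun t => (hF t).differentiableAt, hFd ▸ Real.smoothTransition.contDiff⟩
  have hFm : Monotone F := monotone_of_deriv_nonneg (fun t => (hF t).differentiableAt)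
    fun t => hFd ▸ Real.smoothTransition.nonneg t
  have hFn : ∀ t, 0 ≤ F t := fun t => (hF0 _ (min_le_right t 0)).ge.trans (hFm (min_le_left t 0))
  have ha : ∀ k, 0 ≤ |c k| / F 1 := fun k => div_nonneg (abs_nonneg _) hF1.le
  let S : ℕ → ℝ → ℝ := fun N t => ∑ k ∈ Finset.range N, |c k| / F 1 * F (t - r - k)
  have hSd : ∀ N, deriv (S N) = fun t =>
      ∑ k ∈ Finset.range N, |c k| / F 1 * Real.smoothTransition (t - r - k) := fun N =>
    funext fun t => (HasDerivAt.fun_sum fun k _ => by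
      simpa using (((hF (t - r - k)).comp t
        (((hasDerivAt_id t).sub_const r).sub_const (k : ℝ))).const_mul (|c k| / F 1))).deriv
  have hχ : ∀ (N : ℕ) (t : ℝ), t - r ≤ N → S ⌈t - r⌉₊ t = S N t := fun N t h =>
    Finset.sum_subset (Finset.range_mono (Nat.ceil_le.2 h)) fun k _ hk => by
      rw [hF0 _ (sub_nonpos.2 (Nat.ceil_le.1 (not_lt.1 fun h => hk (Finset.mem_range.2 h)))),
        mul_zero]
  have hev : ∀ t : ℝ, (fun t => S ⌈t - r⌉₊ t) =ᶠ[𝓝 t] S (⌈t - r⌉₊ + 1) := fun t => by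
    filter_upwards [Iio_mem_nhds (lt_add_one t)] with s hs
    refine hχ _ s ?_
    have := Nat.le_ceil (t - r)
    push_cast
    linarith [mem_Iio.1 hs]
  refine ⟨fun t => S ⌈t - r⌉₊ t, contDiff_iff_contDiffAt.2 fun t =>
    ContDiffAt.congr_of_eventuallyEq (ContDiff.contDiffAt ?_) (hev t), fun t ht => ?_,
    fun t => Finset.sum_nonneg fun k _ => mul_nonneg (ha k) (hFn _), fun t => ?_, fun t => ?_,
    fun k t ht => ?_⟩
  · exact ContDiff.sum fun k _ => contDiff_const.mul
      (hFs.comp ((contDiff_id.sub contDiff_const).sub contDiff_const))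
  · exact (hχ 0 t (by simpa using ht)).trans (Finset.sum_range_zero _)
  · rw [(hev t).deriv_eq, hSd]
    exact Finset.sum_nonneg fun k _ => mul_nonneg (ha k) (Real.smoothTransition.nonneg _)
  · rw [(hev t).deriv.deriv_eq, hSd]
    refine Monotone.deriv_nonneg fun x y hxy => Finset.sum_le_sum fun k _ =>
      mul_le_mul_of_nonneg_left (Real.smoothTransition.monotone (by linarith)) (ha k)
  · have hk : k ∈ Finset.range ⌈t - r⌉₊ := Finset.mem_range.2 (Nat.lt_ceil.2 (by linarith))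
    refine le_trans ?_ (Finset.single_le_sum (f := fun k => |c k| / F 1 * F (t - r - k))
      (fun k _ => mul_nonneg (ha k) (hFn _)) hk)
    refine (le_abs_self _).trans (le_trans (div_mul_cancel₀ _ hF1.ne').ge ?_)
    exact mul_le_mul_of_nonneg_left (hFm (by linarith)) (ha k)

namespace RD

/-- A rapidly increasing plurisubharmonic function vanishing near a compact set. -/
theorem exists_psi {ρ : Y → ℝ} (hρ : D.SmR ρ) (hρc : ∀ c, IsCompact {y | ρ y ≤ c})
    (hρp : ∀ y v, 0 ≤ D.levi ρ y v) {K : Set Y} (hK : IsCompact K) {G H : Y → ℝ}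
    (hG : Continuous G) (hH : Continuous H) :
    ∃ ψ : Y → ℝ, D.SmR ψ ∧ (∀ y, 0 ≤ ψ y) ∧ (∀ y v, 0 ≤ D.levi ψ y v) ∧
      (∀ y ∈ K, ψ =ᶠ[𝓝 y] fun _ => 0) ∧ (∃ C, ∀ y, G y * Real.exp (-ψ y) ≤ C) ∧
      Integrable (fun y => H y * Real.exp (-ψ y)) D.μ := by
  obtain ⟨r, hr⟩ := hK.bddAbove_image hρ.continuous.continuousOn
  have hB : ∀ k : ℕ, ∃ B, 0 ≤ B ∧ ∀ y, ρ y ≤ r + 3 + k → ‖G y‖ ≤ B ∧ ‖H y‖ ≤ B := fun k => by
    obtain ⟨B, hB⟩ := (hρc (r + 3 + k)).exists_bound_of_continuousOn (hG.prodMk hH).continuousOn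
    exact ⟨max B 0, le_max_right _ _, fun y hy =>
      ⟨((norm_fst_le (G y, H y)).trans (hB y hy)).trans (le_max_left _ _),
        ((norm_snd_le (G y, H y)).trans (hB y hy)).trans (le_max_left _ _)⟩⟩
  choose B hB0 hB using hB
  obtain ⟨χ, h1, h2, h3, h4, h5, h6⟩ := exists_convex
    (fun k => B k * (1 + 2 ^ k * D.μ.real {y | ρ y ≤ r + 3 + k})) (r + 1)
  have hψ : D.SmR fun y => χ (ρ y) := hρ.comp fun _ => h1.contDiffAt
  have hsh : ∀ (k : ℕ) y, r + 2 + k ≤ ρ y →
      B k * (1 + 2 ^ k * D.μ.real {y | ρ y ≤ r + 3 + k}) * Real.exp (-χ (ρ y)) ≤ 1 := by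
    intro k y hy
    rw [Real.exp_neg, ← div_eq_mul_inv, div_le_one (Real.exp_pos _)]
    linarith [h6 k (ρ y) (by linarith), Real.add_one_le_exp (χ (ρ y))]
  have hcov : ∀ y, ρ y ≤ r + 2 ∨ ∃ k : ℕ, r + 2 + k ≤ ρ y ∧ ρ y ≤ r + 3 + k := fun y =>
    (le_total (ρ y) (r + 2)).imp_right fun h => ⟨⌊ρ y - (r + 2)⌋₊,
      by linarith [Nat.floor_le (sub_nonneg.2 h)],
      by linarith [Nat.lt_floor_add_one (ρ y - (r + 2))]⟩
  have hc : Continuous fun y => H y * Real.exp (-χ (ρ y)) :=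
    hH.mul (Real.continuous_exp.comp hψ.continuous.neg)
  refine ⟨fun y => χ (ρ y), hψ, fun y => h3 _, fun y v => ?_, fun y hy => ?_, ⟨B 0 + 1, fun y => ?_⟩,
    ?_⟩
  · rw [levi_comp hρ fun _ => h1.contDiffAt]
    exact add_nonneg (mul_nonneg (h4 _) (hρp y v)) (mul_nonneg (h5 _) (sq_nonneg _))
  · filter_upwards [hρ.continuous.continuousAt.eventually_lt_const
      ((hr ⟨y, hy, rfl⟩).trans_lt (lt_add_one r))] with p hp using h2 _ hp.le
  · rcases hcov y with h | ⟨k, h, h'⟩
    · have e1 : Real.exp (-χ (ρ y)) ≤ 1 := Real.exp_le_one_iff.2 (neg_nonpos.2 (h3 _))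
      have e2 := (le_abs_self _).trans (hB 0 y (by push_cast; linarith)).1
      nlinarith [hB0 0, Real.exp_pos (-χ (ρ y))]
    · have e2 := (le_abs_self _).trans (hB k y h').1
      have e3 : 0 ≤ B k * (2 ^ k * D.μ.real {y | ρ y ≤ r + 3 + k}) :=
        mul_nonneg (hB0 k) (by positivity)
      nlinarith [hB0 0, Real.exp_pos (-χ (ρ y)), hsh k y h]
  · have hS : ∀ k : ℕ, IsCompact {y | r + 2 + k ≤ ρ y ∧ ρ y ≤ r + 3 + k} := fun k =>
      (hρc (r + 3 + k)).inter_left (isClosed_le continuous_const hρ.continuous)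
    have hU := integrableOn_iUnion_of_summable_integral_norm (μ := D.μ)
      (fun k => hc.continuousOn.integrableOn_compact (hS k)) (by
        refine Summable.of_nonneg_of_le (fun k => integral_nonneg fun y => norm_nonneg _)
          (fun k => ?_) summable_geometric_two
        set m := D.μ.real {y | ρ y ≤ r + 3 + k} with hm
        have hm0 : 0 ≤ m := measureReal_nonneg
        have hp : 0 < 1 + 2 ^ k * m := by positivity
        refine ((Real.le_norm_self _).trans (norm_setIntegral_le_of_norm_le_const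
          (C := (1 + 2 ^ k * m)⁻¹) (hS k).measure_lt_top fun y hy => ?_)).trans ?_
        · rw [norm_norm, norm_mul, Real.norm_of_nonneg (Real.exp_pos _).le, ← one_div,
            le_div_iff₀ hp]
          refine le_trans ?_ (hsh k y hy.1)
          rw [mul_right_comm]
          gcongr
          exact (hB k y hy.2).2
        · have : D.μ.real {y | r + 2 + k ≤ ρ y ∧ ρ y ≤ r + 3 + k} ≤ m :=
            measureReal_mono (fun y hy => hy.2) (hρc _).measure_lt_top.ne
          rw [inv_mul_le_iff₀ hp, one_div, inv_pow, add_mul, mul_right_comm,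
            mul_inv_cancel₀ (by positivity), one_mul, one_mul]
          exact this.trans (le_add_of_nonneg_left (by positivity)))
    rw [← integrableOn_univ]
    refine ((hc.continuousOn.integrableOn_compact (hρc (r + 2))).union hU).mono_set fun y _ => ?_
    exact (hcov y).imp_right fun h => mem_iUnion.2 h

theorem exists_cut {ρ : Y → ℝ} (hρ : D.SmR ρ) (hρc : ∀ c, IsCompact {y | ρ y ≤ c}) :
    ∃ (cut : ℕ → Y → ℂ) (G : Y → ℝ), Continuous G ∧ (∀ k, D.Test (cut k)) ∧
      (∀ k y, ‖cut k y‖ ≤ 1) ∧ (∀ y, ∀ᶠ k in atTop, cut k =ᶠ[𝓝 y] fun _ => 1) ∧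
      (∀ k j y, ‖D.dz j (cut k) y‖ ^ 2 ≤ G y) ∧ ∀ k j y, ‖D.db j (cut k) y‖ ^ 2 ≤ G y := by
  have hs : ContDiff ℝ ∞ Real.smoothTransition := Real.smoothTransition.contDiff
  obtain ⟨C, hC⟩ := (hs.continuous_deriv (by simp)).bounded_above_of_compact_support
    (HasCompactSupport.intro (isCompact_Icc (a := (0 : ℝ)) (b := 1)) fun x hx => by
      rcases not_and_or.1 hx with h | h
      · refine (Filter.EventuallyEq.deriv_eq (f := fun _ => 0) ?_).trans (deriv_const x 0)
        filter_upwards [Iio_mem_nhds (not_le.1 h)] with t ht using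
          Real.smoothTransition.zero_of_nonpos ht.le
      · refine (Filter.EventuallyEq.deriv_eq (f := fun _ => 1) ?_).trans (deriv_const x 1)
        filter_upwards [Ioi_mem_nhds (not_le.1 h)] with t ht using
          Real.smoothTransition.one_of_one_le ht.le)
  have hd : ∀ (k : ℕ) (ξ : E n × E n) (y : Y),
      ‖D.dX ξ (fun p => (Real.smoothTransition (k + 1 - ρ p) : ℂ)) y‖ ^ 2 ≤
        C ^ 2 * ‖D.dX ξ (fun p => (ρ p : ℂ)) y‖ ^ 2 := fun k ξ y => by
    rw [dX_comp hρ (χ := fun t => Real.smoothTransition (k + 1 - t))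
      (((hs.differentiable (by simp)) _).hasDerivAt.comp _ ((hasDerivAt_id _).const_sub _)),
      norm_mul, mul_pow, norm_real, mul_neg, mul_one, norm_neg]
    gcongr
    exact hC _
  refine ⟨fun k p => (Real.smoothTransition (k + 1 - ρ p) : ℂ), fun y => ∑ j, C ^ 2 *
    (‖D.dz j (fun p => (ρ p : ℂ)) y‖ ^ 2 + ‖D.db j (fun p => (ρ p : ℂ)) y‖ ^ 2),
    continuous_finsetSum _ fun j _ => continuous_const.mul
      (((Sm.dz hρ j).continuous.norm.pow 2).add ((Sm.db hρ j).continuous.norm.pow 2)),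
    fun k => ⟨((smR_const _).sub hρ).comp fun _ => hs.contDiffAt,
      HasCompactSupport.intro (hρc (k + 1)) fun y hy => ?_⟩, fun k y => ?_, fun y => ?_,
    fun k j y => (hd k _ y).trans (le_trans ?_ (Finset.single_le_sum (fun i _ => by positivity)
      (Finset.mem_univ j))),
    fun k j y => (hd k _ y).trans (le_trans ?_ (Finset.single_le_sum (fun i _ => by positivity)
      (Finset.mem_univ j)))⟩
  · exact ofReal_eq_zero.2 (Real.smoothTransition.zero_of_nonpos (sub_nonpos.2 (not_le.1 hy).le))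
  · rw [norm_real, Real.norm_of_nonneg (Real.smoothTransition.nonneg _)]
    exact Real.smoothTransition.le_one _
  · filter_upwards [tendsto_natCast_atTop_atTop.eventually_gt_atTop (ρ y)] with k hk
    filter_upwards [hρ.continuous.continuousAt.eventually_lt_const hk] with p hp
    rw [Real.smoothTransition.one_of_one_le (by linarith), ofReal_one]
  · exact mul_le_mul_of_nonneg_left (le_add_of_nonneg_right (sq_nonneg _)) (sq_nonneg _)
  · exact mul_le_mul_of_nonneg_left (le_add_of_nonneg_left (sq_nonneg _)) (sq_nonneg _)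

theorem dual {ρ φ b : Y → ℝ} (hρ : D.SmR ρ) (hρc : ∀ c, IsCompact {y | ρ y ≤ c})
    (hρp : ∀ y v, 0 ≤ D.levi ρ y v) (hφ : D.SmR φ) (hφp : ∀ y v, 0 ≤ D.levi φ y v)
    {g : Y → ℂ} (hg : D.Sm g) (hb0 : ∀ y, 0 ≤ b y)
    (hb : Integrable (fun y => b y * Real.exp (-φ y)) D.μ)
    (hgb : ∀ y v, ‖∑ j, D.db j g y * conj (v j)‖ ^ 2 ≤ b y * D.levi φ y v)
    {α : Fin n → Y → ℂ} (hα : ∀ j, D.Test (α j)) :
    ‖∑ j, ∫ y, D.db j g y * conj (α j y) * Real.exp (-φ y) ∂D.μ‖ ^ 2 ≤
      (∫ y, b y * Real.exp (-φ y) ∂D.μ) * ∫ y, ‖D.Ts φ α y‖ ^ 2 * Real.exp (-φ y) ∂D.μ := by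
  obtain ⟨cut, G, hG, hc, hc1, hce, hcz, hcb⟩ := exists_cut hρ hρc
  have hH : Continuous fun y => (∑ j, ‖D.db j g y‖ ^ 2) * Real.exp (-φ y) :=
    (continuous_finsetSum _ fun j _ => (hg.db j).continuous.norm.pow 2).mul
      (Real.continuous_exp.comp hφ.continuous.neg)
  obtain ⟨ψ, hψ, hψ0, hψp, hψK, ⟨C, hC⟩, hψi⟩ := exists_psi hρ hρc hρp
    (isCompact_iUnion fun j => (hα j).2) hG hH
  have hB0 : 0 ≤ ∫ y, b y * Real.exp (-φ y) ∂D.μ :=
    integral_nonneg fun y => mul_nonneg (hb0 y) (Real.exp_pos _).le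
  have hT0 : 0 ≤ ∫ y, ‖D.Ts φ α y‖ ^ 2 * Real.exp (-φ y) ∂D.μ :=
    integral_nonneg fun y => by positivity
  have key : ∀ a : ℝ, 0 < a →
      ‖∑ j, ∫ y, D.db j g y * conj (α j y) * Real.exp (-φ y) ∂D.μ‖ ^ 2 ≤
        (∫ y, b y * Real.exp (-φ y) ∂D.μ) *
          ((1 + a) * ∫ y, ‖D.Ts φ α y‖ ^ 2 * Real.exp (-φ y) ∂D.μ) := by
    intro a ha
    have hE : D.SmR fun y => (1 + a⁻¹) * Real.exp (ψ y) := (smR_const _).mul hψ.exp
    have hE' : D.SmR fun y => φ y + (1 + a⁻¹) * Real.exp (ψ y) := hφ.add hE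
    set φ' : Y → ℝ := fun y => φ y + (1 + a⁻¹) * Real.exp (ψ y) + -(1 + a⁻¹) with hφ'
    have hs : D.SmR φ' := hE'.add (smR_const _)
    have hai : 0 < a⁻¹ := inv_pos.2 ha
    have hle : ∀ y, φ y + ψ y ≤ φ' y := fun y => by
      simp only [hφ']
      nlinarith [Real.add_one_le_exp (ψ y), hψ0 y]
    have hΘ : ∀ y v, Real.exp (-ψ y) * D.levi φ y v ≤
        D.Theta φ' (fun y => Real.exp (-ψ y)) (fun y => a * Real.exp (-ψ y)) y v := fun y v => by
      have h1 : HasDerivAt (fun t => Real.exp (-t)) (-Real.exp (-ψ y)) (ψ y) := by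
        simpa using (hasDerivAt_neg (ψ y)).exp
      have e0 := Real.exp_pos (-ψ y)
      have e1 : Real.exp (-ψ y) ≤ 1 := Real.exp_le_one_iff.2 (neg_nonpos.2 (hψ0 y))
      have e2 : Real.exp (-ψ y) * Real.exp (ψ y) = 1 := by rw [← Real.exp_add]; simp
      rw [Theta, hφ', levi_add hE' (smR_const _), levi_const, levi_add hφ hE,
        levi_const_mul hψ.exp, levi_exp hψ, levi_exp_neg hψ,
        del_comp hψ (χ := fun t => Real.exp (-t)) h1, norm_mul, norm_real, mul_pow,
        Real.norm_eq_abs, sq_abs]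
      generalize Real.exp (-ψ y) = x at e0 e1 e2
      generalize Real.exp (ψ y) = z at e2
      have h2 := hψp y v
      have h3 := sq_nonneg ‖D.del ψ y v‖
      generalize ‖D.del ψ y v‖ ^ 2 = d at h3
      generalize D.levi ψ y v = l at h2
      have h4 : (-x) ^ 2 * d / (a * x) = x * a⁻¹ * d := by field_simp
      have h5 : x * ((1 + a⁻¹) * (z * (l + d))) = (1 + a⁻¹) * (l + d) := by
        linear_combination (1 + a⁻¹) * (l + d) * e2
      rw [h4, add_zero, mul_add, h5]
      nlinarith [mul_nonneg h2 hai.le, mul_nonneg h2 e0.le, mul_nonneg h3 (sub_nonneg.2 e1),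
        mul_nonneg (mul_nonneg h3 (sub_nonneg.2 e1)) hai.le]
    have hb1 : ∀ y, b y * Real.exp (ψ y) * Real.exp (-φ' y) =
        b y * Real.exp (-φ y) * Real.exp (φ y + ψ y - φ' y) := fun y => by
      rw [mul_assoc, mul_assoc, ← Real.exp_add, ← Real.exp_add]
      congr 2
      ring
    have hb2 : ∀ y, Real.exp (φ y + ψ y - φ' y) ≤ 1 := fun y =>
      Real.exp_le_one_iff.2 (sub_nonpos.2 (hle y))
    have hb3 : Integrable (fun y => b y * Real.exp (ψ y) * Real.exp (-φ' y)) D.μ := by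
      simp only [hb1]
      exact hb.mul_bdd (c := 1) (Real.continuous_exp.comp
        ((hφ.continuous.add hψ.continuous).sub hs.continuous)).aestronglyMeasurable
        (Eventually.of_forall fun y => by
          rw [Real.norm_of_nonneg (Real.exp_pos _).le]; exact hb2 y)
    have hcut : ∀ (y : Y) (x : ℝ), x ≤ G y →
        (Real.exp (-ψ y) + a * Real.exp (-ψ y)) * x ≤ (1 + a) * C := fun y x hx => by
      have := mul_le_mul_of_nonneg_right hx (Real.exp_pos (-ψ y)).le
      nlinarith [hC y]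
    have h := dualC (A := fun y => a * Real.exp (-ψ y)) hs hψ.neg.exp
      (continuous_const.mul (Real.continuous_exp.comp hψ.continuous.neg))
      (fun y => (Real.exp_pos _).le) (fun y => mul_pos ha (Real.exp_pos _))
      (fun y v => (mul_nonneg (Real.exp_pos _).le (hφp y v)).trans (hΘ y v)) hg
      (b := fun y => b y * Real.exp (ψ y)) (fun y => mul_nonneg (hb0 y) (Real.exp_pos _).le) hb3
      (fun y v => (hgb y v).trans (le_trans (le_of_eq (by
        rw [mul_assoc, ← mul_assoc (Real.exp _), ← Real.exp_add]; simp))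
        (mul_le_mul_of_nonneg_left (hΘ y v) (mul_nonneg (hb0 y) (Real.exp_pos _).le))))
      (fun j => hψi.mono' (((hg.db j).continuous.norm.pow 2).mul
        (Real.continuous_exp.comp hs.continuous.neg)).aestronglyMeasurable
        (Eventually.of_forall fun y => by
          rw [Real.norm_of_nonneg (by positivity), mul_assoc, ← Real.exp_add]
          exact mul_le_mul (Finset.single_le_sum (f := fun j => ‖D.db j g y‖ ^ 2)
            (fun i _ => sq_nonneg _) (Finset.mem_univ j))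
            (Real.exp_le_exp.2 (by linarith [hle y])) (Real.exp_pos _).le (by positivity)))
      hc hc1 hce (fun k j y => hcut y _ (hcz k j y)) (fun k j y => hcut y _ (hcb k j y)) hα
    have hK : ∀ y ∈ ⋃ j, tsupport (α j), φ' =ᶠ[𝓝 y] φ := fun y hy => by
      filter_upwards [hψK y hy] with p hp
      simp only [hφ', hp, Real.exp_zero, mul_one, add_neg_cancel_right]
    have hK' : ∀ y ∉ ⋃ j, tsupport (α j), ∀ j, y ∉ tsupport (α j) := fun y hy j hj =>
      hy (mem_iUnion.2 ⟨j, hj⟩)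
    have h1 : ∀ j y, D.db j g y * conj (α j y) * Real.exp (-φ' y) =
        D.db j g y * conj (α j y) * Real.exp (-φ y) := fun j y => by
      by_cases hy : y ∈ ⋃ j, tsupport (α j)
      · rw [(hK y hy).self_of_nhds]
      · simp [image_eq_zero_of_notMem_tsupport (hK' y hy j)]
    have h2 : ∀ y, (Real.exp (-ψ y) + a * Real.exp (-ψ y)) * ‖D.Ts φ' α y‖ ^ 2 *
        Real.exp (-φ' y) = (1 + a) * (‖D.Ts φ α y‖ ^ 2 * Real.exp (-φ y)) := fun y => by
      by_cases hy : y ∈ ⋃ j, tsupport (α j)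
      · have e : D.Ts φ' α y = D.Ts φ α y := Finset.sum_congr rfl fun j _ => by
          rw [dz, dX_congr (g := fun p => (φ p : ℂ)) ((hK y hy).mono fun p hp => by rw [hp])]
          rfl
        rw [e, (hK y hy).self_of_nhds, (hψK y hy).self_of_nhds]
        simp [mul_assoc]
      · have e : ∀ φ, D.Ts φ α y = 0 := fun φ => Finset.sum_eq_zero fun j _ => by
          rw [image_eq_zero_of_notMem_tsupport (hK' y hy j), dz, dz, dX_of_notMem (hK' y hy j)]
          simp
        simp [e]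
    simp only [h1] at h
    refine h.trans (mul_le_mul (integral_mono hb3 hb fun y => ?_) (le_of_eq ?_)
      (integral_nonneg fun y => ?_) hB0)
    · exact (hb1 y).le.trans (mul_le_of_le_one_right
        (mul_nonneg (hb0 y) (Real.exp_pos _).le) (hb2 y))
    · rw [← integral_const_mul]
      exact integral_congr_ae (Eventually.of_forall h2)
    · exact (h2 y).symm ▸ (by positivity)
  refine le_of_forall_pos_le_add fun ε hε => ?_
  have h0 := mul_nonneg hB0 hT0
  refine (key (ε / (_ + 1)) (div_pos hε (add_pos_of_nonneg_of_pos h0 one_pos))).trans ?_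
  rw [mul_left_comm, add_mul, one_mul, div_mul_eq_mul_div]
  refine add_le_add le_rfl ((div_le_iff₀ (add_pos_of_nonneg_of_pos h0 one_pos)).2 ?_)
  exact mul_le_mul_of_nonneg_left (le_add_of_nonneg_right zero_le_one) hε.le

end RD

end Vale.Agent.P271A
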