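import Vale.Agent.P271A.APW

/-! P271A: the dual estimate in the complete case. -/

open MeasureTheory Filter Topology Set Complex
open scoped ContDiff ENNReal ComplexConjugate

namespace Vale.Agent.P271A

variable {n : ℕ} {Y : Type} [TopologicalSpace Y] [T2Space Y] [SecondCountableTopology Y]
  [MeasurableSpace Y] [BorelSpace Y] {D : RD n Y}

/-- A power of the weight. -/
noncomputable def dcW (c : ℝ) (φ : Y → ℝ) (y : Y) : ℂ := (Real.exp (c * φ y) : ℝ)

omit [TopologicalSpace Y] [T2Space Y] [SecondCountableTopology Y] [MeasurableSpace Y]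
  [BorelSpace Y] in
theorem dcW_conj (c : ℝ) (φ : Y → ℝ) (y : Y) : conj (dcW c φ y) = dcW c φ y := conj_ofReal _

omit [TopologicalSpace Y] [T2Space Y] [SecondCountableTopology Y] [MeasurableSpace Y]
  [BorelSpace Y] in
theorem dcW_mul (c c' : ℝ) (φ : Y → ℝ) (y : Y) : dcW c φ y * dcW c' φ y = dcW (c + c') φ y := by
  rw [dcW, dcW, dcW, ← ofReal_mul, ← Real.exp_add, add_mul]

omit [TopologicalSpace Y] [T2Space Y] [SecondCountableTopology Y] [MeasurableSpace Y]
  [BorelSpace Y] in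
theorem dcW_one (φ : Y → ℝ) (y : Y) : dcW (1 / 2) φ y * dcW (-(1 / 2)) φ y = 1 := by
  rw [dcW_mul, dcW, add_neg_cancel, zero_mul, Real.exp_zero, ofReal_one]

omit [TopologicalSpace Y] [T2Space Y] [SecondCountableTopology Y] [MeasurableSpace Y]
  [BorelSpace Y] in
theorem dcW_sq (φ : Y → ℝ) (y : Y) :
    (Real.exp (-φ y) : ℂ) = dcW (-(1 / 2)) φ y * dcW (-(1 / 2)) φ y := by
  have h : (-(1 / 2) + -(1 / 2) : ℝ) * φ y = -φ y := by ring
  rw [dcW_mul, dcW, h]

omit [TopologicalSpace Y] [T2Space Y] [SecondCountableTopology Y] [MeasurableSpace Y]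
  [BorelSpace Y] in
theorem dcW_norm (c : ℝ) (φ : Y → ℝ) (y : Y) (z : ℂ) :
    ‖dcW c φ y * z‖ ^ 2 = ‖z‖ ^ 2 * Real.exp (2 * c * φ y) := by
  have h : 2 * c * φ y = c * φ y + c * φ y := by ring
  rw [norm_mul, dcW, norm_real, Real.norm_eq_abs, abs_of_pos (Real.exp_pos _), h, Real.exp_add]
  ring

theorem dc_sq_le (a b : ℂ) : ‖a - b‖ ^ 2 ≤ 2 * ‖a‖ ^ 2 + 2 * ‖b‖ ^ 2 := by
  have h := pow_le_pow_left₀ (norm_nonneg _) (norm_sub_le a b) 2
  nlinarith [sq_nonneg (‖a‖ - ‖b‖)]

theorem dc_sum_le (a : Fin n → ℂ) : ‖∑ j, a j‖ ^ 2 ≤ n * ∑ j, ‖a j‖ ^ 2 := by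
  have h := pow_le_pow_left₀ (norm_nonneg _) (norm_sum_le Finset.univ a) 2
  have h2 := sq_sum_le_card_mul_sum_sq (s := Finset.univ) (f := fun j => ‖a j‖)
  rw [Finset.card_univ, Fintype.card_fin] at h2
  exact h.trans h2

namespace RD

omit [T2Space Y] [SecondCountableTopology Y] [BorelSpace Y] in
theorem dcW_sm {φ : Y → ℝ} (hφ : D.SmR φ) (c : ℝ) : D.Sm (dcW c φ) :=
  ((smR_const c).mul hφ).exp

/-- The family of forms whose orthogonal complement consists of the closed forms. -/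
noncomputable def dcS (D : RD n Y) (φ : Y → ℝ) (j k : Fin n) (t : Y → ℂ) (i : Fin n) (y : Y) :
    ℂ :=
  dcW (1 / 2) φ y *
    ((if i = k then conj (D.db j t y) else 0) - if i = j then conj (D.db k t y) else 0)

omit [SecondCountableTopology Y] [BorelSpace Y] in
theorem dcS_test {φ : Y → ℝ} (hφ : D.SmR φ) (j k : Fin n) {t : Y → ℂ} (ht : D.Test t)
    (i : Fin n) : D.Test (D.dcS φ j k t i) := by
  refine (dcW_sm hφ _).mul_test (Test.sub ?_ ?_)
  · split_ifs
    · exact (ht.db j).conj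
    · exact test_zero
  · split_ifs
    · exact (ht.db k).conj
    · exact test_zero

theorem dcS_pair {φ : Y → ℝ} (hφ : D.SmR φ) (j k : Fin n) {t : Y → ℂ} (ht : D.Test t)
    {γ : Fin n → Y → ℂ} (hγ : ∀ i, MemLp (γ i) 2 D.μ) :
    ∑ i, ∫ y, γ i y * conj (D.dcS φ j k t i y) ∂D.μ =
      ∫ y, dcW (1 / 2) φ y * γ k y * D.db j t y ∂D.μ -
        ∫ y, dcW (1 / 2) φ y * γ j y * D.db k t y ∂D.μ := by
  have hi : ∀ i l, Integrable (fun y => dcW (1 / 2) φ y * γ i y * D.db l t y) D.μ := fun i l =>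
    ((l2loc_of_memLp (hγ i)).cont_mul (dcW_sm hφ _).continuous).integrable_mul
      (ht.db l).continuous (ht.db l).2
  have h1 : ∀ i, ∫ y, γ i y * conj (D.dcS φ j k t i y) ∂D.μ =
      (if i = k then ∫ y, dcW (1 / 2) φ y * γ i y * D.db j t y ∂D.μ else 0) -
        if i = j then ∫ y, dcW (1 / 2) φ y * γ i y * D.db k t y ∂D.μ else 0 := by
    intro i
    simp only [dcS, map_mul, map_sub, dcW_conj]
    split_ifs
    · rw [← integral_sub (hi _ _) (hi _ _)]
      refine integral_congr_ae (ae_of_all _ fun y => ?_)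
      simp only [conj_conj]
      ring
    · rw [sub_zero]
      refine integral_congr_ae (ae_of_all _ fun y => ?_)
      simp only [conj_conj, map_zero]
      ring
    · rw [zero_sub, ← integral_neg]
      refine integral_congr_ae (ae_of_all _ fun y => ?_)
      simp only [conj_conj, map_zero]
      ring
    · simp
  simp only [h1, Finset.sum_sub_distrib, Finset.sum_ite_eq', Finset.mem_univ, if_true]

theorem dc_closed {u t : Y → ℂ} (hu : D.Sm u) (ht : D.Test t) (j k : Fin n) :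
    ∫ y, D.db k u y * D.db j t y ∂D.μ = ∫ y, D.db j u y * D.db k t y ∂D.μ := by
  have h1 := ibp (ξ := bv k) hu (ht.db j)
  have h2 := ibp (ξ := bv j) hu (ht.db k)
  have h3 : ∀ p, D.dX (bv k) (D.db j t) p = D.dX (bv j) (D.db k t) p := fun p => dX_comm ht.1 p
  simp only [h3] at h1
  exact h1.trans h2.symm

theorem dc_adj {φ : Y → ℝ} (hφ : D.SmR φ) {α : Fin n → Y → ℂ} (hα : ∀ j, D.Test (α j))
    {t : Y → ℂ} (ht : D.Test t) :
    ∑ j, ∫ y, α j y * conj (D.db j t y) * Real.exp (-φ y) ∂D.μ =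
      ∫ y, D.Ts φ α y * conj (t y) * Real.exp (-φ y) ∂D.μ := by
  have he : D.Sm fun y => (Real.exp (-φ y) : ℂ) := hφ.neg.exp
  have h1 : ∀ j, ∫ y, α j y * conj (D.db j t y) * Real.exp (-φ y) ∂D.μ =
      ∫ y, (D.dz j (fun p => (φ p : ℂ)) y * α j y - D.dz j (α j) y) * conj (t y) *
        Real.exp (-φ y) ∂D.μ := by
    intro j
    have h2 := ibp (ξ := zv j) ht.1.conj ((hα j).mul he)
    rw [← integral_neg] at h2
    refine (integral_congr_ae (ae_of_all _ fun y => ?_)).trans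
      (h2.trans (integral_congr_ae (ae_of_all _ fun y => ?_)))
    · simp only [conj_db, dz]
      ring
    · simp only [dX_mul (hα j).1 he, dX_exp_neg hφ, dz]
      ring
  simp only [h1]
  rw [← integral_finset_sum]
  · refine integral_congr_ae (ae_of_all _ fun y => ?_)
    simp only [Ts, Finset.sum_mul]
  · intro j _
    exact (((((Sm.dz hφ j).mul_test (hα j)).sub ((hα j).dz j)).mul ht.1.conj).mul he).integrable

/-- Decomposition of a test form: a weakly closed part with the same adjoint. -/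
theorem decomp {φ : Y → ℝ} (hφ : D.SmR φ) {g : Y → ℂ} (hg : D.Sm g)
    (hg2 : ∀ j, Integrable (fun y => ‖D.db j g y‖ ^ 2 * Real.exp (-φ y)) D.μ)
    {α : Fin n → Y → ℂ} (hα : ∀ j, D.Test (α j)) :
    ∃ β : Fin n → Y → ℂ, (∀ j, AEStronglyMeasurable (β j) D.μ) ∧
      (∀ j, Integrable (fun y => ‖β j y‖ ^ 2 * Real.exp (-φ y)) D.μ) ∧
      (∀ j k t, D.Test t → ∫ y, β k y * D.db j t y ∂D.μ = ∫ y, β j y * D.db k t y ∂D.μ) ∧
      (∀ t, D.Test t → ∑ j, ∫ y, β j y * conj (D.db j t y) * Real.exp (-φ y) ∂D.μ =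
        ∫ y, D.Ts φ α y * conj (t y) * Real.exp (-φ y) ∂D.μ) ∧
      ∑ j, ∫ y, D.db j g y * conj (β j y) * Real.exp (-φ y) ∂D.μ =
        ∑ j, ∫ y, D.db j g y * conj (α j y) * Real.exp (-φ y) ∂D.μ := by
  obtain ⟨β, hβ, hS, hP⟩ := proj (ν := D.μ)
    {s | ∃ j k t, D.Test t ∧ s = D.dcS φ j k t}
    (by
      rintro _ ⟨j, k, t, ht, rfl⟩ i
      exact (dcS_test hφ j k ht i).memLp 2)
    (α := fun j y => dcW (-(1 / 2)) φ y * α j y)
    fun j => ((dcW_sm hφ _).mul_test (hα j)).memLp 2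
  have key : ∀ u, D.Sm u → (∀ j, MemLp (fun y => dcW (-(1 / 2)) φ y * D.db j u y) 2 D.μ) →
      ∑ j, ∫ y, D.db j u y * conj (dcW (1 / 2) φ y * β j y) * Real.exp (-φ y) ∂D.μ =
        ∑ j, ∫ y, D.db j u y * conj (α j y) * Real.exp (-φ y) ∂D.μ := by
    intro u hu hu2
    have h1 := hP (fun j y => dcW (-(1 / 2)) φ y * D.db j u y) hu2 (by
      rintro _ ⟨j, k, t, ht, rfl⟩
      rw [dcS_pair hφ j k ht hu2]
      simp only [← mul_assoc, dcW_one, one_mul]
      exact sub_eq_zero.2 (dc_closed hu ht j k))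
    refine (Finset.sum_congr rfl fun j _ => integral_congr_ae (ae_of_all _ fun y => ?_)).trans
      (h1.trans (Finset.sum_congr rfl fun j _ => integral_congr_ae (ae_of_all _ fun y => ?_)))
    · simp only [map_mul, dcW_conj, dcW_sq]
      linear_combination (D.db j u y * conj (β j y) * dcW (-(1 / 2)) φ y) * dcW_one φ y
    · simp only [map_mul, dcW_conj, dcW_sq]
      ring
  refine ⟨fun j y => dcW (1 / 2) φ y * β j y, fun j =>
    (dcW_sm hφ _).continuous.aestronglyMeasurable.mul (hβ j).1, fun j => ?_, fun j k t ht => ?_,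
    fun t ht => ?_, key g hg fun j => ?_⟩
  · refine ((memLp_two_iff_integrable_sq_norm (hβ j).1).1 (hβ j)).congr
      (ae_of_all _ fun y => ?_)
    have h : 2 * (1 / 2) * φ y + -φ y = 0 := by ring
    simp only [dcW_norm]
    rw [mul_assoc, ← Real.exp_add, h, Real.exp_zero, mul_one]
  · have h := hS _ ⟨j, k, t, ht, rfl⟩
    rw [dcS_pair hφ j k ht hβ] at h
    exact sub_eq_zero.1 h
  · have h := congrArg conj
      (key t ht.1 fun j => ((dcW_sm hφ _).mul_test (ht.db j)).memLp 2)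
    simp only [map_sum, ← integral_conj] at h
    rw [← dc_adj hφ hα ht]
    refine (Finset.sum_congr rfl fun j _ => integral_congr_ae (ae_of_all _ fun y => ?_)).trans
      (h.trans (Finset.sum_congr rfl fun j _ => integral_congr_ae (ae_of_all _ fun y => ?_)))
    · simp only [map_mul, conj_conj, conj_ofReal, dcW_conj]
      ring
    · simp only [map_mul, conj_conj, conj_ofReal]
      ring
  · refine (memLp_two_iff_integrable_sq_norm
      ((dcW_sm hφ _).mul (hg.db j)).continuous.aestronglyMeasurable).2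
      ((hg2 j).congr (ae_of_all _ fun y => ?_))
    have h : 2 * (-(1 / 2)) * φ y = -φ y := by ring
    simp only [dcW_norm, h]

theorem dualC {φ τ A b : Y → ℝ} (hφ : D.SmR φ) (hτ : D.SmR τ) (hA : Continuous A)
    (hτ0 : ∀ y, 0 ≤ τ y) (hA0 : ∀ y, 0 < A y) (hΘ : ∀ y v, 0 ≤ D.Theta φ τ A y v)
    {g : Y → ℂ} (hg : D.Sm g) (hb0 : ∀ y, 0 ≤ b y)
    (hb : Integrable (fun y => b y * Real.exp (-φ y)) D.μ)
    (hgb : ∀ y v, ‖∑ j, D.db j g y * conj (v j)‖ ^ 2 ≤ b y * D.Theta φ τ A y v)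
    (hg2 : ∀ j, Integrable (fun y => ‖D.db j g y‖ ^ 2 * Real.exp (-φ y)) D.μ)
    {cut : ℕ → Y → ℂ} (hc : ∀ k, D.Test (cut k)) (hc1 : ∀ k y, ‖cut k y‖ ≤ 1)
    (hce : ∀ y, ∀ᶠ k in atTop, cut k =ᶠ[𝓝 y] fun _ => 1) {C : ℝ}
    (hcz : ∀ k j y, (τ y + A y) * ‖D.dz j (cut k) y‖ ^ 2 ≤ C)
    (hcb : ∀ k j y, (τ y + A y) * ‖D.db j (cut k) y‖ ^ 2 ≤ C)
    {α : Fin n → Y → ℂ} (hα : ∀ j, D.Test (α j)) :
    ‖∑ j, ∫ y, D.db j g y * conj (α j y) * Real.exp (-φ y) ∂D.μ‖ ^ 2 ≤
      (∫ y, b y * Real.exp (-φ y) ∂D.μ) *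
        ∫ y, (τ y + A y) * ‖D.Ts φ α y‖ ^ 2 * Real.exp (-φ y) ∂D.μ := by
  obtain ⟨β, hm, hi, hcl, hdiv, hp⟩ := decomp hφ hg hg2 hα
  have hec : Continuous fun y => Real.exp (-φ y) := Real.continuous_exp.comp hφ.continuous.neg
  have he0 : ∀ y, 0 < Real.exp (-φ y) := fun y => Real.exp_pos _
  have hT := Test.Ts hφ hα
  have hk := fun k => ap_weak hφ hτ hA hτ0 hA0 hΘ (fun j => (hg.db j).continuous) hb0 hb hgb
    (fun j => l2loc_of_weight hec he0 (hm j) (hi j)) (l2loc_of_cont hT.continuous) hcl hdiv (hc k)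
  have hone : ∀ y, ∀ᶠ k in atTop, cut k y = 1 ∧ ∀ ξ, D.dX ξ (cut k) y = 0 := fun y =>
    (hce y).mono fun k h => ⟨h.eq_of_nhds, fun ξ => (dX_congr h).trans (dX_const 1 y)⟩
  have hτc := hτ.continuous
  have mc : ∀ k, AEStronglyMeasurable (cut k) D.μ := fun k =>
    (hc k).continuous.aestronglyMeasurable
  have mz : ∀ k j, AEStronglyMeasurable (D.dz j (cut k)) D.μ := fun k j =>
    ((hc k).dz j).continuous.aestronglyMeasurable
  have mb : ∀ k j, AEStronglyMeasurable (D.db j (cut k)) D.μ := fun k j =>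
    ((hc k).db j).continuous.aestronglyMeasurable
  have h1 : ∀ j, Tendsto (fun k => ∫ y, D.db j g y * conj (cut k y * β j y) *
      Real.exp (-φ y) ∂D.μ) atTop
      (𝓝 (∫ y, D.db j g y * conj (β j y) * Real.exp (-φ y) ∂D.μ)) := by
    intro j
    refine tendsto_integral_of_dominated_convergence
      (fun y => ‖D.db j g y‖ ^ 2 * Real.exp (-φ y) + ‖β j y‖ ^ 2 * Real.exp (-φ y))
      (fun k => ?_) ((hg2 j).add (hi j)) (fun k => ae_of_all _ fun y => ?_)
      (ae_of_all _ fun y => ?_)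
    · exact ((hg.db j).continuous.aestronglyMeasurable.mul
        (continuous_conj.comp_aestronglyMeasurable ((mc k).mul (hm j)))).mul
        (continuous_ofReal.comp hec).aestronglyMeasurable
    · rw [norm_mul, norm_mul, norm_conj, norm_mul, norm_real, Real.norm_eq_abs,
        abs_of_pos (he0 y), ← add_mul]
      refine mul_le_mul_of_nonneg_right ?_ (he0 y).le
      have h2 := mul_le_mul_of_nonneg_right (hc1 k y) (norm_nonneg (β j y))
      have h3 := mul_le_mul_of_nonneg_left h2 (norm_nonneg (D.db j g y))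
      nlinarith [sq_nonneg (‖D.db j g y‖ - ‖β j y‖), sq_nonneg ‖D.db j g y‖, sq_nonneg ‖β j y‖]
    · refine tendsto_const_nhds.congr' ((hone y).mono fun k h => ?_)
      simp only [h.1, one_mul]
  have h2 : Tendsto (fun k => ∫ y, τ y *
      ((∑ i, ∑ j, ‖D.db i (cut k) y * β j y - D.db j (cut k) y * β i y‖ ^ 2) / 2) *
        Real.exp (-φ y) ∂D.μ) atTop (𝓝 (∫ _ : Y, (0 : ℝ) ∂D.μ)) := by
    refine tendsto_integral_of_dominated_convergence
      (fun y => ∑ i, ∑ j, (C * (‖β j y‖ ^ 2 * Real.exp (-φ y)) +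
        C * (‖β i y‖ ^ 2 * Real.exp (-φ y))))
      (fun k => ?_) (integrable_finset_sum _ fun i _ => integrable_finset_sum _ fun j _ =>
        ((hi j).const_mul C).add ((hi i).const_mul C)) (fun k => ae_of_all _ fun y => ?_)
      (ae_of_all _ fun y => ?_)
    · refine (hτc.aestronglyMeasurable.mul ?_).mul hec.aestronglyMeasurable
      simp only [div_eq_mul_inv]
      exact (Finset.aestronglyMeasurable_fun_sum _ fun i _ =>
        Finset.aestronglyMeasurable_fun_sum _ fun j _ =>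
          ((((mb k i).mul (hm j)).sub ((mb k j).mul (hm i))).norm.pow 2)).mul_const _
    · have h0 := hτ0 y
      have h3 := he0 y
      rw [Real.norm_eq_abs, abs_of_nonneg (by positivity)]
      simp only [Finset.sum_div, Finset.mul_sum, Finset.sum_mul]
      refine Finset.sum_le_sum fun i _ => Finset.sum_le_sum fun j _ => ?_
      have h4 := dc_sq_le (D.db i (cut k) y * β j y) (D.db j (cut k) y * β i y)
      rw [norm_mul, norm_mul, mul_pow, mul_pow] at h4
      have h5 : ∀ l, τ y * ‖D.db l (cut k) y‖ ^ 2 ≤ C := fun l =>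
        (mul_le_mul_of_nonneg_right (le_add_of_nonneg_right (hA0 y).le) (sq_nonneg _)).trans
          (hcb k l y)
      have h6 := mul_le_mul_of_nonneg_right (h5 i) (sq_nonneg ‖β j y‖)
      have h7 := mul_le_mul_of_nonneg_right (h5 j) (sq_nonneg ‖β i y‖)
      have h8 := mul_le_mul_of_nonneg_left h4 h0
      rw [← mul_assoc C, ← mul_assoc C, ← add_mul]
      refine mul_le_mul_of_nonneg_right ?_ h3.le
      nlinarith
    · refine tendsto_const_nhds.congr' ((hone y).mono fun k h => ?_)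
      simp [db, h.2]
  have h3 : Tendsto (fun k => ∫ y, (τ y + A y) *
      ‖cut k y * D.Ts φ α y - ∑ j, D.dz j (cut k) y * β j y‖ ^ 2 * Real.exp (-φ y) ∂D.μ) atTop
      (𝓝 (∫ y, (τ y + A y) * ‖D.Ts φ α y‖ ^ 2 * Real.exp (-φ y) ∂D.μ)) := by
    have hI : Integrable (fun y => (τ y + A y) * ‖D.Ts φ α y‖ ^ 2 * Real.exp (-φ y)) D.μ := by
      refine Continuous.integrable_of_hasCompactSupport
        (((hτc.add hA).mul (hT.continuous.norm.pow 2)).mul hec) ?_
      refine hT.2.mono' fun y hy => subset_tsupport _ fun h => hy ?_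
      simp [h]
    refine tendsto_integral_of_dominated_convergence
      (fun y => 2 * ((τ y + A y) * ‖D.Ts φ α y‖ ^ 2 * Real.exp (-φ y)) +
        2 * n * ∑ j, C * (‖β j y‖ ^ 2 * Real.exp (-φ y)))
      (fun k => ?_) ((hI.const_mul 2).add
        ((integrable_finset_sum _ fun j _ => (hi j).const_mul C).const_mul _))
      (fun k => ae_of_all _ fun y => ?_) (ae_of_all _ fun y => ?_)
    · exact ((hτc.add hA).aestronglyMeasurable.mul
        ((((mc k).mul hT.continuous.aestronglyMeasurable).sub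
          (Finset.aestronglyMeasurable_fun_sum _ fun j _ => (mz k j).mul (hm j))).norm.pow 2)).mul
        hec.aestronglyMeasurable
    · have h0 : 0 ≤ τ y + A y := add_nonneg (hτ0 y) (hA0 y).le
      have h3 := he0 y
      rw [Real.norm_eq_abs, abs_of_nonneg (by positivity)]
      have h4 := dc_sq_le (cut k y * D.Ts φ α y) (∑ j, D.dz j (cut k) y * β j y)
      have h5 := dc_sum_le fun j => D.dz j (cut k) y * β j y
      have h6 : ‖cut k y * D.Ts φ α y‖ ^ 2 ≤ ‖D.Ts φ α y‖ ^ 2 := by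
        rw [norm_mul]
        exact pow_le_pow_left₀ (by positivity)
          (mul_le_of_le_one_left (norm_nonneg _) (hc1 k y)) 2
      have h7 : (τ y + A y) * (∑ j, ‖D.dz j (cut k) y * β j y‖ ^ 2) * Real.exp (-φ y) ≤
          ∑ j, C * (‖β j y‖ ^ 2 * Real.exp (-φ y)) := by
        rw [Finset.mul_sum, Finset.sum_mul]
        refine Finset.sum_le_sum fun j _ => ?_
        rw [norm_mul, mul_pow, ← mul_assoc, mul_assoc]
        exact mul_le_mul_of_nonneg_right (hcz k j y) (by positivity)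
      have h8 : ‖cut k y * D.Ts φ α y - ∑ j, D.dz j (cut k) y * β j y‖ ^ 2 ≤
          2 * ‖D.Ts φ α y‖ ^ 2 + 2 * (n * ∑ j, ‖D.dz j (cut k) y * β j y‖ ^ 2) := by linarith
      have h9 := mul_le_mul_of_nonneg_right (mul_le_mul_of_nonneg_left h8 h0) h3.le
      have h10 := mul_le_mul_of_nonneg_left h7 (by positivity : (0 : ℝ) ≤ 2 * n)
      linarith
    · refine tendsto_const_nhds.congr' ((hone y).mono fun k h => ?_)
      simp [dz, h.1, h.2]
  rw [integral_zero] at h2
  have h4 := ((h2.add h3).const_mul (∫ y, b y * Real.exp (-φ y) ∂D.μ))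
  rw [zero_add] at h4
  rw [← hp]
  exact le_of_tendsto_of_tendsto' ((tendsto_finset_sum _ fun j _ => h1 j).norm.pow 2) h4 hk

end RD

end Vale.Agent.P271A
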