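import Vale.Agent.P271A.Weyl
import Vale.Agent.P271A.XDefs
import Vale.Agent.P271A.CovA
import Vale.Agent.P271.Dist

/-! P271A: extension of sections across a divisor. -/

open MeasureTheory Filter Topology Set
open scoped ContDiff ENNReal ComplexConjugate

noncomputable section

namespace Vale.Agent.P271A

open Vale.Agent.P271

variable {n : ℕ} {X : Type} [TopologicalSpace X] [T2Space X] [CompactSpace X] [ConnectedSpace X]
  [MeasurableSpace X] [BorelSpace X]

theorem ext_meas {Y F : Type} [TopologicalSpace Y] [MeasurableSpace Y] [BorelSpace Y]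
    [NormedAddCommGroup F] [MeasurableSpace F] [BorelSpace F] {h : Y → F} {V : Set Y}
    (hV : IsOpen V) (h1 : ∀ y ∈ V, ContinuousAt h y) (h0 : ∀ y, y ∉ V → h y = 0) :
    Measurable h := by
  classical
  have h2 : ContinuousOn h V := fun y hy => (h1 y hy).continuousWithinAt
  have h3 : ContinuousOn h Vᶜ := (continuousOn_const (c := (0 : F))).congr fun y hy => h0 y hy
  have := h2.measurable_piecewise h3 hV.measurableSet
  rwa [piecewise_same] at this

theorem extendE {U : Set (Cn n)} (hU : IsOpen U) {f h : Cn n → ℂ} (hf : DifferentiableOn ℂ f U)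
    (hh : ∀ z ∈ U, f z ≠ 0 → DifferentiableAt ℂ h z) (h0 : ∀ z ∈ U, f z = 0 → h z = 0)
    (hL : ∀ K ⊆ U, IsCompact K → ∫⁻ z in K, ENNReal.ofReal (‖h z‖ ^ 2) < ⊤) :
    ∃ H, DifferentiableOn ℂ H U ∧ (∀ z ∈ U, f z ≠ 0 → H z = h z) ∧
      ∀ᵐ z ∂volume.restrict U, h z = H z := by
  classical
  let D : RD n U := ⟨Subtype.val, hU.isOpenEmbedding_subtypeVal.isLocalHomeomorph,
    volume.comap Subtype.val, fun V _ _ A _ _ =>
      (MeasurableEmbedding.subtype_coe hU.measurableSet).comap_apply _ _⟩
  have hf' : D.Hol fun y => f y := RD.hol_of_rep fun y =>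
    ⟨f, hf.differentiableAt (hU.mem_nhds y.2), EventuallyEq.rfl⟩
  have hm : Measurable fun y : U => h y :=
    ext_meas (V := {y : U | f y ≠ 0}) (isOpen_ne_fun hf'.sm.continuous continuous_const)
      (fun y hy => (hh y y.2 hy).continuousAt.comp continuous_subtype_val.continuousAt)
      fun y hy => h0 y y.2 (not_not.1 hy)
  have hL' : D.L2loc fun y => h y := by
    refine ⟨hm.aestronglyMeasurable, fun K hK => ?_⟩
    rw [memLp_two_iff_integrable_sq_norm hm.aestronglyMeasurable]
    refine ⟨(hm.norm.pow_const 2).aestronglyMeasurable, ?_⟩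
    rw [hasFiniteIntegral_iff_ofReal (Eventually.of_forall fun y => sq_nonneg _)]
    have h1 := setLIntegral_subtype (μ := (volume : Measure (Cn n))) hU.measurableSet K
      fun z => ENNReal.ofReal (‖h z‖ ^ 2)
    refine lt_of_eq_of_lt h1 (hL _ ?_ (hK.image continuous_subtype_val))
    rintro _ ⟨y, -, rfl⟩
    exact y.2
  obtain ⟨H, h1, h2, h3⟩ := RD.extend (D := D) (h := fun y => h y) hf'
    (fun y hy => (hh y y.2 hy).congr_of_eventuallyEq (RD.rep (F := h) EventuallyEq.rfl))
    (fun y hy => h0 y y.2 hy) hL'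
  have h4 : ∀ y : U, (if hz : (y : Cn n) ∈ U then H ⟨y, hz⟩ else 0) = H y := fun y => dif_pos y.2
  refine ⟨fun z => if hz : z ∈ U then H ⟨z, hz⟩ else 0, fun z hz => ?_, fun z hz hfz => ?_, ?_⟩
  · exact (h1.rep (y := ⟨z, hz⟩) (F := fun z => if hz : z ∈ U then H ⟨z, hz⟩ else 0)
      (Eventually.of_forall fun y => (h4 y).symm)).differentiableWithinAt
  · exact (h4 ⟨z, hz⟩).trans (h2 ⟨z, hz⟩ hfz)
  · rw [ae_restrict_iff_subtype hU.measurableSet]
    filter_upwards [h3] with y hy
    rw [h4 y]
    exact hy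

theorem null_zero (M : Model n X) {G : M.ι → X → ℂ} (hG : M.IsGauge G) {Z : X → ℂ}
    (hZ : Z ∈ M.H0 G) (h : Z ≠ 0) : M.μ {p | Z p = 0} = 0 := by
  classical
  have hO := Atl.isOpen_ne_zero hG (Atl.H0_le_Sec hZ)
  have hm : MeasurableSet {p | Z p = 0} := by
    have := hO.measurableSet.compl
    simpa only [compl_ofPred, not_not] using this
  have hd := Atl.dense_ne_zero hG hZ h
  refine measure_mono_null (t := ⋃ a, {p | Z p = 0} ∩ (M.e a).source)
    (fun p hp => ?_) (measure_iUnion_null fun a => ?_)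
  · obtain ⟨a, ha⟩ := M.cover p
    exact mem_iUnion.2 ⟨a, hp, ha⟩
  set f : Cn n → ℂ := M.loc a fun p => G a p * Z p with hf
  obtain ⟨H, h1, h2, h3⟩ := extendE (M.e a).open_target (f := f)
    (h := fun z => if f z = 0 then 0 else 1) (hZ a).differentiableOn
    (fun z hz hfz => (differentiableAt_const (1 : ℂ)).congr_of_eventuallyEq (by
      filter_upwards [(hZ a z hz).continuousAt.eventually_ne hfz] with w hw
      exact if_neg hw))
    (fun z _ hfz => if_pos hfz) (fun K _ hK => by
      refine lt_of_le_of_lt (lintegral_mono (g := fun _ => 1) fun z => ?_) ?_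
      · dsimp only
        split_ifs <;> simp
      · rw [setLIntegral_one]
        exact hK.measure_lt_top)
  have h4 : ∀ z ∈ (M.e a).target, H z = 1 := by
    intro z hz
    have hp := (M.e a).map_target hz
    have h5 : ContinuousAt (fun q => H (M.e a q)) ((M.e a).symm z) :=
      ContinuousAt.comp (f := M.e a) (by
        rw [(M.e a).right_inv hz]
        exact (h1.differentiableAt ((M.e a).open_target.mem_nhds hz)).continuousAt)
        ((M.e a).continuousAt hp)
    have h6 := tendsto_nhds_unique_of_frequently_eq h5.tendsto (tendsto_const_nhds (x := (1 : ℂ)))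
      (((mem_closure_iff_frequently.1 (hd _)).and_eventually
        ((M.e a).open_source.mem_nhds hp)).mono fun q hq => by
          have h7 : f (M.e a q) ≠ 0 := by
            rw [hf, M.loc_e a _ hq.2]
            exact mul_ne_zero (hG.ne a q hq.2) hq.1
          rw [h2 _ ((M.e a).map_source hq.2) h7, if_neg h7])
    rwa [(M.e a).right_inv hz] at h6
  rw [M.measure_chart a (hm.inter (M.e a).open_source.measurableSet) inter_subset_right]
  refine setLIntegral_measure_zero _ _ ?_
  rw [ae_restrict_iff' (M.e a).open_target.measurableSet] at h3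
  refine measure_mono_null ?_ h3
  rintro _ ⟨p, hp, rfl⟩ hc
  have h5 := hc ((M.e a).map_source hp.2)
  have h6 : f (M.e a p) = 0 := by
    rw [hf, M.loc_e a _ hp.2, hp.1, mul_zero]
  rw [h4 _ ((M.e a).map_source hp.2), if_pos h6] at h5
  exact zero_ne_one h5

theorem extendX (M : Model n X) {G F : M.ι → X → ℂ} (hG : M.IsGauge G) (hF : M.IsGauge F)
    {Z : X → ℂ} (hZ : Z ∈ M.H0 G) (hZ0 : Z ≠ 0) {h : X → ℂ}
    (hh : ∀ a, ∀ p ∈ (M.e a).source, Z p ≠ 0 →
      AnalyticAt ℂ (M.loc a fun q => F a q * h q) (M.e a p))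
    (h0 : ∀ p, Z p = 0 → h p = 0) (hL : ∫⁻ p, ENNReal.ofReal (‖h p‖ ^ 2) ∂M.μ < ⊤) :
    ∃ H ∈ M.H0 F, ∀ p, Z p ≠ 0 → H p = h p := by
  have hO := Atl.isOpen_ne_zero hG (Atl.H0_le_Sec hZ)
  have hd := Atl.dense_ne_zero hG hZ hZ0
  have hm : Measurable fun p => ‖h p‖ := by
    refine ext_meas hO (fun p hp => ?_) fun p hp => by rw [h0 p (not_not.1 hp), norm_zero]
    obtain ⟨a, ha⟩ := M.cover p
    have h1 := (cova_contAt ha (hh a p ha hp)).norm.div
      ((Atl.continuousOn_norm_gauge hF a).continuousAt ((M.e a).open_source.mem_nhds ha))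
      (norm_ne_zero_iff.2 (hF.ne a p ha))
    refine h1.congr ?_
    filter_upwards [(M.e a).open_source.mem_nhds ha] with q hq
    rw [Pi.div_apply, norm_mul, mul_div_cancel_left₀ _ (norm_ne_zero_iff.2 (hF.ne a q hq))]
  have hloc : ∀ a, ∃ H : Cn n → ℂ, DifferentiableOn ℂ H (M.e a).target ∧
      ∀ p ∈ (M.e a).source, Z p ≠ 0 → H (M.e a p) = F a p * h p := by
    intro a
    have hLK : ∀ K ⊆ (M.e a).target, IsCompact K →
        ∫⁻ z in K, ENNReal.ofReal (‖M.loc a (fun q => F a q * h q) z‖ ^ 2) < ⊤ := by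
      intro K hKt hK
      have hs : ContinuousOn (M.e a).symm K := (M.e a).continuousOn_symm.mono hKt
      have hmap : MapsTo (M.e a).symm K (M.e a).source := fun z hz => (M.e a).map_target (hKt hz)
      have hkne : ∀ z ∈ K, ‖M.k a ((M.e a).symm z)‖ ≠ 0 := fun z hz =>
        norm_ne_zero_iff.2 (M.k_gauge.ne a _ (hmap hz))
      obtain ⟨C, hC⟩ := hK.exists_bound_of_continuousOn
        ((((Atl.continuousOn_norm_gauge hF a).comp hs hmap).div
          ((Atl.continuousOn_norm_gauge M.k_gauge a).comp hs hmap) hkne).pow 2)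
      have h3 := M.lintegral_chart a (φ := fun p => ENNReal.ofReal (‖h p‖ ^ 2))
        (hm.pow_const 2).ennreal_ofReal
      calc ∫⁻ z in K, ENNReal.ofReal (‖M.loc a (fun q => F a q * h q) z‖ ^ 2)
          ≤ ∫⁻ z in K, ENNReal.ofReal C * (ENNReal.ofReal (‖h ((M.e a).symm z)‖ ^ 2) *
            ENNReal.ofReal (‖M.k a ((M.e a).symm z)‖ ^ 2)) := by
            refine setLIntegral_mono' hK.measurableSet fun z hz => ?_
            have h4 : (‖F a ((M.e a).symm z)‖ / ‖M.k a ((M.e a).symm z)‖) ^ 2 ≤ C :=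
              (le_abs_self _).trans (hC z hz)
            rw [← ENNReal.ofReal_mul (sq_nonneg _), ← ENNReal.ofReal_mul ((sq_nonneg _).trans h4)]
            refine ENNReal.ofReal_le_ofReal ?_
            have h5 := mul_le_mul_of_nonneg_right h4
              (mul_nonneg (sq_nonneg ‖h ((M.e a).symm z)‖) (sq_nonneg ‖M.k a ((M.e a).symm z)‖))
            refine le_trans (le_of_eq ?_) h5
            have := hkne z hz
            simp only [Atl.loc, norm_mul]
            field_simp
        _ ≤ ENNReal.ofReal C * ∫⁻ p, ENNReal.ofReal (‖h p‖ ^ 2) ∂M.μ := by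
            rw [lintegral_const_mul' _ _ ENNReal.ofReal_ne_top]
            refine mul_le_mul' le_rfl ((lintegral_mono_set hKt).trans ?_)
            rw [← h3]
            exact setLIntegral_le_lintegral _ _
        _ < ⊤ := ENNReal.mul_lt_top ENNReal.ofReal_lt_top hL
    obtain ⟨H, h1, h2, -⟩ := extendE (M.e a).open_target (f := M.loc a fun p => G a p * Z p)
      (h := M.loc a fun q => F a q * h q) (hZ a).differentiableOn
      (fun z hz hfz => by
        have h3 := hh a _ ((M.e a).map_target hz) (right_ne_zero_of_mul hfz)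
        rw [(M.e a).right_inv hz] at h3
        exact h3.differentiableAt)
      (fun z hz hfz => by
        have h3 := (mul_eq_zero.1 hfz).resolve_left (hG.ne a _ ((M.e a).map_target hz))
        change F a _ * h _ = 0
        rw [h0 _ h3, mul_zero])
      hLK
    refine ⟨H, h1, fun p hp hZp => ?_⟩
    rw [h2 _ ((M.e a).map_source hp) (by
      rw [M.loc_e a _ hp]; exact mul_ne_zero (hG.ne a p hp) hZp), M.loc_e a _ hp]
  choose Hc hH1 hH2 using hloc
  choose c hc using M.cover
  have hcont : ∀ a, ∀ p ∈ (M.e a).source, ContinuousAt (fun q => Hc a (M.e a q)) p :=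
    fun a p hp => ContinuousAt.comp (f := M.e a) ((hH1 a).differentiableAt
      ((M.e a).open_target.mem_nhds ((M.e a).map_source hp))).continuousAt
      ((M.e a).continuousAt hp)
  have key : ∀ a, ∀ p ∈ (M.e a).source,
      F a p * (Hc (c p) (M.e (c p) p) / F (c p) p) = Hc a (M.e a p) := by
    intro a p hp
    have h1 := tendsto_nhds_unique_of_frequently_eq
      ((cova_div hF hp (hc p)).mul (hcont _ p (hc p))).tendsto (hcont a p hp).tendsto
      (((mem_closure_iff_frequently.1 (hd p)).and_eventually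
        (((M.e a).open_source.inter (M.e (c p)).open_source).mem_nhds ⟨hp, hc p⟩)).mono
          fun q hq => by
            have := hF.ne _ q hq.2.2
            rw [Pi.mul_apply, hH2 _ q hq.2.2 hq.1, hH2 _ q hq.2.1 hq.1]
            field_simp)
    rw [← h1, Pi.mul_apply]
    ring
  refine ⟨fun p => Hc (c p) (M.e (c p) p) / F (c p) p, fun a => ?_, fun p hp => ?_⟩
  · refine (P278F.analyticOnNhd_of_differentiableOn (M.e a).open_target (hH1 a)).congr
      (M.e a).open_target fun z hz => ?_
    have h1 := key a _ ((M.e a).map_target hz)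
    rw [(M.e a).right_inv hz] at h1
    exact h1.symm
  · dsimp only
    rw [hH2 _ p (hc p) hp, mul_div_cancel_left₀ _ (hF.ne _ p (hc p))]

end Vale.Agent.P271A
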