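import Vale.Agent.P271A.Bern

/-! P271A: log-concavity for the explicit family of weights. -/

open MeasureTheory Filter Topology Set
open scoped ContDiff ENNReal ComplexConjugate

noncomputable section

namespace Vale.Agent.P271A

open Vale.Agent.P271

variable {n : ℕ} {X : Type} [TopologicalSpace X] [T2Space X] [CompactSpace X] [ConnectedSpace X]
  [MeasurableSpace X] [BorelSpace X]

theorem fam_hx (q a d T : ℝ) :
    HasDerivAt (fun t => q * Real.exp (a + t * d)) (q * Real.exp (a + T * d) * d) T := by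
  have h1 : HasDerivAt (fun t : ℝ => a + t * d) d T := by
    simpa using ((hasDerivAt_id T).mul_const d).const_add a
  have h2 := (h1.exp).const_mul q
  simpa [mul_assoc] using h2

theorem fam_d0 {q : ℝ} (hq : 0 ≤ q) (a d T : ℝ) :
    HasDerivAt (fun t => Real.log (1 + q * Real.exp (a + t * d)))
      (d * (q * Real.exp (a + T * d) / (1 + q * Real.exp (a + T * d)))) T := by
  have hx : 0 ≤ q * Real.exp (a + T * d) := by positivity
  have h := ((fam_hx q a d T).const_add 1).log (by positivity)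
  refine h.congr_deriv ?_
  ring

theorem fam_d1 {q : ℝ} (hq : 0 ≤ q) (a d T : ℝ) :
    HasDerivAt (fun t => q * Real.exp (a + t * d) / (1 + q * Real.exp (a + t * d)))
      (d * (q * Real.exp (a + T * d) / (1 + q * Real.exp (a + T * d)) ^ 2)) T := by
  have hx : 0 ≤ q * Real.exp (a + T * d) := by positivity
  have h := (fam_hx q a d T).fun_div ((fam_hx q a d T).const_add 1) (by positivity)
  refine h.congr_deriv ?_
  ring

theorem fam_d2 {q : ℝ} (hq : 0 ≤ q) (a d T : ℝ) :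
    HasDerivAt (fun t => q * Real.exp (a + t * d) / (1 + q * Real.exp (a + t * d)) ^ 2)
      (d * (q * Real.exp (a + T * d) * (1 - q * Real.exp (a + T * d)) /
        (1 + q * Real.exp (a + T * d)) ^ 3)) T := by
  have hx : 0 ≤ q * Real.exp (a + T * d) := by positivity
  have h := (fam_hx q a d T).fun_div (((fam_hx q a d T).const_add 1).fun_pow 2) (by positivity)
  refine h.congr_deriv ?_
  generalize q * Real.exp (a + T * d) = x at hx ⊢
  have h1 : (1 + x) ≠ 0 := by positivity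
  field_simp
  norm_num
  ring

theorem fam_b1 {x : ℝ} (hx : 0 ≤ x) : |x / (1 + x)| ≤ 1 := by
  rw [abs_of_nonneg (by positivity), div_le_one (by positivity)]
  linarith

theorem fam_b2 {x : ℝ} (hx : 0 ≤ x) : x / (1 + x) ^ 2 ≤ 1 := by
  rw [div_le_one (by positivity)]
  nlinarith

theorem fam_b3 {x : ℝ} (hx : 0 ≤ x) : |x * (1 - x) / (1 + x) ^ 3| ≤ 1 := by
  have h3 : 0 < (1 + x) ^ 3 := by positivity
  have hx2 : 0 ≤ x ^ 2 := by positivity
  have hx3 : 0 ≤ x ^ 3 := by positivity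
  rw [abs_div, abs_of_pos h3, div_le_one h3, abs_le]
  constructor <;> nlinarith

theorem fam_lip {q : ℝ} (hq : 0 ≤ q) (a d T T' : ℝ) :
    |q * Real.exp (a + T * d) / (1 + q * Real.exp (a + T * d)) ^ 2 -
      q * Real.exp (a + T' * d) / (1 + q * Real.exp (a + T' * d)) ^ 2| ≤ |d| * |T - T'| := by
  have h := Convex.norm_image_sub_le_of_norm_hasDerivWithin_le (𝕜 := ℝ) (s := univ) (C := |d|)
    (f := fun t => q * Real.exp (a + t * d) / (1 + q * Real.exp (a + t * d)) ^ 2)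
    (fun t _ => (fam_d2 hq a d t).hasDerivWithinAt) (fun t _ => by
      rw [Real.norm_eq_abs, abs_mul]
      exact mul_le_of_le_one_right (abs_nonneg _) (fam_b3 (by positivity)))
    convex_univ (mem_univ T') (mem_univ T)
  simpa [Real.norm_eq_abs] using h

theorem fam_log_le {a b c ε : ℝ} (ha : 0 ≤ a) (hb : 0 ≤ b) (hc : 0 ≤ c) (h : |a - b| ≤ ε) :
    Real.log (1 + a * c) ≤ Real.log (1 + b * c) + c * ε := by
  have hε : 0 ≤ ε := (abs_nonneg _).trans h
  have hab : a ≤ b + ε := by linarith [(abs_le.1 h).2]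
  have h1 : 0 < 1 + a * c := by positivity
  have h2 : 0 < 1 + b * c := by positivity
  have h3 : 1 + a * c ≤ (1 + b * c) * (1 + c * ε) := by
    have h4 : 0 ≤ b * c * (c * ε) := by positivity
    have h5 : a * c ≤ (b + ε) * c := mul_le_mul_of_nonneg_right hab hc
    nlinarith
  have h6 : 0 < 1 + c * ε := by positivity
  have h7 := Real.log_le_log h1 h3
  rw [Real.log_mul h2.ne' h6.ne'] at h7
  have h8 := Real.log_le_sub_one_of_pos h6
  linarith

omit [T2Space X] [CompactSpace X] [ConnectedSpace X] [MeasurableSpace X] [BorelSpace X] in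
theorem fam_sm_div {A : Atl n X} {P : Pol A} {J : ℕ} {Q : X → ℝ} (hQ : SQ P J Q) {c : ℝ}
    (hc : 0 ≤ c) (k : ℕ) : A.Sm fun q => Q q * c / (1 + Q q * c) ^ k := by
  refine sm_comp (χ := fun t => t * c / (1 + t * c) ^ k) hQ.sm fun q => ?_
  have h0 := hQ.nonneg q
  have h1 : (1 + Q q * c) ^ k ≠ 0 := by positivity
  exact (contDiffAt_id.mul contDiffAt_const).div
    ((contDiffAt_const.add (contDiffAt_id.mul contDiffAt_const)).pow k) h1

theorem famW_sm {A : Atl n X} {P : Pol A} {I : Type} [Fintype I] (N : ℕ) {J : I → ℕ}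
    {Q : I → X → ℝ} (hQ : ∀ i, SQ P (J i) (Q i)) (α : I → ℝ) : A.Sm (famW N Q α) := by
  exact sm_mul (sm_const (N : ℝ)) (sm_sum Finset.univ fun i _ =>
    (hQ i).sm_log one_pos (Real.exp_pos (α i)).le)

theorem famW_nonneg {I : Type} [Fintype I] (N : ℕ) {Q : I → X → ℝ} (hQ : ∀ i p, 0 ≤ Q i p)
    (α : I → ℝ) (p : X) : 0 ≤ famW N Q α p := by
  refine mul_nonneg (Nat.cast_nonneg N) (Finset.sum_nonneg fun i _ => Real.log_nonneg ?_)
  have h1 : 0 ≤ Q i p * Real.exp (α i) := mul_nonneg (hQ i p) (Real.exp_pos _).le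
  linarith

theorem famW_sub_le {I : Type} [Fintype I] (N : ℕ) {Q Q' : I → X → ℝ} (hQ : ∀ i p, 0 ≤ Q i p)
    (hQ' : ∀ i p, 0 ≤ Q' i p) (α : I → ℝ) {ε : ℝ} (h : ∀ i p, |Q i p - Q' i p| ≤ ε) (p : X) :
    famW N Q α p ≤ famW N Q' α p + N * (∑ i, Real.exp (α i)) * ε := by
  unfold famW
  rw [mul_assoc, ← mul_add, Finset.sum_mul, ← Finset.sum_add_distrib]
  refine mul_le_mul_of_nonneg_left (Finset.sum_le_sum fun i _ => ?_) (Nat.cast_nonneg N)
  exact fam_log_le (hQ i p) (hQ' i p) (Real.exp_pos _).le (h i p)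

omit [T2Space X] [CompactSpace X] [ConnectedSpace X] [MeasurableSpace X] [BorelSpace X] in
theorem fam_joint {A : Atl n X} (P : Pol A) {I : Type} [Fintype I] (N m : ℕ) {J : I → ℕ}
    {Q : I → X → ℝ} (hQ : ∀ i, SQ P (J i) (Q i)) (hm : N * ((∑ i, J i) * P.k0) ≤ m)
    (γ d : I → ℝ) {a : A.ι} {p : X} (hp : p ∈ (A.e a).source) (ξ : Cn n) :
    0 ≤ Lv P (famW N Q γ) m a p ξ ∧
      ‖Db A (fun q => ∑ i, (N * d i) * (Q i q * Real.exp (γ i) / (1 + Q i q * Real.exp (γ i))))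
        a p ξ‖ ^ 2 ≤
        (∑ i, (N * d i ^ 2) * (Q i p * Real.exp (γ i) / (1 + Q i p * Real.exp (γ i)) ^ 2)) *
          Lv P (famW N Q γ) m a p ξ := by
  have hc : ∀ i, 0 ≤ Real.exp (γ i) := fun i => (Real.exp_pos _).le
  have hs : ∀ i, A.Sm fun q => Real.log (1 + Q i q * Real.exp (γ i)) := fun i =>
    (hQ i).sm_log one_pos (hc i)
  have hsum := sm_sum Finset.univ fun i _ => hs i
  have hW : A.Sm (famW N Q γ) := sm_mul (sm_const (N : ℝ)) hsum
  set L : I → ℝ := fun i =>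
    Lv P (fun q => Real.log (1 + Q i q * Real.exp (γ i))) (J i * P.k0) a p ξ with hL
  have hL0 : ∀ i, 0 ≤ L i := fun i => (hQ i).Lv_log one_pos (hc i) hp
  have e1 : Lv P (famW N Q γ) (N * ∑ i, ((J i : ℝ) * P.k0)) a p ξ = N * ∑ i, L i := by
    have h1 := Lv_const_mul P (ξ := ξ) hsum (N : ℝ) (∑ i, ((J i : ℝ) * P.k0)) hp
    rw [Lv_sum P Finset.univ (fun i _ => hs i) (fun i => (J i : ℝ) * P.k0) hp] at h1
    exact h1
  have hm' : (N : ℝ) * ∑ i, ((J i : ℝ) * P.k0) ≤ m := by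
    have h1 : ((N * ((∑ i, J i) * P.k0) : ℕ) : ℝ) ≤ m := Nat.cast_le.2 hm
    push_cast at h1
    rw [← Finset.sum_mul]
    exact h1
  have e2 : N * ∑ i, L i ≤ Lv P (famW N Q γ) m a p ξ := by
    have h1 := Lv_split P (ξ := ξ) hW (N * ∑ i, ((J i : ℝ) * P.k0))
      (m - N * ∑ i, ((J i : ℝ) * P.k0)) hp
    rw [add_sub_cancel, e1] at h1
    have h2 := mul_nonneg (sub_nonneg.2 hm') (Lv_fs_nonneg P (ξ := ξ) hp)
    linarith
  have hN : (0 : ℝ) ≤ N := Nat.cast_nonneg N
  have hNL : 0 ≤ N * ∑ i, L i := mul_nonneg hN (Finset.sum_nonneg fun i _ => hL0 i)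
  refine ⟨hNL.trans e2, ?_⟩
  have hs0 : ∀ i, 0 ≤ Q i p * Real.exp (γ i) / (1 + Q i p * Real.exp (γ i)) ^ 2 := fun i =>
    div_nonneg (mul_nonneg ((hQ i).nonneg p) (hc i)) (sq_nonneg _)
  have hsm : ∀ i, A.Sm fun q => Q i q * Real.exp (γ i) / (1 + Q i q * Real.exp (γ i)) := by
    intro i
    simpa using fam_sm_div (hQ i) (hc i) 1
  rw [Db_sum Finset.univ (fun i _ => hsm i) (fun i => N * d i) hp]
  set D : I → ℂ := fun i =>
    Db A (fun q => Q i q * Real.exp (γ i) / (1 + Q i q * Real.exp (γ i))) a p ξ with hD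
  have hDi : ∀ i, ‖D i‖ ^ 2 ≤
      Q i p * Real.exp (γ i) / (1 + Q i p * Real.exp (γ i)) ^ 2 * L i := fun i =>
    (hQ i).joint (hc i) hp
  have h1 : ‖∑ i, ((N * d i : ℝ) : ℂ) * D i‖ ≤ ∑ i, N * |d i| * ‖D i‖ := by
    refine (norm_sum_le _ _).trans (le_of_eq (Finset.sum_congr rfl fun i _ => ?_))
    rw [norm_mul, Complex.norm_real, Real.norm_eq_abs, abs_mul, abs_of_nonneg hN]
  have h2 : (∑ i, N * |d i| * ‖D i‖) ^ 2 ≤
      (∑ i, (N * d i ^ 2) * (Q i p * Real.exp (γ i) / (1 + Q i p * Real.exp (γ i)) ^ 2)) *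
        ∑ i, N * L i := by
    refine Finset.sum_sq_le_sum_mul_sum_of_sq_le_mul Finset.univ
      (fun i _ => mul_nonneg (by positivity) (hs0 i)) (fun i _ => mul_nonneg hN (hL0 i))
      fun i _ => ?_
    have h3 := mul_le_mul_of_nonneg_left (hDi i) (show (0 : ℝ) ≤ N ^ 2 * d i ^ 2 by positivity)
    rw [mul_pow, mul_pow, sq_abs]
    linarith
  rw [← Finset.mul_sum] at h2
  have h4 : 0 ≤ ∑ i, (N * d i ^ 2) *
      (Q i p * Real.exp (γ i) / (1 + Q i p * Real.exp (γ i)) ^ 2) :=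
    Finset.sum_nonneg fun i _ => mul_nonneg (by positivity) (hs0 i)
  exact (pow_le_pow_left₀ (norm_nonneg _) h1 2).trans
    (h2.trans (mul_le_mul_of_nonneg_left e2 h4))

theorem bern_fam (M : Model n X) (P : Pol M.toAtl) {I : Type} [Fintype I] (N m : ℕ) {J : I → ℕ}
    {Q : I → X → ℝ} (hQ : ∀ i, SQ P (J i) (Q i)) (hm : N * ((∑ i, J i) * P.k0) ≤ m)
    (α β : I → ℝ) (x : X) {A B l : ℝ} (hA : 0 ≤ A) (hB : 0 ≤ B) (hl0 : 0 ≤ l) (hl1 : l ≤ 1)
    (h0 : ∀ h ∈ M.H0 (M.k * P.u ^ m), A * ‖h x‖ ^ 2 ≤ M.N2 (famW N Q α) h)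
    (h1 : ∀ h ∈ M.H0 (M.k * P.u ^ m), B * ‖h x‖ ^ 2 ≤ M.N2 (famW N Q β) h) :
    ∀ h ∈ M.H0 (M.k * P.u ^ m), A ^ (1 - l) * B ^ l * ‖h x‖ ^ 2 ≤
      M.N2 (famW N Q fun i => (1 - l) * α i + l * β i) h := by
  set d : I → ℝ := fun i => β i - α i with hd
  have hN : (0 : ℝ) ≤ N := Nat.cast_nonneg N
  have hQ0 : ∀ i p, 0 ≤ Q i p := fun i p => (hQ i).nonneg p
  have hx0 : ∀ i p T, 0 ≤ Q i p * Real.exp (α i + T * d i) := fun i p T =>
    mul_nonneg (hQ0 i p) (Real.exp_pos _).le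
  set C : ℝ := ∑ i, N * (|d i| + d i ^ 2 + d i ^ 2 * |d i|) with hC
  have key := bern M P m (ψ := fun T => famW N Q fun i => α i + T * d i)
    (ψ₁ := fun T q => ∑ i, (N * d i) *
      (Q i q * Real.exp (α i + T * d i) / (1 + Q i q * Real.exp (α i + T * d i))))
    (ψ₂ := fun T q => ∑ i, (N * d i ^ 2) *
      (Q i q * Real.exp (α i + T * d i) / (1 + Q i q * Real.exp (α i + T * d i)) ^ 2))
    (C := C) ?_ ?_ ?_ ?_ ?_ ?_ ?_ ?_ ?_ x (T0 := 0) (T1 := 1) hA hB hl0 hl1 ?_ ?_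
  · have e : (fun i => α i + ((1 - l) * 0 + l * 1) * d i) =
        fun i => (1 - l) * α i + l * β i := by
      funext i
      simp only [hd]
      ring
    simpa only [e] using key
  · intro T p
    have h := (HasDerivAt.fun_sum (u := Finset.univ) fun i _ =>
      fam_d0 (hQ0 i p) (α i) (d i) T).const_mul (N : ℝ)
    refine h.congr_deriv ?_
    rw [Finset.mul_sum]
    exact Finset.sum_congr rfl fun i _ => by ring
  · intro T p
    have h := HasDerivAt.fun_sum (u := Finset.univ) fun i _ =>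
      (fam_d1 (hQ0 i p) (α i) (d i) T).const_mul (N * d i)
    refine h.congr_deriv ?_
    exact Finset.sum_congr rfl fun i _ => by ring
  · intro T p
    refine (Finset.abs_sum_le_sum_abs _ _).trans (Finset.sum_le_sum fun i _ => ?_)
    rw [abs_mul, abs_mul, abs_of_nonneg hN]
    refine (mul_le_of_le_one_right (by positivity) (fam_b1 (hx0 i p T))).trans ?_
    refine mul_le_mul_of_nonneg_left ?_ hN
    have h2 : 0 ≤ d i ^ 2 + d i ^ 2 * |d i| := by positivity
    linarith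
  · intro T p
    refine ⟨Finset.sum_nonneg fun i _ => mul_nonneg (by positivity)
      (div_nonneg (hx0 i p T) (sq_nonneg _)), Finset.sum_le_sum fun i _ => ?_⟩
    refine (mul_le_of_le_one_right (by positivity) (fam_b2 (hx0 i p T))).trans ?_
    refine mul_le_mul_of_nonneg_left ?_ hN
    have h2 : 0 ≤ d i ^ 2 * |d i| := by positivity
    linarith [abs_nonneg (d i)]
  · intro T T' p
    rw [← Finset.sum_sub_distrib, hC, Finset.sum_mul]
    refine (Finset.abs_sum_le_sum_abs _ _).trans (Finset.sum_le_sum fun i _ => ?_)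
    rw [← mul_sub, abs_mul, abs_of_nonneg (show (0 : ℝ) ≤ N * d i ^ 2 by positivity)]
    refine (mul_le_mul_of_nonneg_left (fam_lip (hQ0 i p) (α i) (d i) T T')
      (by positivity)).trans ?_
    have h2 : 0 ≤ N * (|d i| + d i ^ 2) * |T - T'| := by positivity
    linarith
  · intro T
    exact famW_sm N hQ _
  · intro T
    refine sm_sum Finset.univ fun i _ => sm_mul (sm_const _) ?_
    simpa using fam_sm_div (hQ i) (Real.exp_pos (α i + T * d i)).le 1
  · intro T
    exact Atl.Sm.continuous (sm_sum Finset.univ fun i _ => sm_mul (sm_const _)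
      (fam_sm_div (hQ i) (Real.exp_pos (α i + T * d i)).le 2))
  · intro T a p hp ξ
    exact fam_joint P N m hQ hm (fun i => α i + T * d i) d hp ξ
  · simpa only [zero_mul, add_zero] using h0
  · have e : (fun i => α i + 1 * d i) = β := by
      funext i
      simp only [hd]
      ring
    simpa only [e] using h1

end Vale.Agent.P271A
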