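import Vale.Agent.P271.Defs

/-! P271A: the grid argument. -/

open MeasureTheory Filter Topology Set
open scoped ContDiff ENNReal ComplexConjugate

noncomputable section

namespace Vale.Agent.P271A

open Vale.Agent.P271

theorem finA_step {R δ δ0 T x : ℝ} (hδ : 0 < δ) (hδ0 : 0 < δ0) (hT : 0 ≤ T) (hx0 : 0 ≤ x)
    (hx : x ≤ (1 + δ0) ^ T) : ∃ m : Fin (⌊R / δ⌋₊ + 1),
      x ≤ (Real.exp (-(δ * (m : ℕ))) + δ0) ^ T ∧
        Real.exp (-(δ * (m : ℕ) + δ) * T) ≤ Real.exp (-R * T) + x := by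
  classical
  let P : ℕ → Prop := fun m => x ≤ (Real.exp (-(δ * m)) + δ0) ^ T
  have h0 : P 0 := by simpa [P] using hx
  have hle := Nat.findGreatest_le (P := P) ⌊R / δ⌋₊
  refine ⟨⟨Nat.findGreatest P ⌊R / δ⌋₊, Nat.lt_succ_of_le hle⟩,
    Nat.findGreatest_spec (Nat.zero_le _) h0, ?_⟩
  set m := Nat.findGreatest P ⌊R / δ⌋₊ with hm
  show Real.exp (-(δ * (m : ℝ) + δ) * T) ≤ _
  rcases hle.eq_or_lt with h | h
  · have h1 : R / δ < (m : ℝ) + 1 := by
      rw [h]
      exact Nat.lt_floor_add_one _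
    rw [div_lt_iff₀ hδ] at h1
    refine le_add_of_le_of_nonneg (Real.exp_le_exp.2 ?_) hx0
    nlinarith
  · have h1 : ¬ P (m + 1) := Nat.findGreatest_is_greatest (Nat.lt_succ_self m) h
    have h2 : (Real.exp (-(δ * ((m + 1 : ℕ) : ℝ))) + δ0) ^ T < x := not_le.1 h1
    have h3 : Real.exp (-(δ * (m : ℝ) + δ) * T) ≤
        (Real.exp (-(δ * ((m + 1 : ℕ) : ℝ))) + δ0) ^ T := by
      rw [Real.exp_mul]
      refine Real.rpow_le_rpow (Real.exp_pos _).le ?_ hT
      push_cast
      rw [mul_add, mul_one]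
      linarith
    linarith [Real.exp_pos (-R * T)]

theorem grid {Z : Type} [MeasurableSpace Z] (ν : Measure Z) [IsFiniteMeasure ν] {r : Z → ℝ}
    (hr : Measurable r) {I : Type} [Fintype I] {f : I → Z → ℂ}
    (hf : ∀ i, Measurable fun p => ‖f i p‖) {B : ℝ} (hB : ∀ i p, ‖f i p‖ ≤ B) {c : I → ℝ}
    (hc : ∀ i, 0 ≤ c i)
    (hlc : ∀ (a' : I → ℝ) (β : ℝ), (∀ i, 0 ≤ a' i) →
      Good ν.toOuterMeasure r f (fun i => Real.exp (-a' i)) β → ∑ i, c i * a' i ≤ β)
    {R δ : ℝ} (hR : 0 ≤ R) (hδ : 0 < δ) : ∃ δ0 > (0 : ℝ), ∃ T0 N0 : ℝ, 0 ≤ N0 ∧ ∀ T, T0 ≤ T →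
      ∫ p in {p | r p < δ0},
        Real.exp (-∑ i, c i * Real.log (Real.exp (-R * T) + ‖f i p‖ ^ 2)) ∂ν ≤
        N0 * Real.exp ((∑ i, c i + 1) * δ * T) := by
  have _ := hR
  classical
  let a : (I → Fin (⌊R / δ⌋₊ + 1)) → I → ℝ := fun k i => δ * (k i : ℕ)
  have h1 : ∀ k, ∃ d > (0 : ℝ), ∀ T : ℝ, 1 / d ≤ T →
      ν {p | r p < d ∧ ∀ i, ‖f i p‖ ^ 2 ≤ (Real.exp (-a k i) + d) ^ T} <
        ENNReal.ofReal (Real.exp (-(∑ i, c i * a k i - δ + d) * T)) := by
    intro k
    have h2 : ¬ Good ν.toOuterMeasure r f (fun i => Real.exp (-a k i)) (∑ i, c i * a k i - δ) :=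
      fun h => by linarith [hlc (a k) _ (fun i => by positivity) h]
    unfold Good at h2
    push Not at h2
    exact h2
  choose d hd hν using h1
  obtain ⟨k0, -, hk0⟩ := Finset.exists_min_image Finset.univ d Finset.univ_nonempty
  have hδ0 := hd k0
  obtain ⟨T1, hT1⟩ := eventually_atTop.1
    ((tendsto_rpow_atTop_of_base_gt_one (1 + d k0) (by linarith)).eventually_ge_atTop (B ^ 2))
  refine ⟨d k0, hδ0, max (1 / d k0) T1, Fintype.card (I → Fin (⌊R / δ⌋₊ + 1)),
    Nat.cast_nonneg _, fun T hT => ?_⟩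
  have hTa : 1 / d k0 ≤ T := (le_max_left _ _).trans hT
  have hT0 : 0 ≤ T := le_trans (by positivity) hTa
  let S : (I → Fin (⌊R / δ⌋₊ + 1)) → Set Z := fun k =>
    {p | r p < d k0 ∧ ∀ i, ‖f i p‖ ^ 2 ≤ (Real.exp (-a k i) + d k0) ^ T}
  have hA : MeasurableSet {p | r p < d k0} := measurableSet_lt hr measurable_const
  have hS : ∀ k, MeasurableSet (S k) := fun k => by
    refine hA.inter ?_
    have e : {p | ∀ i, ‖f i p‖ ^ 2 ≤ (Real.exp (-a k i) + d k0) ^ T} =
        ⋂ i, {p | ‖f i p‖ ^ 2 ≤ (Real.exp (-a k i) + d k0) ^ T} := Set.setOf_forall _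
    show MeasurableSet {p | ∀ i, ‖f i p‖ ^ 2 ≤ (Real.exp (-a k i) + d k0) ^ T}
    rw [e]
    exact MeasurableSet.iInter fun i => measurableSet_le ((hf i).pow_const 2) measurable_const
  let g : (I → Fin (⌊R / δ⌋₊ + 1)) → ℝ := fun k => Real.exp (∑ i, c i * ((a k i + δ) * T))
  have hSν : ∀ k, (ν.restrict {p | r p < d k0}).real (S k) ≤
      Real.exp (-(∑ i, c i * a k i - δ) * T) := fun k => by
    have b1 : d k0 ≤ d k := hk0 k (Finset.mem_univ k)
    have b2 : 1 / d k ≤ T := (one_div_le_one_div_of_le hδ0 b1).trans hTa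
    refine ENNReal.toReal_le_of_le_ofReal (Real.exp_pos _).le ?_
    refine (Measure.restrict_apply_le _ _).trans (le_trans (measure_mono ?_)
      ((hν k T b2).le.trans (ENNReal.ofReal_le_ofReal (Real.exp_le_exp.2 ?_))))
    · intro p hp
      refine ⟨hp.1.trans_le b1, fun i => (hp.2 i).trans ?_⟩
      exact Real.rpow_le_rpow (by positivity) (by linarith) hT0
    · nlinarith [hd k]
  have hint : ∀ k, Integrable ((S k).indicator fun _ => g k) (ν.restrict {p | r p < d k0}) :=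
    fun k => (integrable_const _).indicator (hS k)
  calc _ ≤ ∫ p in {p | r p < d k0}, ∑ k, (S k).indicator (fun _ => g k) p ∂ν := by
        refine integral_mono_of_nonneg (Eventually.of_forall fun p => (Real.exp_pos _).le)
          (integrable_finset_sum _ fun k _ => hint k) ?_
        filter_upwards [ae_restrict_mem hA] with p hp
        have b1 : ∀ i, ‖f i p‖ ^ 2 ≤ (1 + d k0) ^ T := fun i =>
          (pow_le_pow_left₀ (norm_nonneg _) (hB i p) 2).trans (hT1 T ((le_max_right _ _).trans hT))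
        choose k hk1 hk2 using fun i => finA_step (R := R) hδ hδ0 hT0 (sq_nonneg _) (b1 i)
        have b2 : p ∈ S k := ⟨hp, hk1⟩
        refine le_trans ?_ (Finset.single_le_sum (f := fun k => (S k).indicator (fun _ => g k) p)
          (fun k _ => Set.indicator_nonneg (fun _ _ => (Real.exp_pos _).le) p) (Finset.mem_univ k))
        rw [Set.indicator_of_mem b2]
        refine Real.exp_le_exp.2 ?_
        rw [← Finset.sum_neg_distrib]
        refine Finset.sum_le_sum fun i _ => ?_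
        have b3 := (Real.le_log_iff_exp_le (by positivity)).2 (hk2 i)
        have b4 := mul_le_mul_of_nonneg_left b3 (hc i)
        simp only [a]
        linarith
    _ = ∑ k, (ν.restrict {p | r p < d k0}).real (S k) * g k := by
        rw [integral_finset_sum _ fun k _ => hint k]
        exact Finset.sum_congr rfl fun k _ => integral_indicator_const _ (hS k)
    _ ≤ ∑ _k : I → Fin (⌊R / δ⌋₊ + 1), Real.exp ((∑ i, c i + 1) * δ * T) := by
        refine Finset.sum_le_sum fun k _ => ?_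
        refine (mul_le_mul_of_nonneg_right (hSν k) (Real.exp_pos _).le).trans (le_of_eq ?_)
        rw [← Real.exp_add]
        congr 1
        have e : ∑ i, c i * ((a k i + δ) * T) = (∑ i, c i * a k i) * T + (∑ i, c i) * δ * T := by
          rw [Finset.sum_mul, Finset.sum_mul, Finset.sum_mul, ← Finset.sum_add_distrib]
          exact Finset.sum_congr rfl fun i _ => by ring
        rw [e]
        ring
    _ = _ := by simp

end Vale.Agent.P271A
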