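import Vale.Agent.P271A.FinA
import Vale.Agent.P271A.Crit

/-! P271A: the final application of the vanishing theorem. -/

open MeasureTheory Filter Topology Set
open scoped ContDiff ENNReal ComplexConjugate

noncomputable section

namespace Vale.Agent.P271A

open Vale.Agent.P271

theorem finB_log {a R δ d T y : ℝ} (haR : a ≤ R) (hδ : 0 ≤ δ) (hd0 : 0 ≤ d)
    (hd : d ≤ δ * Real.exp (-a)) (hT : 0 ≤ T) (hy0 : 0 ≤ y) (hy : y ≤ (Real.exp (-a) + d) ^ T) :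
    y ≤ Real.exp ((-a + δ) * T) ∧
      Real.log (Real.exp (-R * T) + y) ≤ Real.log 2 + (-a + δ) * T := by
  have h1 : Real.exp (-a) + d ≤ Real.exp (-a + δ) := by
    rw [Real.exp_add]
    have := mul_le_mul_of_nonneg_left (Real.add_one_le_exp δ) (Real.exp_pos (-a)).le
    linarith
  have h2 : y ≤ Real.exp ((-a + δ) * T) := by
    rw [Real.exp_mul]
    exact hy.trans (Real.rpow_le_rpow (by positivity) h1 hT)
  refine ⟨h2, ?_⟩
  have h3 : Real.exp (-R * T) ≤ Real.exp ((-a + δ) * T) :=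
    Real.exp_le_exp.2 (mul_le_mul_of_nonneg_right (by linarith) hT)
  rw [Real.log_le_iff_le_exp (by positivity), Real.exp_add, Real.exp_log two_pos]
  linarith

theorem finB_top {R T y B : ℝ} (hR : 0 ≤ R) (hT : 0 ≤ T) (hy0 : 0 ≤ y) (hy : y ≤ B) :
    Real.log (Real.exp (-R * T) + y ^ 2) ≤ Real.log (1 + B ^ 2) := by
  have h1 : Real.exp (-R * T) ≤ 1 := Real.exp_le_one_iff.2 (by nlinarith)
  have h2 : y ^ 2 ≤ B ^ 2 := pow_le_pow_left₀ hy0 hy 2
  exact Real.log_le_log (by positivity) (by linarith)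

theorem finB_large {κ : ℝ} (hκ : 0 < κ) (K : ℝ) : ∀ᶠ T in atTop, K < Real.exp (κ * T) :=
  (Real.tendsto_exp_atTop.comp (tendsto_id.const_mul_atTop hκ)).eventually_gt_atTop K

theorem finB_small {μ σ K C : ℝ} (hσ0 : 0 ≤ σ) (hσ : 2 * σ < μ) (hK : 0 ≤ K) (hC : 0 < C) :
    ∀ᶠ T in atTop, Real.exp (-(μ / 4) * T) * (1 + √(K * Real.exp (σ * T))) ≤ 1 / C := by
  filter_upwards [finB_large (κ := μ / 4 - σ / 2) (by linarith) (C * (1 + √K)),
    eventually_ge_atTop 0] with T h hT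
  have h1 : √(K * Real.exp (σ * T)) = √K * Real.exp (σ / 2 * T) := by
    rw [Real.sqrt_mul hK, ← Real.exp_half]
    congr 2
    ring
  have h2 : 1 ≤ Real.exp (σ / 2 * T) := Real.one_le_exp (by positivity)
  have h3 : Real.exp (-(μ / 4) * T) * Real.exp (σ / 2 * T) *
      Real.exp ((μ / 4 - σ / 2) * T) = 1 := by
    rw [← Real.exp_add, ← Real.exp_add, Real.exp_eq_one_iff]
    ring
  have h4 : 0 < Real.exp (-(μ / 4) * T) := Real.exp_pos _
  have h5 : 0 < Real.exp (-(μ / 4) * T) * Real.exp (σ / 2 * T) := by positivity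
  rw [h1, le_div_iff₀ hC]
  calc Real.exp (-(μ / 4) * T) * (1 + √K * Real.exp (σ / 2 * T)) * C
      ≤ Real.exp (-(μ / 4) * T) * (Real.exp (σ / 2 * T) + √K * Real.exp (σ / 2 * T)) * C := by
        gcongr
    _ = Real.exp (-(μ / 4) * T) * Real.exp (σ / 2 * T) * (C * (1 + √K)) := by ring
    _ ≤ _ := (mul_le_mul_of_nonneg_left h.le h5.le).trans_eq h3

theorem finB_low {Z : Type} [MeasurableSpace Z] (ν : Measure Z) [IsFiniteMeasure ν] {g : Z → ℝ}
    (hg : Integrable g ν) (hg0 : ∀ p, 0 ≤ g p) {A S : Set Z} (hA : MeasurableSet A) {e v : ℝ}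
    (he : 0 ≤ e) (hv : ENNReal.ofReal v ≤ ν S) (hS : ∀ p ∈ S, p ∈ A ∧ e ≤ g p) :
    e * v ≤ ∫ p in A, g p ∂ν := by
  refine le_trans ?_ (mul_meas_ge_le_integral_of_nonneg (ae_of_all _ hg0) hg.integrableOn e)
  refine mul_le_mul_of_nonneg_left ?_ he
  rw [measureReal_def, Measure.restrict_apply' hA,
    ← ENNReal.ofReal_le_iff_le_toReal (measure_ne_top _ _)]
  exact hv.trans (measure_mono fun p hp => ⟨(hS p hp).2, (hS p hp).1⟩)

theorem finB_up {Z : Type} [MeasurableSpace Z] (ν : Measure Z) {g g' : Z → ℝ}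
    (hg : Integrable g ν) (hg' : Integrable g' ν) (hg0 : ∀ p, 0 ≤ g' p) {A S : Set Z}
    (hS : MeasurableSet S) (hSA : S ⊆ A) {K : ℝ} (hK : 0 ≤ K) (h : ∀ p ∈ S, g p ≤ K * g' p) :
    ∫ p in S, g p ∂ν ≤ K * ∫ p in A, g' p ∂ν := by
  refine (setIntegral_mono_on hg.integrableOn (hg'.const_mul K).integrableOn hS h).trans ?_
  rw [integral_const_mul]
  exact mul_le_mul_of_nonneg_left
    (setIntegral_mono_set hg'.integrableOn (ae_of_all _ hg0) hSA.eventuallyLE) hK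

variable {n : ℕ} {X : Type} [TopologicalSpace X]

/-- The weight of the final argument. -/
def finW {I : Type} [Fintype I] (c : I → ℝ) (f : I → X → ℂ) (R ε μ0 : ℝ) (r : X → ℝ) (T : ℝ)
    (p : X) : ℝ :=
  ∑ i, c i * Real.log (Real.exp (-R * T) + ‖f i p‖ ^ 2) +
    ε * Real.log (Real.exp (-μ0 * T) + r p ^ 2)

theorem finB_curv {A : Atl n X} (P : Pol A) (x : X) (i0 : Fin P.N) {m : ℕ} (hm : n + 1 ≤ m)
    {I : Type} [Fintype I] {j : I → ℕ} {f : I → X → ℂ}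
    (hf : ∀ i, f i ∈ A.H0 (P.u ^ (j i * P.k0))) {c : I → ℝ} (hc : ∀ i, 0 ≤ c i)
    (hdeg : P.k0 * ∑ i, c i * j i ≤ n + 1 / 2) (R μ0 T : ℝ) :
    (A.Sm fun p => ∑ i, c i * Real.log (Real.exp (-R * T) + ‖f i p‖ ^ 2)) ∧
    A.Sm (finW c f R (1 / (4 * P.k0)) μ0 (P.r x i0) T) ∧ ∀ a, ∀ p ∈ (A.e a).source, ∀ ξ,
      1 / 4 * Lv P (fun _ => 0) 1 a p ξ ≤
        Lv P (finW c f R (1 / (4 * P.k0)) μ0 (P.r x i0) T) m a p ξ := by
  have hk : (0 : ℝ) < P.k0 := by exact_mod_cast P.k0_pos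
  have hr : SQ P 1 fun p => P.r x i0 p ^ 2 := by
    simpa only [P.r_sq] using sq_dist (P := P) i0 fun i => P.s i x / P.s i0 x
  have s1 : ∀ i, A.Sm fun p => Real.log (Real.exp (-R * T) + ‖f i p‖ ^ 2) := fun i => by
    simpa only [mul_one] using (sq_norm (hf i)).sm_log (Real.exp_pos (-R * T)) zero_le_one
  have s2 : A.Sm fun p => Real.log (Real.exp (-μ0 * T) + P.r x i0 p ^ 2) := by
    simpa only [mul_one] using hr.sm_log (Real.exp_pos (-μ0 * T)) zero_le_one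
  have s3 : ∀ i, A.Sm fun p => c i * Real.log (Real.exp (-R * T) + ‖f i p‖ ^ 2) := fun i =>
    sm_mul (sm_const _) (s1 i)
  have s4 : A.Sm fun p => ∑ i, c i * Real.log (Real.exp (-R * T) + ‖f i p‖ ^ 2) :=
    sm_sum _ fun i _ => s3 i
  have s5 : A.Sm fun p => 1 / (4 * (P.k0 : ℝ)) *
      Real.log (Real.exp (-μ0 * T) + P.r x i0 p ^ 2) := sm_mul (sm_const _) s2
  have s6 : A.Sm (finW c f R (1 / (4 * P.k0)) μ0 (P.r x i0) T) := sm_add s4 s5
  refine ⟨s4, s6, fun a p hp ξ => ?_⟩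
  obtain ⟨l, hl⟩ : ∃ l : ℝ, l = ∑ i, c i * (j i * P.k0) + 1 / (4 * (P.k0 : ℝ)) * P.k0 := ⟨_, rfl⟩
  have hl' : 1 / 4 ≤ m - l := by
    have e1 : ∑ i, c i * (j i * P.k0) = P.k0 * ∑ i, c i * j i := by
      rw [Finset.mul_sum]
      exact Finset.sum_congr rfl fun i _ => by ring
    have e2 : 1 / (4 * (P.k0 : ℝ)) * P.k0 = 1 / 4 := by field_simp
    have e3 : (n : ℝ) + 1 ≤ m := by exact_mod_cast hm
    rw [hl, e1, e2]
    linarith
  have h0 : 0 ≤ Lv P (finW c f R (1 / (4 * P.k0)) μ0 (P.r x i0) T) l a p ξ := by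
    rw [hl]
    refine le_of_le_of_eq ?_ (Lv_add P s4 s5 _ _ hp).symm
    rw [Lv_sum P _ (fun i _ => s3 i) _ hp, Lv_const_mul P s2 _ _ hp]
    refine add_nonneg (Finset.sum_nonneg fun i _ => ?_) (mul_nonneg (by positivity) ?_)
    · rw [Lv_const_mul P (s1 i) _ _ hp]
      refine mul_nonneg (hc i) ?_
      simpa only [mul_one] using
        (sq_norm (hf i)).Lv_log (ξ := ξ) (Real.exp_pos (-R * T)) zero_le_one hp
    · simpa only [mul_one, Nat.cast_one, one_mul] using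
        hr.Lv_log (ξ := ξ) (Real.exp_pos (-μ0 * T)) zero_le_one hp
  have h1 := Lv_split P (ξ := ξ) s6 l (m - l) hp
  rw [add_sub_cancel] at h1
  have h2 := mul_le_mul_of_nonneg_right hl' (Lv_fs_nonneg P (ξ := ξ) hp)
  linarith

variable [T2Space X] [CompactSpace X] [ConnectedSpace X] [MeasurableSpace X] [BorelSpace X]

theorem fin (M : Model n X) (P : Pol M.toAtl) (x : X) (i0 : Fin P.N) (hx : P.s i0 x ≠ 0)
    (m : ℕ) (hm : n + 1 ≤ m) {I : Type} [Fintype I] (j : I → ℕ) (f : I → X → ℂ)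
    (hf : ∀ i, f i ∈ M.H0 (P.u ^ (j i * P.k0))) (c a : I → ℝ) (hc : ∀ i, 0 ≤ c i)
    (ha : ∀ i, 0 ≤ a i) (hdeg : P.k0 * ∑ i, c i * j i ≤ n + 1 / 2) (b μ0 : ℝ) (hμ : 0 < μ0)
    (hgood : Good M.μ.toOuterMeasure (P.r x i0)
      (fun o : Option I => o.elim (fun p => (P.r x i0 p : ℂ)) f)
      (fun o => o.elim (Real.exp (-μ0)) fun i => Real.exp (-a i)) b)
    (hb : b ≤ ∑ i, c i * a i)
    (hlc : ∀ (a' : I → ℝ) (β : ℝ), (∀ i, 0 ≤ a' i) →
      Good M.μ.toOuterMeasure (P.r x i0) f (fun i => Real.exp (-a' i)) β → ∑ i, c i * a' i ≤ β) :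
    ∃ h ∈ M.H0 (M.k * P.u ^ m), h x ≠ 0 := by
  by_contra hcon
  have hz : ∀ h ∈ M.H0 (M.k * (P.u ^ m * M.k⁻¹ ^ 0)), h x = 0 := by
    intro h hh
    rw [pow_zero, mul_one] at hh
    by_contra h0
    exact hcon ⟨h, hh, h0⟩
  have hk : (0 : ℝ) < P.k0 := by exact_mod_cast P.k0_pos
  have hk1 : (1 : ℝ) ≤ P.k0 := by exact_mod_cast P.k0_pos
  have hcurv := finB_curv P x i0 hm hf hc hdeg
  obtain ⟨ε, hε⟩ : ∃ ε : ℝ, ε = 1 / (4 * P.k0) := ⟨_, rfl⟩
  rw [← hε] at hcurv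
  have hε0 : 0 < ε := by rw [hε]; positivity
  have hε1 : ε ≤ 1 / 4 := by rw [hε]; gcongr; linarith
  have hs0 : 0 ≤ ∑ i, c i := Finset.sum_nonneg fun i _ => hc i
  have hR0 : 0 ≤ ∑ i, a i := Finset.sum_nonneg fun i _ => ha i
  have hR : ∀ i, a i ≤ ∑ i, a i := fun i =>
    Finset.single_le_sum (fun i _ => ha i) (Finset.mem_univ i)
  obtain ⟨R, hR0, hR⟩ : ∃ R : ℝ, 0 ≤ R ∧ ∀ i, a i ≤ R := ⟨_, hR0, hR⟩
  obtain ⟨δ, hδ0, hδ⟩ : ∃ δ : ℝ, 0 < δ ∧ (2 * ∑ i, c i + ε + 2) * δ < ε * μ0 := by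
    refine ⟨ε * μ0 / (2 * (2 * ∑ i, c i + ε + 2)), by positivity, ?_⟩
    have : (2 * ∑ i, c i + ε + 2) * (ε * μ0 / (2 * (2 * ∑ i, c i + ε + 2))) = ε * μ0 / 2 := by
      field_simp
    rw [this]
    have := mul_pos hε0 hμ
    linarith
  have hsd : 0 ≤ (∑ i, c i) * δ := by positivity
  have hεd : 0 ≤ ε * δ := by positivity
  have hεμ : ε * μ0 ≤ 1 / 4 * μ0 := mul_le_mul_of_nonneg_right hε1 hμ.le
  have hcf : ∀ i, Continuous fun p => ‖f i p‖ := fun i =>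
    Atl.continuous_norm_of_mem (P.gauge.pow _) (Atl.H0_le_Sec (hf i))
  have hcr : Continuous (P.r x i0) := P.continuous_r x i0
  obtain ⟨B, hB⟩ : ∃ B : ℝ, ∀ i p, ‖f i p‖ ≤ B := by
    choose C hC0 hC using fun i => Atl.exists_bound (P.gauge.pow _) (Atl.H0_le_Sec (hf i))
    exact ⟨∑ i, C i, fun i p =>
      (hC i p).trans (Finset.single_le_sum (fun i _ => hC0 i) (Finset.mem_univ i))⟩
  obtain ⟨Br, hBr⟩ : ∃ B : ℝ, ∀ p, P.r x i0 p ≤ B := by
    obtain ⟨B, hB⟩ := (isCompact_range hcr).bddAbove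
    exact ⟨B, fun p => hB ⟨p, rfl⟩⟩
  obtain ⟨δ0, hδ00, T0, N0, hN0, hgrid⟩ :=
    grid M.μ hcr.measurable (fun i => (hcf i).measurable) hB hc hlc hR0 hδ0
  obtain ⟨δ1, hδ1, C, hC, hcrit⟩ := crit M P m 0 hx hz hδ00 (l := 1 / 4) (by norm_num)
  obtain ⟨Ψ0, hΨ⟩ : ∃ Ψ0 : ℝ, ∀ T, 0 ≤ T → ∀ p, finW c f R ε μ0 (P.r x i0) T p ≤ Ψ0 :=
    ⟨∑ i, c i * Real.log (1 + B ^ 2) + ε * Real.log (1 + Br ^ 2), fun T hT p =>
      add_le_add (Finset.sum_le_sum fun i _ =>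
        mul_le_mul_of_nonneg_left (finB_top hR0 hT (norm_nonneg _) (hB i p)) (hc i))
        (mul_le_mul_of_nonneg_left (finB_top hμ.le hT (P.r_nonneg x i0 p) (hBr p)) hε0.le)⟩
  obtain ⟨K, hK⟩ : ∃ K : ℝ, K = Real.exp (-(ε * Real.log (δ1 ^ 2))) := ⟨_, rfl⟩
  have hK0 : 0 < K := hK ▸ Real.exp_pos _
  obtain ⟨T1, hT1⟩ := eventually_atTop.1 ((eventually_ge_atTop T0).and
    ((finB_small (μ := μ0) (σ := (∑ i, c i + 1) * δ) (K := Real.exp Ψ0 * (K * N0))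
      (by positivity) (by linarith) (by positivity) hC).and
    (finB_large (κ := ε * μ0 - (2 * ∑ i, c i + ε + 2) * δ) (by linarith)
      (C * (K * N0) * Real.exp ((∑ i, c i + ε) * Real.log 2)))))
  obtain ⟨d, hd0, hd1, hd2⟩ : ∃ d : ℝ, 0 < d ∧ d ≤ δ * Real.exp (-(R + μ0)) ∧ T1 ≤ 1 / d := by
    refine ⟨min (δ * Real.exp (-(R + μ0))) (1 / (|T1| + 1)), by positivity, min_le_left _ _, ?_⟩
    refine le_trans ?_ (one_div_le_one_div_of_le (by positivity) (min_le_right _ _))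
    rw [one_div_one_div]
    linarith [le_abs_self T1]
  obtain ⟨T, hTd, hS⟩ := hgood d hd0
  obtain ⟨hT0, hsm, hbig⟩ := hT1 T (hd2.trans hTd)
  have hT : 0 ≤ T := le_trans (by positivity) hTd
  obtain ⟨s4, s6, hLv⟩ := hcurv R μ0 T
  have hint : ∀ {ψ : X → ℝ}, M.Sm ψ → Integrable (fun p => Real.exp (-ψ p)) M.μ := fun h =>
    (Real.continuous_exp.comp h.continuous.neg).integrable_of_hasCompactSupport
      (HasCompactSupport.of_compactSpace _)
  have hE : ∫ p in {p | δ1 ≤ P.r x i0 p ∧ P.r x i0 p < δ0},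
      Real.exp (-finW c f R ε μ0 (P.r x i0) T p) ∂M.μ ≤
      K * N0 * Real.exp ((∑ i, c i + 1) * δ * T) := by
    refine (finB_up M.μ (hint s6) (hint s4) (fun p => (Real.exp_pos _).le)
      (A := {p | P.r x i0 p < δ0})
      ((measurableSet_le measurable_const hcr.measurable).inter
        (measurableSet_lt hcr.measurable measurable_const)) (fun p hp => hp.2) hK0.le
      fun p hp => ?_).trans ?_
    · rw [hK, ← Real.exp_add, Real.exp_le_exp, finW]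
      have h1 : δ1 ^ 2 ≤ P.r x i0 p ^ 2 := pow_le_pow_left₀ hδ1.le hp.1 2
      have h2 : Real.log (δ1 ^ 2) ≤ Real.log (Real.exp (-μ0 * T) + P.r x i0 p ^ 2) :=
        Real.log_le_log (by positivity) (by linarith [Real.exp_pos (-μ0 * T)])
      have h3 := mul_le_mul_of_nonneg_left h2 hε0.le
      linarith
    · rw [mul_assoc]
      exact mul_le_mul_of_nonneg_left (hgrid T hT0) hK0.le
  have hup := hcrit _ s6 (fun a p hp ξ => by
    rw [pow_zero, mul_one, wt_pow]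
    exact hLv a p hp ξ) Ψ0 _ (Real.exp (-(μ0 / 4) * T)) (hΨ T hT) hE (Real.exp_pos _)
    (by rw [← mul_assoc]; exact hsm)
  have hdm : ∀ t, t ≤ R + μ0 → d ≤ δ * Real.exp (-t) := fun t ht =>
    hd1.trans (mul_le_mul_of_nonneg_left (Real.exp_le_exp.2 (by linarith)) hδ0.le)
  have hdδ : d ≤ δ := by simpa using hdm 0 (by linarith)
  have hlow := finB_low M.μ (hint s6) (fun p => (Real.exp_pos _).le)
    (A := {p | P.r x i0 p ≤ Real.exp (-(μ0 / 4) * T)})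
    (measurableSet_le hcr.measurable measurable_const)
    (e := Real.exp (-((∑ i, c i + ε) * Real.log 2 +
      (-∑ i, c i * a i + (∑ i, c i) * δ + ε * (-μ0 + δ)) * T))) (Real.exp_pos _).le hS
    fun p hp => by
      have h1 : P.r x i0 p ^ 2 ≤ (Real.exp (-μ0) + d) ^ T := by
        simpa [abs_of_nonneg (P.r_nonneg x i0 p)] using hp.2 none
      obtain ⟨h2, h3⟩ := finB_log (le_refl μ0) hδ0.le hd0.le (hdm μ0 (by linarith)) hT
        (sq_nonneg _) h1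
      have h4 : ∀ i, Real.log (Real.exp (-R * T) + ‖f i p‖ ^ 2) ≤
          Real.log 2 + (-a i + δ) * T := fun i =>
        (finB_log (hR i) hδ0.le hd0.le (hdm (a i) (by linarith [hR i])) hT (sq_nonneg _)
          (hp.2 (some i))).2
      refine ⟨(sq_le_sq₀ (P.r_nonneg x i0 p) (Real.exp_pos _).le).1 (h2.trans ?_), ?_⟩
      · rw [sq, ← Real.exp_add, Real.exp_le_exp, ← add_mul]
        exact mul_le_mul_of_nonneg_right (by linarith) hT
      · rw [Real.exp_le_exp, neg_le_neg_iff, finW]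
        have h5 := Finset.sum_le_sum fun i (_ : i ∈ Finset.univ) =>
          mul_le_mul_of_nonneg_left (h4 i) (hc i)
        have h6 : ∑ i, c i * (Real.log 2 + (-a i + δ) * T) = (∑ i, c i) * Real.log 2 +
            (-∑ i, c i * a i + (∑ i, c i) * δ) * T := by
          simp only [Finset.sum_mul, add_mul, ← Finset.sum_neg_distrib, ← Finset.sum_add_distrib]
          exact Finset.sum_congr rfl fun i _ => by ring
        have h7 := mul_le_mul_of_nonneg_left h3 hε0.le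
        linarith
  have hfin := hlow.trans hup
  rw [← Real.exp_add, ← mul_assoc, ← div_le_iff₀ (Real.exp_pos _), ← Real.exp_sub] at hfin
  rw [← lt_div_iff₀ (Real.exp_pos _), ← Real.exp_sub] at hbig
  have h1 := Real.exp_lt_exp.1 (hfin.trans_lt hbig)
  have h2 := mul_le_mul_of_nonneg_right hb hT
  have h3 := mul_le_mul_of_nonneg_right hdδ hT
  linarith

end Vale.Agent.P271A
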