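import Vale.Agent.P271A.Part
import Vale.Agent.P271A.Moll

/-! P271A: the Friedrichs lemma on a Riemann domain. -/

open MeasureTheory Filter Topology Set Complex
open scoped ContDiff ENNReal ComplexConjugate

namespace Vale.Agent.P271A

variable {n : ℕ} {Y : Type} [TopologicalSpace Y] [T2Space Y] [SecondCountableTopology Y]
  [MeasurableSpace Y] [BorelSpace Y] {D : RD n Y}

namespace RD

omit [T2Space Y] [SecondCountableTopology Y] [BorelSpace Y] in
theorem fried_push_mul (y : Y) (f : Y → ℂ) (G : E n → ℂ) (z : E n) :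
    D.push y f z * G z = D.push y (fun p => f p * G (D.pr p)) z := by
  unfold push
  split_ifs with hz
  · simp only [D.pr_sec hz]
  · exact zero_mul _

theorem fried_norm {y : Y} {G : E n → ℂ} {f g : Y → ℂ}
    (hG : ∀ z, z ∉ (D.ch y).target → G z = 0) (hf : ∀ p, p ∉ (D.ch y).source → f p = 0)
    (hg : ∀ p, g p = D.pull y G p) :
    eLpNorm (fun p => g p - f p) 2 D.μ = eLpNorm (fun z => G z - D.push y f z) 2 volume := by
  rw [← eLpNorm_push (y := y) (f := fun p => g p - f p)]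
  · congr 1
    funext z
    unfold push
    split_ifs with hz
    · simp only [hg]
      unfold pull
      rw [if_pos (D.sec_mem hz), D.pr_sec hz]
    · rw [hG z hz, sub_zero]
  · intro p hp
    rw [hg, hf p hp]
    unfold pull
    rw [if_neg hp, sub_zero]

theorem fried_loc {ι κ : Type} [Fintype ι] [Fintype κ] (ξ : κ → ι → E n × E n) {u : ι → Y → ℂ}
    {w : κ → Y → ℂ} (hu : ∀ i, D.L2loc (u i)) (hw : ∀ k, D.L2loc (w k))
    (hwd : ∀ k, D.WD (ξ k) u (w k)) {χ : Y → ℂ} (hχ : D.Test χ) {y₀ : Y}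
    (hs : tsupport χ ⊆ (D.ch y₀).source) :
    ∃ K, IsCompact K ∧ tsupport χ ⊆ K ∧ ∀ ε : ℝ≥0∞, 0 < ε → ∃ u' : ι → Y → ℂ,
      (∀ i, D.Test (u' i) ∧ tsupport (u' i) ⊆ K) ∧
      (∀ i, eLpNorm (fun y => u' i y - χ y * u i y) 2 D.μ ≤ ε) ∧
      ∀ k, eLpNorm (fun y => ∑ i, D.dX (ξ k i) (u' i) y -
        (χ y * w k y + ∑ i, D.dX (ξ k i) χ y * u i y)) 2 D.μ ≤ ε := by
  have hK0 : IsCompact (D.pr '' tsupport χ) := IsCompact.image hχ.2 D.continuous_pr
  have hK0t : D.pr '' tsupport χ ⊆ (D.ch y₀).target := by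
    rintro _ ⟨p, hp, rfl⟩
    exact D.pr_mem (hs hp)
  obtain ⟨δ, hδ, hδt⟩ := hK0.exists_cthickening_subset_open (D.ch y₀).open_target hK0t
  have hK1 : IsCompact (Metric.cthickening δ (D.pr '' tsupport χ)) := hK0.cthickening
  refine ⟨D.sec y₀ '' Metric.cthickening δ (D.pr '' tsupport χ),
    hK1.image_of_continuousOn ((D.ch y₀).continuousOn_symm.mono hδt), fun p hp =>
      ⟨D.pr p, Metric.self_subset_cthickening _ (mem_image_of_mem _ hp), D.sec_pr (hs hp)⟩,
    fun ε hε => ?_⟩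
  have z1 : ∀ p, p ∉ (D.ch y₀).source → χ p = 0 := fun p hp =>
    image_eq_zero_of_notMem_tsupport fun h => hp (hs h)
  have z2 : ∀ (ζ : E n × E n) p, p ∉ (D.ch y₀).source → D.dX ζ χ p = 0 := fun ζ p hp =>
    dX_of_notMem fun h => hp (hs h)
  have v1 : ∀ i p, p ∉ (D.ch y₀).source → χ p * u i p = 0 := fun i p hp => by
    rw [z1 p hp, zero_mul]
  have v2 : ∀ k p, p ∉ (D.ch y₀).source →
      χ p * w k p + ∑ i, D.dX (ξ k i) χ p * u i p = 0 := fun k p hp => by
    simp [z1 p hp, z2 _ p hp]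
  have m1 : ∀ i, MemLp (D.push y₀ fun p => χ p * u i p) 2 volume := fun i =>
    memLp_push (v1 i) ((hu i).memLp_mul hχ.continuous hχ.2)
  have m2 : ∀ k, MemLp (D.push y₀ fun p => χ p * w k p + ∑ i, D.dX (ξ k i) χ p * u i p) 2
      volume := fun k =>
    memLp_push (v2 k) (((hw k).memLp_mul hχ.continuous hχ.2).add (memLp_finsetSum _ fun i _ =>
      (hu i).memLp_mul (hχ.dX _).continuous (hχ.dX _).2))
  have m3 : ∀ i z, z ∉ D.pr '' tsupport χ → D.push y₀ (fun p => χ p * u i p) z = 0 := by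
    intro i z hz
    unfold push
    split_ifs with hzt
    · have : χ (D.sec y₀ z) = 0 :=
        image_eq_zero_of_notMem_tsupport fun h => hz ⟨_, h, D.pr_sec hzt⟩
      simp only [this, zero_mul]
    · rfl
  have m4 : ∀ k (t : E n → ℂ), ContDiff ℝ ∞ t → HasCompactSupport t →
      ∑ i, ∫ z, D.push y₀ (fun p => χ p * u i p) z * eX (ξ k i) t z =
        -∫ z, D.push y₀ (fun p => χ p * w k p + ∑ i, D.dX (ξ k i) χ p * u i p) z * t z := by
    intro k t ht _
    have s1 : D.Sm fun p => t (D.pr p) := sm_pr fun _ => ht.contDiffAt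
    have s2 : ∀ i, D.Sm fun p => eX (ξ k i) t (D.pr p) := fun i =>
      sm_pr fun _ => (contDiff_eX ht).contDiffAt
    have t0 : D.Test fun p => χ p * t (D.pr p) := hχ.mul s1
    have t1 : ∀ i, D.Test fun p => D.dX (ξ k i) χ p * t (D.pr p) := fun i => (hχ.dX _).mul s1
    have t2 : ∀ i, D.Test fun p => χ p * eX (ξ k i) t (D.pr p) := fun i => hχ.mul (s2 i)
    have i0 := (hw k).integrable_mul t0.continuous t0.2
    have i1 := fun i => (hu i).integrable_mul (t1 i).continuous (t1 i).2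
    have i2 := fun i => (hu i).integrable_mul (t2 i).continuous (t2 i).2
    have e0 := hwd k _ t0
    have e1 : ∀ i, ∫ p, u i p * D.dX (ξ k i) (fun p => χ p * t (D.pr p)) p ∂D.μ =
        ∫ p, u i p * (D.dX (ξ k i) χ p * t (D.pr p)) ∂D.μ +
          ∫ p, u i p * (χ p * eX (ξ k i) t (D.pr p)) ∂D.μ := by
      intro i
      rw [← integral_add (i1 i) (i2 i)]
      refine integral_congr_ae (Eventually.of_forall fun p => ?_)
      have : D.dX (ξ k i) (fun p => t (D.pr p)) p = eX (ξ k i) t (D.pr p) :=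
        dX_rep EventuallyEq.rfl
      simp only
      rw [dX_mul hχ.1 s1, this]
      ring
    have e2 : ∀ i, ∫ z, D.push y₀ (fun p => χ p * u i p) z * eX (ξ k i) t z =
        ∫ p, u i p * (χ p * eX (ξ k i) t (D.pr p)) ∂D.μ := by
      intro i
      simp only [fried_push_mul]
      rw [integral_push fun p hp => by rw [v1 i p hp, zero_mul]]
      exact integral_congr_ae (Eventually.of_forall fun p => by ring)
    have e3 : ∫ z, D.push y₀ (fun p => χ p * w k p + ∑ i, D.dX (ξ k i) χ p * u i p) z * t z =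
        ∫ p, w k p * (χ p * t (D.pr p)) ∂D.μ +
          ∑ i, ∫ p, u i p * (D.dX (ξ k i) χ p * t (D.pr p)) ∂D.μ := by
      simp only [fried_push_mul]
      rw [integral_push fun p hp => by rw [v2 k p hp, zero_mul],
        ← integral_finsetSum _ fun i _ => i1 i,
        ← integral_add i0 (integrable_finsetSum _ fun i _ => i1 i)]
      refine integral_congr_ae (Eventually.of_forall fun p => ?_)
      simp only
      rw [add_mul, Finset.sum_mul]
      congr 1
      · ring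
      · exact Finset.sum_congr rfl fun i _ => by ring
    simp only [e1, Finset.sum_add_distrib] at e0
    simp only [e2]
    rw [e3]
    linear_combination e0
  obtain ⟨U, hU1, hU2, hU3⟩ := moll ξ m1 m2 m3 m4 hδ hε
  have c1 : ∀ i, HasCompactSupport (U i) := fun i =>
    hK1.of_isClosed_subset (isClosed_tsupport _) (hU1 i).2
  have c2 : ∀ i, tsupport (U i) ⊆ (D.ch y₀).target := fun i => (hU1 i).2.trans hδt
  refine ⟨fun i => D.pull y₀ (U i), fun i => ?_, fun i => ?_, fun k => ?_⟩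
  · have := pull_test (hU1 i).1 (c1 i) (c2 i)
    exact ⟨this.1, this.2.trans (image_mono (hU1 i).2)⟩
  · rw [fried_norm (G := U i) (fun z hz => image_eq_zero_of_notMem_tsupport fun h => hz (c2 i h))
      (v1 i) fun _ => rfl]
    exact hU2 i
  · rw [fried_norm (G := fun z => ∑ i, eX (ξ k i) (U i) z) ?_ (v2 k) ?_]
    · exact hU3 k
    · intro z hz
      refine Finset.sum_eq_zero fun i _ => ?_
      rw [eX_congr (notMem_tsupport_iff_eventuallyEq.1 fun h => hz (c2 i h))]
      exact eX_const _ 0 z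
    · intro p
      simp only [fun i => dX_pull (ξ := ξ k i) (hU1 i).1 (c1 i) (c2 i)]
      unfold pull
      split_ifs
      · rfl
      · simp

theorem fried {ι κ : Type} [Fintype ι] [Fintype κ] (ξ : κ → ι → E n × E n) {u : ι → Y → ℂ}
    {w : κ → Y → ℂ} (hu : ∀ i, D.L2loc (u i)) (hw : ∀ k, D.L2loc (w k))
    (hwd : ∀ k, D.WD (ξ k) u (w k)) {χ : Y → ℂ} (hχ : D.Test χ) :
    ∃ K, IsCompact K ∧ tsupport χ ⊆ K ∧ ∀ ε : ℝ≥0∞, 0 < ε → ∃ u' : ι → Y → ℂ,
      (∀ i, D.Test (u' i) ∧ tsupport (u' i) ⊆ K) ∧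
      (∀ i, eLpNorm (fun y => u' i y - χ y * u i y) 2 D.μ ≤ ε) ∧
      ∀ k, eLpNorm (fun y => ∑ i, D.dX (ξ k i) (u' i) y -
        (χ y * w k y + ∑ i, D.dX (ξ k i) χ y * u i y)) 2 D.μ ≤ ε := by
  refine test_induction (P := fun χ => ∃ K, IsCompact K ∧ tsupport χ ⊆ K ∧
    ∀ ε : ℝ≥0∞, 0 < ε → ∃ u' : ι → Y → ℂ, (∀ i, D.Test (u' i) ∧ tsupport (u' i) ⊆ K) ∧
      (∀ i, eLpNorm (fun y => u' i y - χ y * u i y) 2 D.μ ≤ ε) ∧
      ∀ k, eLpNorm (fun y => ∑ i, D.dX (ξ k i) (u' i) y -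
        (χ y * w k y + ∑ i, D.dX (ξ k i) χ y * u i y)) 2 D.μ ≤ ε) ?_ ?_
    (fun f y hf hs => fried_loc ξ hu hw hwd hf hs) hχ
  · have h0 : tsupport (fun _ : Y => (0 : ℂ)) ⊆ ∅ := by
      simp [tsupport]
    refine ⟨∅, isCompact_empty, h0, fun ε _ => ⟨fun _ _ => 0, fun _ => ⟨test_zero, h0⟩,
      fun i => ?_, fun k => ?_⟩⟩
    · simp
    · simp [dX_const]
  · rintro f g hf hg ⟨K1, hK1, s1, h1⟩ ⟨K2, hK2, s2, h2⟩
    refine ⟨K1 ∪ K2, hK1.union hK2, (tsupport_add f g).trans (union_subset_union s1 s2),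
      fun ε hε => ?_⟩
    have hε' : 0 < ε / 2 := ENNReal.half_pos hε.ne'
    obtain ⟨u1, a1, b1, c1⟩ := h1 _ hε'
    obtain ⟨u2, a2, b2, c2⟩ := h2 _ hε'
    have m1 : ∀ {v χ : Y → ℂ}, D.Test v → D.Test χ → ∀ i,
        AEStronglyMeasurable (fun y => v y - χ y * u i y) D.μ := fun hv hχ i =>
      hv.continuous.aestronglyMeasurable.sub (hχ.continuous.aestronglyMeasurable.mul (hu i).1)
    have m2 : ∀ {v : ι → Y → ℂ} {χ : Y → ℂ}, (∀ i, D.Test (v i)) → D.Test χ → ∀ k,
        AEStronglyMeasurable (fun y => ∑ i, D.dX (ξ k i) (v i) y -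
          (χ y * w k y + ∑ i, D.dX (ξ k i) χ y * u i y)) D.μ := fun hv hχ k =>
      (Test.sum _ fun i _ => (hv i).dX (ξ k i)).continuous.aestronglyMeasurable.sub
        (((hw k).cont_mul hχ.continuous).add
          (L2loc.sum _ fun i _ => (hu i).cont_mul (hχ.dX (ξ k i)).continuous)).1
    refine ⟨fun i y => u1 i y + u2 i y, fun i => ⟨(a1 i).1.add (a2 i).1,
      (tsupport_add (u1 i) (u2 i)).trans (union_subset_union (a1 i).2 (a2 i).2)⟩,
      fun i => ?_, fun k => ?_⟩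
    · have e : (fun y => u1 i y + u2 i y - (f y + g y) * u i y) =
          (fun y => u1 i y - f y * u i y) + fun y => u2 i y - g y * u i y := by
        funext y
        simp only [Pi.add_apply]
        ring
      rw [e, ← ENNReal.add_halves ε]
      exact (eLpNorm_add_le (m1 (a1 i).1 hf i) (m1 (a2 i).1 hg i) (by norm_num)).trans
        (add_le_add (b1 i) (b2 i))
    · have e : (fun y => ∑ i, D.dX (ξ k i) (fun y => u1 i y + u2 i y) y -
          ((f y + g y) * w k y + ∑ i, D.dX (ξ k i) (fun p => f p + g p) y * u i y)) =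
          (fun y => ∑ i, D.dX (ξ k i) (u1 i) y -
            (f y * w k y + ∑ i, D.dX (ξ k i) f y * u i y)) +
          fun y => ∑ i, D.dX (ξ k i) (u2 i) y -
            (g y * w k y + ∑ i, D.dX (ξ k i) g y * u i y) := by
        funext y
        simp only [Pi.add_apply, fun i => dX_add (ξ := ξ k i) (a1 i).1.1 (a2 i).1.1 y,
          dX_add hf.1 hg.1, add_mul, Finset.sum_add_distrib]
        ring
      rw [e, ← ENNReal.add_halves ε]
      exact (eLpNorm_add_le (m2 (fun i => (a1 i).1) hf k) (m2 (fun i => (a2 i).1) hg k)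
        (by norm_num)).trans (add_le_add (c1 k) (c2 k))

end RD

end Vale.Agent.P271A
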