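import Vale.Agent.P271A.Part
import Vale.Agent.P271A.Mean
import Vale.Agent.P271A.Levi

/-! P271A: the Weyl lemma and removable singularities. -/

open MeasureTheory Filter Topology Set Complex
open scoped ContDiff ENNReal ComplexConjugate

namespace Vale.Agent.P271A

variable {n : ℕ} {Y : Type} [TopologicalSpace Y] [T2Space Y] [SecondCountableTopology Y]
  [MeasurableSpace Y] [BorelSpace Y] {D : RD n Y}

theorem wy_eX_notMem {ξ : E n × E n} {t : E n → ℂ} {z : E n} (hz : z ∉ tsupport t) :
    eX ξ t z = 0 := by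
  rw [eX_congr (notMem_tsupport_iff_eventuallyEq.1 hz)]
  exact eX_const ξ 0 z

theorem wy_deriv_bound : ∃ B : ℝ, ∀ x, |deriv Real.smoothTransition x| ≤ B := by
  have hc : Continuous (deriv Real.smoothTransition) :=
    (Real.smoothTransition.contDiff (n := 1)).continuous_deriv le_rfl
  obtain ⟨B, hB⟩ := (isCompact_Icc (a := (0 : ℝ)) (b := 1)).exists_bound_of_continuousOn
    hc.continuousOn
  have h0 : 0 ≤ B := (norm_nonneg _).trans (hB 0 ⟨le_rfl, zero_le_one⟩)
  refine ⟨B, fun x => ?_⟩
  rcases lt_or_ge x 0 with h | h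
  · have : Real.smoothTransition =ᶠ[𝓝 x] fun _ => 0 :=
      (eventually_lt_nhds h).mono fun y hy => Real.smoothTransition.zero_of_nonpos hy.le
    rw [this.deriv_eq]; simpa using h0
  rcases lt_or_ge 1 x with h' | h'
  · have : Real.smoothTransition =ᶠ[𝓝 x] fun _ => 1 :=
      (eventually_gt_nhds h').mono fun y hy => Real.smoothTransition.one_of_one_le hy.le
    rw [this.deriv_eq]; simpa using h0
  exact hB x ⟨h, h'⟩

theorem wy_exp_le {x L : ℝ} (hx : 0 < x) (hL : 1 ≤ L) :
    Real.exp (L⁻¹ * Real.log x) ≤ 1 + x := by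
  have h1 : 0 < L⁻¹ := inv_pos.2 (by linarith)
  have h2 : L⁻¹ ≤ 1 := inv_le_one_of_one_le₀ hL
  rcases le_total (Real.log x) 0 with h | h
  · have : Real.exp (L⁻¹ * Real.log x) ≤ 1 :=
      Real.exp_le_one_iff.2 (mul_nonpos_of_nonneg_of_nonpos h1.le h)
    linarith
  · have : Real.exp (L⁻¹ * Real.log x) ≤ Real.exp (Real.log x) :=
      Real.exp_le_exp.2 (mul_le_of_le_one_left h h2)
    rw [Real.exp_log hx] at this
    linarith

namespace RD

omit [T2Space Y] [SecondCountableTopology Y] [BorelSpace Y] in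
theorem wy_cont {h : Y → ℂ} {y : Y} (hh : DifferentiableAt ℂ (h ∘ D.sec y) (D.pr y)) :
    ContinuousAt h y :=
  (hh.continuousAt.comp D.continuous_pr.continuousAt).congr (D.rep_sec h y).symm

omit [T2Space Y] [SecondCountableTopology Y] [BorelSpace Y] in
theorem wy_at_sec {h : Y → ℂ} {y : Y} {z : E n} (hz : z ∈ (D.ch y).target)
    (hh : DifferentiableAt ℂ (h ∘ D.sec (D.sec y z)) (D.pr (D.sec y z))) :
    DifferentiableAt ℂ (h ∘ D.sec y) z := by
  have := hh.congr_of_eventuallyEq (RD.rep (D.rep_sec' h (D.sec_mem hz))).symm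
  rwa [D.pr_sec hz] at this

theorem wy_loc {u : Y → ℂ} (hu : D.L2loc u)
    (h : ∀ j t, D.Test t → ∫ y, u y * D.db j t y ∂D.μ = 0) (y : Y) :
    ∃ (V : Set Y) (G : Y → ℂ), IsOpen V ∧ y ∈ V ∧
      (∀ p ∈ V, DifferentiableAt ℂ (G ∘ D.sec p) (D.pr p)) ∧ ∀ᵐ p ∂D.μ, p ∈ V → u p = G p := by
  obtain ⟨r, hr, hrt⟩ := Metric.nhds_basis_closedBall.mem_iff.1 (D.target_nhds y)
  have hK : IsCompact (D.sec y '' Metric.closedBall (D.pr y) r) :=
    (isCompact_closedBall _ _).image_of_continuousOn ((D.ch y).continuousOn_symm.mono hrt)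
  obtain ⟨χ, hχ, -, hχ1, hχs⟩ := D.exists_cutoff hK (D.ch y).open_source (by
    rintro _ ⟨z, hz, rfl⟩
    exact D.sec_mem (hrt hz))
  have hone : ∀ z ∈ Metric.closedBall (D.pr y) r, χ (D.sec y z) = 1 := fun z hz =>
    (hχ1 _ ⟨z, hz, rfl⟩).eq_of_nhds
  have hL : MemLp (D.push y fun p => (χ p : ℂ) * u p) 2 volume := by
    refine memLp_push (fun p hp => ?_) (hu.memLp_mul hχ.continuous hχ.2)
    have : χ p = 0 := image_eq_zero_of_notMem_tsupport fun h' => hp (hχs h')
    simp [this]
  obtain ⟨H, hH, hae⟩ := weyl_loc hL (c := D.pr y) hr fun j t ht hc hs => by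
    have hst : tsupport t ⊆ (D.ch y).target := hs.trans (Metric.ball_subset_closedBall.trans hrt)
    have h1 := h j _ (pull_test ht hc hst).1
    rw [RD.db, dX_pull ht hc hst, ← integral_push (y := y) (fun p hp => by simp [pull, hp])] at h1
    rw [← h1]
    refine integral_congr_ae (Eventually.of_forall fun z => ?_)
    by_cases hz : z ∈ (D.ch y).target
    · simp only [push, pull, hz, D.sec_mem hz, if_true, D.pr_sec hz]
      by_cases hz' : z ∈ tsupport t
      · rw [hone z (Metric.ball_subset_closedBall (hs hz'))]; simp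
      · rw [wy_eX_notMem hz']; simp
    · simp [push, hz]
  refine ⟨(D.ch y).source ∩ D.pr ⁻¹' Metric.ball (D.pr y) (r / 4), H ∘ D.pr,
    (D.ch y).open_source.inter (Metric.isOpen_ball.preimage D.continuous_pr),
    ⟨D.mem_ch y, Metric.mem_ball_self (by positivity)⟩, fun p hp => ?_, ?_⟩
  · exact (hH.differentiableAt (Metric.isOpen_ball.mem_nhds hp.2)).congr_of_eventuallyEq
      (RD.rep EventuallyEq.rfl)
  · have h2 := (ae_chart (D.ch y) (D.ch_eqOn y)
      fun p => D.pr p ∈ Metric.ball (D.pr y) (r / 4) → u p = H (D.pr p)).2 (by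
        rw [ae_restrict_iff' (D.ch y).open_target.measurableSet]
        filter_upwards [hae] with z hz hzt
        change D.pr (D.sec y z) ∈ _ → u (D.sec y z) = H (D.pr (D.sec y z))
        rw [D.pr_sec hzt]
        intro hb
        have h3 := hz hb
        have h4 := hone z (Metric.ball_subset_closedBall
          (Metric.ball_subset_ball (by linarith) hb))
        simpa [push, hzt, h4] using h3)
    rw [ae_restrict_iff' (D.ch y).open_source.measurableSet] at h2
    filter_upwards [h2] with p hp hp'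
    exact hp hp'.1 hp'.2

theorem weyl {u : Y → ℂ} (hu : D.L2loc u)
    (h : ∀ j t, D.Test t → ∫ y, u y * D.db j t y ∂D.μ = 0) :
    ∃ H, D.Hol H ∧ u =ᵐ[D.μ] H := by
  choose V G hV hy hG hae using wy_loc hu h
  have hc : ∀ y, ContinuousOn (G y) (V y) := fun y p hp => (wy_cont (hG y p hp)).continuousWithinAt
  have key : ∀ y, ∀ p ∈ V y, G p p = G y p := fun y p hp => by
    have ho := (hV y).inter (hV p)
    refine Measure.eqOn_open_of_ae_eq (μ := D.μ) (U := V y ∩ V p) ?_ ho
      ((hc p).mono inter_subset_right) ((hc y).mono inter_subset_left) ⟨hp, hy p⟩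
    rw [EventuallyEq, ae_restrict_iff' ho.measurableSet]
    filter_upwards [hae y, hae p] with q h1 h2 hq
    rw [← h1 hq.1, ← h2 hq.2]
  refine ⟨fun p => G p p, fun y => ?_, ?_⟩
  · refine (hG y y (hy y)).congr_of_eventuallyEq ?_
    filter_upwards [(D.tendsto_sec y).eventually ((hV y).mem_nhds (hy y))] with z hz
    exact key y _ hz
  · refine measure_null_of_locally_null _ fun y _ =>
      ⟨{p | ¬(p ∈ V y → u p = G y p)}, ?_, hae y⟩
    filter_upwards [mem_nhdsWithin_of_mem_nhds ((hV y).mem_nhds (hy y)), self_mem_nhdsWithin]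
      with p hp hp' hq
    exact hp' (by simpa [key y p hp] using hq hp)

/-- A function which is holomorphic off the zero set kills the test functions vanishing near it. -/
theorem weak_off {f h t : Y → ℂ} (hf : D.Hol f)
    (hh : ∀ y, f y ≠ 0 → DifferentiableAt ℂ (h ∘ D.sec y) (D.pr y)) (ht : D.Test t)
    (hs : ∀ y ∈ tsupport t, f y ≠ 0) (j : Fin n) : ∫ y, h y * D.db j t y ∂D.μ = 0 := by
  have hU : IsOpen {y | f y ≠ 0} := isOpen_ne_fun hf.sm.continuous continuous_const
  obtain ⟨χ, hχ, -, hχ1, hχs⟩ := D.exists_cutoff ht.2.isCompact hU hs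
  have hg : D.Sm fun p => (χ p : ℂ) * h p := fun y => by
    by_cases hy : f y = 0
    · have h1 : χ =ᶠ[𝓝 y] 0 := notMem_tsupport_iff_eventuallyEq.1 fun h' => hχs h' hy
      refine (contDiffAt_const (c := (0 : ℂ))).congr_of_eventuallyEq ?_
      filter_upwards [(D.tendsto_sec y).eventually h1] with z hz
      simp [hz]
    · have h1 : ∀ᶠ z in 𝓝 (D.pr y), DifferentiableAt ℂ (h ∘ D.sec y) z := by
        filter_upwards [(D.tendsto_sec y).eventually (hU.mem_nhds hy), D.target_nhds y]
          with z hz hz'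
        exact wy_at_sec hz' (hh _ hz)
      exact (hχ.1 y).mul
        (((P278F.analyticAt_of_eventually h1).contDiffAt (n := ∞)).restrict_scalars ℝ)
  have h2 := ibp (ξ := bv j) hg ht
  have h3 : (fun p => D.dX (bv j) (fun p => (χ p : ℂ) * h p) p * t p) = fun _ => 0 := by
    funext p
    by_cases hp : p ∈ tsupport t
    · have : (fun p => (χ p : ℂ) * h p) =ᶠ[𝓝 p] h := (hχ1 p hp).mono fun q hq => by simp [hq]
      rw [dX_congr this, dX, eX_hol (hh p (hs p hp)), bv_hol, map_zero, zero_mul]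
    · rw [image_eq_zero_of_notMem_tsupport hp, mul_zero]
  have h4 : (fun p => (χ p : ℂ) * h p * D.dX (bv j) t p) = fun p => h p * D.db j t p := by
    funext p
    by_cases hp : p ∈ tsupport t
    · rw [(hχ1 p hp).eq_of_nhds, RD.db]; simp
    · rw [RD.db, dX_of_notMem hp]; simp
  rw [h3, h4, integral_zero] at h2
  exact neg_eq_zero.1 h2.symm

/-- The integral of the Levi form against the square of a test function. -/
theorem wy_levi_le {G S : Y → ℝ} {t : Y → ℂ} (hG : D.SmR G) (hS : Continuous S)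
    (h : ∀ y, |G y| ≤ S y) (ht : D.Test t) (j : Fin n) :
    Integrable (fun y => D.levi G y (Pi.single j 1) * ‖t y‖ ^ 2) D.μ ∧
    ∫ y, D.levi G y (Pi.single j 1) * ‖t y‖ ^ 2 ∂D.μ ≤
      ∫ y, S y * ‖D.db j (D.dz j fun p => t p * conj (t p)) y‖ ∂D.μ := by
  have hT : D.Test fun p => t p * conj (t p) := ht.mul ht.1.conj
  have hG' : D.Sm fun p => (G p : ℂ) := hG
  have hI := (((hG'.db j).dz j).mul_test hT).integrable
  have e : ∀ y, D.levi G y (Pi.single j 1) * ‖t y‖ ^ 2 =
      (D.dz j (D.db j fun p => (G p : ℂ)) y * (t y * conj (t y))).re := fun y => by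
    rw [levi_single, mul_conj', ← ofReal_pow, re_mul_ofReal]
  have h1 := ibp (ξ := zv j) (hG'.db j) hT
  have h2 := ibp (ξ := bv j) hG' (hT.dz j)
  simp only [e]
  refine ⟨hI.re, ?_⟩
  have h3 := integral_re hI
  simp only [RCLike.re_to_complex] at h3
  rw [h3]
  have h4 : ∫ y, D.dz j (D.db j fun p => (G p : ℂ)) y * (t y * conj (t y)) ∂D.μ =
      ∫ y, (G y : ℂ) * D.db j (D.dz j fun p => t p * conj (t p)) y ∂D.μ := by
    refine h1.trans ?_
    exact (congrArg Neg.neg h2).trans (neg_neg _)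
  rw [h4]
  refine (re_le_norm _).trans (norm_integral_le_of_norm_le ?_ (Eventually.of_forall fun y => ?_))
  · have hw := (hT.dz j).db j
    exact (hS.mul hw.continuous.norm).integrable_of_hasCompactSupport hw.2.norm.mul_left
  · rw [norm_mul, norm_real, Real.norm_eq_abs]
    exact mul_le_mul_of_nonneg_right (h y) (norm_nonneg _)

/-- Logarithmic cutoff functions along the zero set of a holomorphic function. -/
theorem exists_logcut {f t : Y → ℂ} (hf : D.Hol f) (ht : D.Test t) : ∃ (κ : ℕ → Y → ℂ) (C : ℝ),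
    (∀ k, D.Sm (κ k)) ∧ (∀ k y, ‖κ k y‖ ≤ 1) ∧ (∀ k, ∀ y ∈ tsupport (κ k), f y ≠ 0) ∧
    (∀ y, f y ≠ 0 → ∀ᶠ k in atTop, κ k =ᶠ[𝓝 y] fun _ => 1) ∧
    ∀ k j, ∫ y, ‖D.db j (κ k) y * t y‖ ^ 2 ∂D.μ ≤ C := by
  obtain ⟨B, hB⟩ := wy_deriv_bound
  obtain ⟨φ, hφ⟩ : ∃ φ : ℕ → Y → ℝ, φ = fun (k : ℕ) y =>
      ((k : ℝ) + 1)⁻¹ * Real.log (‖f y‖ ^ 2 + Real.exp (-2 * (k + 1))) := ⟨_, rfl⟩
  have hk : ∀ k : ℕ, (0 : ℝ) < k + 1 := fun k => by positivity
  have hpos : ∀ (k : ℕ) y, 0 < ‖f y‖ ^ 2 + Real.exp (-2 * (k + 1)) := fun k y => by positivity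
  have hlog : ∀ k : ℕ, D.SmR fun y => Real.log (‖f y‖ ^ 2 + Real.exp (-2 * (k + 1))) := fun k =>
    (hf.sm.normSq.add (smR_const _)).log fun y => (hpos k y).ne'
  have hsm : ∀ k, D.SmR (φ k) := fun k => by
    rw [hφ]; exact (smR_const _).mul (hlog k)
  have hlo : ∀ k y, -2 ≤ φ k y := fun k y => by
    have h1 : -2 * ((k : ℝ) + 1) ≤ Real.log (‖f y‖ ^ 2 + Real.exp (-2 * (k + 1))) := by
      rw [Real.le_log_iff_exp_le (hpos k y)]
      nlinarith [sq_nonneg ‖f y‖]
    rw [hφ]
    exact (le_inv_mul_iff₀ (hk k)).2 (by linarith)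
  have hlevi : ∀ k y v, 0 ≤ D.levi (φ k) y v := fun k y v => by
    have h1 := levi_log_sum_nonneg (D := D) (y := y) (v := v) ({0} : Finset ℕ)
      (F := fun _ => f) (fun _ _ => hf) (η := Real.exp (-2 * (k + 1))) (Real.exp_pos _).le
      (by simpa using hpos k)
    simp only [Finset.sum_singleton] at h1
    rw [hφ]
    beta_reduce
    rw [levi_const_mul (hlog k)]
    exact mul_nonneg (inv_pos.2 (hk k)).le h1
  have hσ : ∀ x : ℝ, HasDerivAt (fun s => Real.smoothTransition (2 * s + 3))
      (deriv Real.smoothTransition (2 * x + 3) * 2) x := fun x => by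
    have h1 : HasDerivAt (fun s : ℝ => 2 * s + 3) 2 x := by
      simpa using ((hasDerivAt_id x).const_mul 2).add_const 3
    exact (((Real.smoothTransition.contDiff (n := 1)).differentiable one_ne_zero
      (2 * x + 3)).hasDerivAt).comp x h1
  have hκ : ∀ k, D.Sm fun y => (Real.smoothTransition (2 * φ k y + 3) : ℂ) := fun k =>
    (hsm k).comp (χ := fun s => Real.smoothTransition (2 * s + 3)) fun y =>
      (Real.smoothTransition.contDiff.comp (by fun_prop)).contDiffAt
  have hS : Continuous fun y => 2 + ‖f y‖ ^ 2 := by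
    have := hf.sm.continuous
    fun_prop
  refine ⟨fun k y => (Real.smoothTransition (2 * φ k y + 3) : ℂ),
    4 * B ^ 2 * Real.exp 2 * ∑ j, ∫ y, (2 + ‖f y‖ ^ 2) *
      ‖D.db j (D.dz j fun p => t p * conj (t p)) y‖ ∂D.μ, hκ, fun k y => ?_, fun k => ?_,
    fun y hy => ?_, fun k j => ?_⟩
  · rw [norm_real, Real.norm_of_nonneg (Real.smoothTransition.nonneg _)]
    exact Real.smoothTransition.le_one _
  · have h1 : tsupport (fun y => (Real.smoothTransition (2 * φ k y + 3) : ℂ)) ⊆
        {y | -3 / 2 ≤ φ k y} := by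
      refine closure_minimal (fun y hy => ?_) (isClosed_le continuous_const (hsm k).continuous)
      by_contra h'
      have : 2 * φ k y + 3 ≤ 0 := by
        have h'' : φ k y < -3 / 2 := not_le.1 h'
        linarith
      exact hy (by simp [Real.smoothTransition.zero_of_nonpos this])
    intro y hy h0
    have h2 : -3 / 2 ≤ φ k y := h1 hy
    have h3 : φ k y = -2 := by
      have := (hk k).ne'
      rw [hφ]
      simp only [h0, norm_zero, ne_eq, OfNat.ofNat_ne_zero, not_false_eq_true, zero_pow, zero_add,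
        Real.log_exp]
      field_simp
    linarith
  · obtain ⟨N, hN⟩ := exists_nat_gt (-Real.log (‖f y‖ ^ 2))
    filter_upwards [eventually_ge_atTop N] with k hkN
    have h1 : -1 < φ k y := by
      have h2 : Real.log (‖f y‖ ^ 2) ≤ Real.log (‖f y‖ ^ 2 + Real.exp (-2 * (k + 1))) :=
        Real.log_le_log (by positivity) (le_add_of_nonneg_right (Real.exp_pos _).le)
      have h3 : (N : ℝ) ≤ k := by exact_mod_cast hkN
      rw [hφ]
      exact (lt_inv_mul_iff₀ (hk k)).2 (by linarith)
    filter_upwards [(hsm k).continuous.continuousAt.eventually (lt_mem_nhds h1)] with p hp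
    rw [Real.smoothTransition.one_of_one_le (by linarith)]
    simp
  · obtain ⟨hI, hle⟩ := wy_levi_le (hsm k).exp hS (fun y => by
      rw [abs_of_pos (Real.exp_pos _), hφ]
      have h1 := wy_exp_le (hpos k y) (L := k + 1) (by linarith [Nat.cast_nonneg (α := ℝ) k])
      have h2 : Real.exp (-2 * ((k : ℝ) + 1)) ≤ 1 :=
        Real.exp_le_one_iff.2 (by linarith [hk k])
      beta_reduce
      linarith) ht j
    have hC : 0 ≤ 4 * B ^ 2 * Real.exp 2 := by positivity
    calc _ ≤ ∫ y, 4 * B ^ 2 * Real.exp 2 * (D.levi (fun p => Real.exp (φ k p)) y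
            (Pi.single j 1) * ‖t y‖ ^ 2) ∂D.μ := by
          refine integral_mono_of_nonneg (Eventually.of_forall fun y => by positivity)
            (hI.const_mul _) (Eventually.of_forall fun y => ?_)
          beta_reduce
          rw [norm_mul, mul_pow, ← mul_assoc]
          refine mul_le_mul_of_nonneg_right ?_ (sq_nonneg _)
          have h1 : ‖D.dX (bv j) (fun p => (φ k p : ℂ)) y‖ = ‖D.del (φ k) y (Pi.single j 1)‖ := by
            rw [del_single, ← norm_conj (D.dz j _ y), conj_dz_real]; rfl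
          rw [RD.db, dX_comp (hsm k) (hσ _), levi_exp (hsm k), norm_mul, mul_pow, h1, norm_real,
            Real.norm_eq_abs, sq_abs]
          have h2 : deriv Real.smoothTransition (2 * φ k y + 3) ^ 2 ≤ B ^ 2 :=
            sq_le_sq' (abs_le.1 (hB _)).1 (abs_le.1 (hB _)).2
          have h3 : 1 ≤ Real.exp 2 * Real.exp (φ k y) := by
            rw [← Real.exp_add]
            exact Real.one_le_exp (by linarith [hlo k y])
          have h4 := hlevi k y (Pi.single j 1)
          have h5 := sq_nonneg ‖D.del (φ k) y (Pi.single j 1)‖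
          generalize ‖D.del (φ k) y (Pi.single j 1)‖ ^ 2 = a at h5 ⊢
          generalize D.levi (φ k) y (Pi.single j 1) = l at h4 ⊢
          have h6 : a ≤ Real.exp 2 * Real.exp (φ k y) * (l + a) := by nlinarith
          calc _ ≤ 4 * B ^ 2 * a := by nlinarith
            _ ≤ 4 * B ^ 2 * (Real.exp 2 * Real.exp (φ k y) * (l + a)) :=
              mul_le_mul_of_nonneg_left h6 (by positivity)
            _ = _ := by ring
      _ ≤ _ := by
          rw [integral_const_mul]
          refine mul_le_mul_of_nonneg_left (hle.trans ?_) hC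
          exact Finset.single_le_sum (f := fun j => ∫ y, (2 + ‖f y‖ ^ 2) *
            ‖D.db j (D.dz j fun p => t p * conj (t p)) y‖ ∂D.μ)
            (fun i _ => integral_nonneg fun y => by positivity) (Finset.mem_univ j)

theorem wy_weak {f h : Y → ℂ} (hf : D.Hol f)
    (hh : ∀ y, f y ≠ 0 → DifferentiableAt ℂ (h ∘ D.sec y) (D.pr y))
    (h0 : ∀ y, f y = 0 → h y = 0) (hL : D.L2loc h) (j : Fin n) {t : Y → ℂ} (ht : D.Test t) :
    ∫ y, h y * D.db j t y ∂D.μ = 0 := by
  obtain ⟨κ, C, hκ, hκ1, hκs, hev, hC⟩ := exists_logcut hf ht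
  have hw : ∀ k, D.Test fun y => D.db j (κ k) y * t y := fun k => ((hκ k).db j).mul_test ht
  have hv : ∀ k, D.Test fun y => κ k y * D.db j t y := fun k => (hκ k).mul_test (ht.db j)
  have e1 : ∀ k, ∫ y, h y * (κ k y * D.db j t y) ∂D.μ =
      -∫ y, h y * (D.db j (κ k) y * t y) ∂D.μ := fun k => by
    have h1 := weak_off hf hh ((hκ k).mul_test ht)
      (fun y hy => hκs k y (tsupport_mul_subset_left hy)) j
    have h2 : (fun y => h y * D.db j (fun y => κ k y * t y) y) =
        fun y => h y * (κ k y * D.db j t y) + h y * (D.db j (κ k) y * t y) := by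
      funext y
      rw [RD.db, dX_mul (hκ k) ht.1]
      simp only [RD.db]
      ring
    rw [h2, integral_add (hL.integrable_mul (hv k).continuous (hv k).2)
      (hL.integrable_mul (hw k).continuous (hw k).2)] at h1
    exact eq_neg_of_add_eq_zero_left h1
  have hI := hL.integrable_mul (ht.db j).continuous (ht.db j).2
  have l1 : Tendsto (fun k => ∫ y, h y * (κ k y * D.db j t y) ∂D.μ) atTop
      (𝓝 (∫ y, h y * D.db j t y ∂D.μ)) := by
    refine tendsto_integral_of_dominated_convergence (fun y => ‖h y * D.db j t y‖)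
      (fun k => (hL.integrable_mul (hv k).continuous (hv k).2).aestronglyMeasurable) hI.norm
      (fun k => Eventually.of_forall fun y => ?_) (Eventually.of_forall fun y => ?_)
    · rw [mul_left_comm, norm_mul]
      exact mul_le_of_le_one_left (norm_nonneg _) (hκ1 k y)
    · by_cases hy : f y = 0
      · simp [h0 y hy]
      · refine tendsto_const_nhds.congr' ?_
        filter_upwards [hev y hy] with k hk
        rw [hk.eq_of_nhds, one_mul]
  obtain ⟨A, hA⟩ : ∃ A : ℕ → Set Y, A = fun k => {y | D.db j (κ k) y * t y ≠ 0} := ⟨_, rfl⟩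
  have hAm : ∀ k, MeasurableSet (A k) := fun k => by
    rw [hA]; exact (isOpen_ne_fun (hw k).continuous continuous_const).measurableSet
  have hAK : ∀ k, A k ⊆ tsupport t := fun k y hy => by
    rw [hA] at hy
    exact subset_tsupport _ (right_ne_zero_of_mul hy)
  have hK : Integrable ((tsupport t).indicator fun y => ‖h y‖ ^ 2) D.μ :=
    (integrable_indicator_iff (isClosed_tsupport t).measurableSet).2
      (hL.2 _ ht.2.isCompact).norm.integrable_sq
  have hb : ∀ k y, ‖(A k).indicator (fun y => ‖h y‖ ^ 2) y‖ ≤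
      (tsupport t).indicator (fun y => ‖h y‖ ^ 2) y := fun k y => by
    rw [Real.norm_of_nonneg (indicator_nonneg (fun _ _ => sq_nonneg _) y)]
    exact indicator_le_indicator_of_subset (hAK k) (fun _ => sq_nonneg _) y
  have hm : ∀ k, AEStronglyMeasurable ((A k).indicator fun y => ‖h y‖ ^ 2) D.μ := fun k =>
    (hL.1.norm.pow 2).indicator (hAm k)
  have l2 : Tendsto (fun k => ∫ y, (A k).indicator (fun y => ‖h y‖ ^ 2) y ∂D.μ) atTop
      (𝓝 (∫ _y, (0 : ℝ) ∂D.μ)) := by
    refine tendsto_integral_of_dominated_convergence _ hm hK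
      (fun k => Eventually.of_forall (hb k)) (Eventually.of_forall fun y => ?_)
    by_cases hy : f y = 0
    · simp [indicator, h0 y hy]
    · refine tendsto_const_nhds.congr' ?_
      filter_upwards [hev y hy] with k hk
      refine (indicator_of_notMem ?_ _).symm
      rw [hA]
      simp [RD.db, dX_congr hk, dX_const]
  rw [integral_zero] at l2
  have key : ∀ l : ℝ, 0 < l → ‖∫ y, h y * D.db j t y ∂D.μ‖ ≤ l * C := fun l hl => by
    have l3 := (l2.const_mul l⁻¹).const_add (l * C)
    rw [mul_zero, add_zero] at l3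
    refine le_of_tendsto_of_tendsto' l1.norm l3 fun k => ?_
    have hw2 : Integrable (fun y => ‖D.db j (κ k) y * t y‖ ^ 2) D.μ :=
      ((hw k).memLp 2).norm.integrable_sq
    have hA2 := hK.mono' (hm k) (Eventually.of_forall (hb k))
    rw [e1, norm_neg]
    refine (norm_integral_le_of_norm_le ((hw2.const_mul l).add (hA2.const_mul l⁻¹))
      (Eventually.of_forall fun y => ?_)).trans ?_
    · simp only [Pi.add_apply]
      by_cases hy : y ∈ A k
      · rw [indicator_of_mem hy, norm_mul]
        generalize ‖D.db j (κ k) y * t y‖ = a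
        generalize ‖h y‖ = b
        have h1 : l * a ^ 2 + l⁻¹ * b ^ 2 - b * a = l⁻¹ * ((l * a - b / 2) ^ 2 + 3 / 4 * b ^ 2) := by
          field_simp
          ring
        have h2 : 0 ≤ l⁻¹ * ((l * a - b / 2) ^ 2 + 3 / 4 * b ^ 2) := by positivity
        linarith
      · have : D.db j (κ k) y * t y = 0 := by
          rw [hA] at hy
          exact not_not.1 hy
        rw [indicator_of_notMem hy, this]
        simp
    · simp only [Pi.add_apply]
      rw [integral_add (hw2.const_mul l) (hA2.const_mul l⁻¹), integral_const_mul,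
        integral_const_mul]
      exact add_le_add_left (mul_le_mul_of_nonneg_left (hC k j) hl.le) _
  have l4 : Tendsto (fun l : ℝ => l * C) (𝓝[>] 0) (𝓝 (0 * C)) :=
    ((continuous_id.mul continuous_const).tendsto 0).mono_left nhdsWithin_le_nhds
  rw [zero_mul] at l4
  exact norm_le_zero_iff.1 (ge_of_tendsto l4 (eventually_nhdsWithin_of_forall key))

/-- Square integrable holomorphic functions extend across the zero set of a holomorphic
function. -/
theorem extend {f h : Y → ℂ} (hf : D.Hol f)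
    (hh : ∀ y, f y ≠ 0 → DifferentiableAt ℂ (h ∘ D.sec y) (D.pr y))
    (h0 : ∀ y, f y = 0 → h y = 0) (hL : D.L2loc h) :
    ∃ H, D.Hol H ∧ (∀ y, f y ≠ 0 → H y = h y) ∧ h =ᵐ[D.μ] H := by
  obtain ⟨H, hH, hae⟩ := weyl hL fun j t ht => wy_weak hf hh h0 hL j ht
  have hU : IsOpen {y | f y ≠ 0} := isOpen_ne_fun hf.sm.continuous continuous_const
  exact ⟨H, hH, fun y hy => Measure.eqOn_open_of_ae_eq (μ := D.μ) (ae_restrict_of_ae hae.symm) hU
    hH.sm.continuous.continuousOn (fun p hp => (wy_cont (hh p hp)).continuousWithinAt) hy, hae⟩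

end RD

end Vale.Agent.P271A
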