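import Vale.Agent.P271A.Dual
import Vale.Agent.P271A.Weyl

/-! P271A: the Hoermander theorem on a pseudoconvex Riemann domain. -/

open MeasureTheory Filter Topology Set Complex
open scoped ContDiff ENNReal ComplexConjugate

namespace Vale.Agent.P271A

variable {n : ℕ} {Y : Type} [TopologicalSpace Y] [T2Space Y] [SecondCountableTopology Y]
  [MeasurableSpace Y] [BorelSpace Y] {D : RD n Y}

namespace RD

/-- Test forms of type (0,1). -/
def hormV (D : RD n Y) : Submodule ℂ (Fin n → Y → ℂ) where
  carrier := {α | ∀ j, D.Test (α j)}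
  add_mem' := fun ha hb j => (ha j).add (hb j)
  zero_mem' := fun _ => test_zero
  smul_mem' := fun c _ ha j => (sm_const c).mul_test (ha j)

theorem horm {ρ φ b : Y → ℝ} (hρ : D.SmR ρ) (hρc : ∀ c, IsCompact {y | ρ y ≤ c})
    (hρp : ∀ y v, 0 ≤ D.levi ρ y v) (hφ : D.SmR φ) (hφp : ∀ y v, 0 ≤ D.levi φ y v)
    {g : Y → ℂ} (hg : D.Sm g) (hb0 : ∀ y, 0 ≤ b y)
    (hb : Integrable (fun y => b y * Real.exp (-φ y)) D.μ)
    (hgb : ∀ y v, ‖∑ j, D.db j g y * conj (v j)‖ ^ 2 ≤ b y * D.levi φ y v) :
    ∃ h, D.Hol h ∧ Integrable (fun y => ‖g y - h y‖ ^ 2 * Real.exp (-φ y)) D.μ ∧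
      ∫ y, ‖g y - h y‖ ^ 2 * Real.exp (-φ y) ∂D.μ ≤ ∫ y, b y * Real.exp (-φ y) ∂D.μ := by
  have he : D.SmR fun y => Real.exp (-φ y) := hφ.neg.exp
  have hφ2 : D.SmR fun y => 2⁻¹ * φ y := (smR_const _).mul hφ
  have he2 : D.SmR fun y => Real.exp (-(2⁻¹ * φ y)) := hφ2.neg.exp
  have hsq : ∀ y, Real.exp (-(2⁻¹ * φ y)) ^ 2 = Real.exp (-φ y) := fun y => by
    rw [sq, ← Real.exp_add]
    congr 1
    ring
  let T : hormV D →ₗ[ℂ] (Y → ℂ) :=
    { toFun := fun α y => Real.exp (-(2⁻¹ * φ y)) * D.Ts φ α.1 y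
      map_add' := fun α β => funext fun y => by
        rw [Pi.add_apply, ← mul_add, Ts, Ts, Ts, ← Finset.sum_add_distrib]
        refine congrArg _ (Finset.sum_congr rfl fun j _ => ?_)
        have e : D.dz j ((α + β).1 j) y = D.dz j (α.1 j) y + D.dz j (β.1 j) y :=
          dX_add (α.2 j).1 (β.2 j).1 y
        rw [e]
        change _ * (α.1 j y + β.1 j y) - _ = _
        ring
      map_smul' := fun c α => funext fun y => by
        rw [Pi.smul_apply, RingHom.id_apply, smul_eq_mul, mul_left_comm, Ts, Ts,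
          Finset.mul_sum _ _ c]
        refine congrArg _ (Finset.sum_congr rfl fun j _ => ?_)
        have e : D.dz j ((c • α).1 j) y = c * D.dz j (α.1 j) y := dX_const_mul (α.2 j).1 c y
        rw [e]
        change _ * (c * α.1 j y) - _ = _
        ring }
  have hi : ∀ (α : hormV D) j,
      Integrable (fun y => α.1 j y * conj (D.db j g y) * Real.exp (-φ y)) D.μ := fun α j =>
    (((α.2 j).mul (hg.db j).conj).mul he).integrable
  let Λ : hormV D →ₗ[ℂ] ℂ :=
    { toFun := fun α => ∑ j, ∫ y, α.1 j y * conj (D.db j g y) * Real.exp (-φ y) ∂D.μ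
      map_add' := fun α β => by
        rw [← Finset.sum_add_distrib]
        refine Finset.sum_congr rfl fun j _ => ?_
        rw [← integral_add (hi α j) (hi β j)]
        refine integral_congr_ae (Eventually.of_forall fun y => ?_)
        change (α.1 j y + β.1 j y) * _ * _ = _
        ring
      map_smul' := fun c α => by
        rw [RingHom.id_apply, smul_eq_mul, Finset.mul_sum]
        refine Finset.sum_congr rfl fun j _ => ?_
        rw [← integral_const_mul]
        refine integral_congr_ae (Eventually.of_forall fun y => ?_)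
        change (c * α.1 j y) * _ * _ = _
        ring }
  obtain ⟨u, hu, huB, hΛ⟩ := riesz (ν := D.μ) T
    (fun α => (Sm.mul_test he2 (Test.Ts hφ α.2)).memLp 2) Λ
    (B := ∫ y, b y * Real.exp (-φ y) ∂D.μ)
    (integral_nonneg fun y => mul_nonneg (hb0 y) (Real.exp_pos _).le) fun α => by
      have e1 : Λ α = conj (∑ j, ∫ y, D.db j g y * conj (α.1 j y) * Real.exp (-φ y) ∂D.μ) := by
        rw [map_sum]
        change ∑ j, ∫ y, α.1 j y * conj (D.db j g y) * Real.exp (-φ y) ∂D.μ = _
        refine Finset.sum_congr rfl fun j _ => ?_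
        rw [← integral_conj]
        refine integral_congr_ae (Eventually.of_forall fun y => ?_)
        simp only [map_mul, conj_conj, conj_ofReal]
        ring
      rw [e1, norm_conj]
      refine (dual hρ hρc hρp hφ hφp hg hb0 hb hgb α.2).trans (le_of_eq (congrArg _
        (integral_congr_ae (Eventually.of_forall fun y => ?_))))
      change _ = ‖(Real.exp (-(2⁻¹ * φ y)) : ℂ) * D.Ts φ α.1 y‖ ^ 2
      rw [norm_mul, mul_pow, norm_real, Real.norm_eq_abs, sq_abs, hsq, mul_comm]
  have hU : D.L2loc fun y => (Real.exp (2⁻¹ * φ y) : ℂ) * u y :=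
    (l2loc_of_memLp hu).cont_mul (Sm.continuous hφ2.exp)
  have hw : ∀ j t, D.Test t →
      ∫ y, D.db j g y * t y ∂D.μ = -∫ y, Real.exp (2⁻¹ * φ y) * u y * D.db j t y ∂D.μ := by
    intro j t ht
    have ht' : D.Test fun y => conj (t y) * Real.exp (φ y) := ht.conj.mul hφ.exp
    have h1 := hΛ ⟨Pi.single j fun y => conj (t y) * Real.exp (φ y), fun k => by
      rcases eq_or_ne k j with rfl | hk
      · rwa [Pi.single_eq_same]
      · rw [Pi.single_eq_of_ne hk]; exact test_zero⟩
    have h2 : ∀ y, D.Ts φ (Pi.single j fun y => conj (t y) * Real.exp (φ y)) y =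
        -(conj (D.db j t y) * Real.exp (φ y)) := fun y => by
      rw [Ts, Finset.sum_eq_single j (fun k _ hk => by
        rw [Pi.single_eq_of_ne hk]
        exact (congrArg₂ _ (mul_zero _) (dX_const 0 y)).trans (sub_self 0)) (by simp),
        Pi.single_eq_same, conj_db, dz, dz, dz, dX_mul ht.conj.1 hφ.exp, dX_exp hφ]
      ring
    change ∑ k, ∫ y, (Pi.single j (fun y => conj (t y) * Real.exp (φ y)) : Fin n → Y → ℂ) k y *
      conj (D.db k g y) * Real.exp (-φ y) ∂D.μ = ∫ y, Real.exp (-(2⁻¹ * φ y)) *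
        D.Ts φ (Pi.single j fun y => conj (t y) * Real.exp (φ y)) y * conj (u y) ∂D.μ at h1
    rw [Finset.sum_eq_single j (fun k _ hk => by simp [Pi.single_eq_of_ne hk]) (by simp),
      Pi.single_eq_same] at h1
    have h3 := congrArg conj h1
    rw [← integral_conj, ← integral_conj] at h3
    rw [← integral_neg]
    refine (integral_congr_ae (Eventually.of_forall fun y => ?_)).trans
      (h3.trans (integral_congr_ae (Eventually.of_forall fun y => ?_)))
    · have e : (Real.exp (φ y) : ℂ) * Real.exp (-φ y) = 1 := by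
        rw [← ofReal_mul, ← Real.exp_add, add_neg_cancel, Real.exp_zero, ofReal_one]
      simp only [map_mul, conj_conj, conj_ofReal]
      linear_combination (-(D.db j g y * t y)) * e
    · have e : (Real.exp (-(2⁻¹ * φ y)) : ℂ) * Real.exp (φ y) = Real.exp (2⁻¹ * φ y) := by
        rw [← ofReal_mul, ← Real.exp_add]
        congr 2
        ring
      simp only [h2, map_mul, map_neg, conj_conj, conj_ofReal]
      linear_combination (-(D.db j t y * u y)) * e
  obtain ⟨H, hH, hae⟩ := weyl ((l2loc_of_cont hg.continuous).sub hU) fun j t ht => by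
    simp only [sub_mul]
    rw [integral_sub (hg.mul_test (ht.db j)).integrable
      (hU.integrable_mul (ht.db j).continuous (ht.db j).2), sub_eq_zero]
    exact neg_injective ((ibp hg ht).symm.trans (hw j t ht))
  have hae' : (fun y => ‖u y‖ ^ 2) =ᵐ[D.μ] fun y => ‖g y - H y‖ ^ 2 * Real.exp (-φ y) := by
    filter_upwards [hae] with y hy
    rw [← hy, sub_sub_cancel, norm_mul, mul_pow, norm_real, Real.norm_eq_abs, sq_abs, ← hsq,
      mul_right_comm, ← mul_pow, ← Real.exp_add, add_neg_cancel, Real.exp_zero, one_pow, one_mul]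
  exact ⟨H, hH, ((memLp_two_iff_integrable_sq_norm hu.1).1 hu).congr hae',
    (integral_congr_ae hae').ge.trans huB⟩

end RD

end Vale.Agent.P271A
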