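import Vale.Agent.P271A.XDefs
import Vale.Agent.P271.Sieg
import Vale.Agent.P271.Dist

/-! P271A: orthonormal bases of the spaces of sections. -/

open MeasureTheory Filter Topology Set
open scoped ContDiff ENNReal ComplexConjugate

noncomputable section

namespace Vale.Agent.P271A

open Vale.Agent.P271

theorem onb_abs {V : Type} [AddCommGroup V] [Module ℂ V] [FiniteDimensional ℂ V]
    (c : InnerProductSpace.Core ℂ V) :
    ∃ e : Fin (Module.finrank ℂ V) → V, (∀ l, (c.inner (e l) (e l)).re = 1) ∧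
      ∀ h, ∃ a : Fin (Module.finrank ℂ V) → ℂ, h = ∑ l, a l • e l ∧
        ∑ l, ‖a l‖ ^ 2 = (c.inner h h).re := by
  letI : NormedAddCommGroup V := InnerProductSpace.Core.toNormedAddCommGroup (𝕜 := ℂ) (cd := c)
  letI : InnerProductSpace ℂ V := InnerProductSpace.ofCore c.toCore
  have hn : ∀ v : V, (c.inner v v).re = ‖v‖ ^ 2 := fun v =>
    (InnerProductSpace.norm_sq_eq_re_inner (𝕜 := ℂ) v).symm
  let b := stdOrthonormalBasis ℂ V
  refine ⟨b, fun l => ?_, fun h => ⟨fun l => inner ℂ (b l) h, ?_, ?_⟩⟩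
  · rw [hn, b.orthonormal.1 l, one_pow]
  · exact (b.sum_repr' h).symm
  · rw [hn]; exact b.sum_sq_norm_inner_right h

theorem onb_cs {ι : Type} [Fintype ι] (c e : ι → ℂ) :
    ‖∑ l, c l * e l‖ ^ 2 ≤ (∑ l, ‖c l‖ ^ 2) * ∑ l, ‖e l‖ ^ 2 := by
  have h1 : ‖∑ l, c l * e l‖ ≤ ∑ l, ‖c l‖ * ‖e l‖ :=
    (norm_sum_le _ _).trans (Finset.sum_le_sum fun l _ => (norm_mul _ _).le)
  exact (pow_le_pow_left₀ (norm_nonneg _) h1 2).trans (Finset.sum_mul_sq_le_sq_mul_sq _ _ _)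

variable {n : ℕ} {X : Type} [TopologicalSpace X] [T2Space X] [CompactSpace X]
  [MeasurableSpace X] [BorelSpace X]
  (M : Model n X) {G : M.ι → X → ℂ} {ψ ψ' : X → ℝ} {s t : X → ℂ}

omit [T2Space X] in
theorem onb_int {F : Type} [NormedAddCommGroup F] {f : X → F} (hf : Continuous f) :
    Integrable f M.μ :=
  hf.integrable_of_hasCompactSupport (HasCompactSupport.of_compactSpace f)

omit [T2Space X] [CompactSpace X] [BorelSpace X] in
theorem onb_cont (hG : M.IsGauge G) (hs : s ∈ M.Sec G) (hψ : Continuous ψ) :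
    Continuous fun p => ‖s p‖ ^ 2 * Real.exp (-ψ p) :=
  ((Atl.continuous_norm_of_mem hG hs).pow 2).mul (Real.continuous_exp.comp hψ.neg)

theorem N2_integrable (hG : M.IsGauge G) (hs : s ∈ M.Sec G) (hψ : Continuous ψ) :
    Integrable (fun p => ‖s p‖ ^ 2 * Real.exp (-ψ p)) M.μ :=
  onb_int M (onb_cont M hG hs hψ)

theorem N2_nonneg : 0 ≤ M.N2 ψ s :=
  integral_nonneg fun _ => by positivity

theorem N2_smul (c : ℂ) : M.N2 ψ (c • s) = ‖c‖ ^ 2 * M.N2 ψ s := by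
  unfold Model.N2
  rw [← integral_const_mul]
  refine integral_congr_ae (Eventually.of_forall fun p => ?_)
  simp only [Pi.smul_apply, smul_eq_mul, norm_mul]
  ring

theorem N2_le_exp (hG : M.IsGauge G) (hs : s ∈ M.Sec G) (hψ : Continuous ψ)
    (hψ' : Continuous ψ') {c : ℝ} (h : ∀ p, ψ p ≤ ψ' p + c) :
    M.N2 ψ' s ≤ Real.exp c * M.N2 ψ s := by
  unfold Model.N2
  rw [← integral_const_mul]
  refine integral_mono (N2_integrable M hG hs hψ') ((N2_integrable M hG hs hψ).const_mul _)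
    fun p => ?_
  have h1 : Real.exp (-ψ' p) ≤ Real.exp c * Real.exp (-ψ p) := by
    rw [← Real.exp_add]
    exact Real.exp_le_exp.2 (by linarith [h p])
  have h2 := mul_le_mul_of_nonneg_left h1 (sq_nonneg ‖s p‖)
  show ‖s p‖ ^ 2 * Real.exp (-ψ' p) ≤ Real.exp c * (‖s p‖ ^ 2 * Real.exp (-ψ p))
  linarith

theorem N2_sub_le (hG : M.IsGauge G) (hs : s ∈ M.Sec G) (ht : t ∈ M.Sec G) (hψ : Continuous ψ) :
    M.N2 ψ (s - t) ≤ 2 * M.N2 ψ s + 2 * M.N2 ψ t := by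
  unfold Model.N2
  have i1 := (N2_integrable M hG hs hψ).const_mul 2
  have i2 := (N2_integrable M hG ht hψ).const_mul 2
  rw [← integral_const_mul, ← integral_const_mul, ← integral_add i1 i2]
  refine integral_mono (N2_integrable M hG (Submodule.sub_mem _ hs ht) hψ) (i1.add i2) fun p => ?_
  have h1 : ‖s p - t p‖ ≤ ‖s p‖ + ‖t p‖ := norm_sub_le _ _
  have h2 : ‖s p - t p‖ ^ 2 ≤ 2 * ‖s p‖ ^ 2 + 2 * ‖t p‖ ^ 2 := by
    nlinarith [norm_nonneg (s p - t p), sq_nonneg (‖s p‖ - ‖t p‖), norm_nonneg (s p),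
      norm_nonneg (t p)]
  have h3 := mul_le_mul_of_nonneg_right h2 (Real.exp_pos (-ψ p)).le
  show ‖s p - t p‖ ^ 2 * Real.exp (-ψ p) ≤
    2 * (‖s p‖ ^ 2 * Real.exp (-ψ p)) + 2 * (‖t p‖ ^ 2 * Real.exp (-ψ p))
  linarith

theorem isOpenPosMeasure_mu : M.μ.IsOpenPosMeasure := by
  refine ⟨fun U hU ⟨p, hp⟩ h0 => ?_⟩
  obtain ⟨a, ha⟩ := M.cover p
  obtain ⟨K, hKn, hKs, hK⟩ := local_compact_nhds
    (inter_mem (hU.mem_nhds hp) ((M.e a).open_source.mem_nhds ha))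
  obtain ⟨C, -, hC⟩ := M.measure_comparable a hK fun q hq => (hKs hq).2
  have h1 := (hC (interior K) interior_subset isOpen_interior.measurableSet).2
  have h2 : M.μ (interior K) = 0 :=
    measure_mono_null (fun q hq => (hKs (interior_subset hq)).1) h0
  rw [h2, mul_zero] at h1
  have h3 : IsOpen (M.e a '' interior K) :=
    (M.e a).isOpen_image_of_subset_source isOpen_interior
      fun q hq => (hKs (interior_subset hq)).2
  exact h3.measure_ne_zero volume ⟨_, p, mem_interior_iff_mem_nhds.2 hKn, rfl⟩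
    (le_zero_iff.1 h1)

theorem N2_pos (hG : M.IsGauge G) (hs : s ∈ M.Sec G) (hψ : Continuous ψ) (h : s ≠ 0) :
    0 < M.N2 ψ s := by
  haveI := isOpenPosMeasure_mu M
  obtain ⟨p, hp⟩ := Function.ne_iff.1 h
  have hp' : 0 < ‖s p‖ := norm_pos_iff.2 hp
  exact (onb_cont M hG hs hψ).integral_pos_of_hasCompactSupport_nonneg_nonzero
    (HasCompactSupport.of_compactSpace _) (fun _ => by positivity) (x := p) (by positivity)

theorem onb_int2 (hG : M.IsGauge G) (hs : s ∈ M.Sec G) (ht : t ∈ M.Sec G) (hψ : Continuous ψ) :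
    Integrable (fun p => t p * conj (s p) * (Real.exp (-ψ p) : ℂ)) M.μ :=
  onb_int M ((Atl.sm_mul_conj hG ht hs).continuous.mul
    (Complex.continuous_ofReal.comp (Real.continuous_exp.comp hψ.neg)))

omit [T2Space X] [CompactSpace X] [BorelSpace X] in
theorem onb_self : ∫ p, s p * conj (s p) * (Real.exp (-ψ p) : ℂ) ∂M.μ = (M.N2 ψ s : ℂ) := by
  unfold Model.N2
  rw [← integral_complex_ofReal]
  refine integral_congr_ae (Eventually.of_forall fun p => ?_)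
  simp only [Complex.mul_conj, Complex.normSq_eq_norm_sq]
  push_cast
  ring

/-- The weighted inner product on holomorphic sections. -/
def onbCore (hG : M.IsGauge G) (hψ : Continuous ψ) : InnerProductSpace.Core ℂ (M.H0 G) where
  inner s t := ∫ p, t.1 p * conj (s.1 p) * (Real.exp (-ψ p) : ℂ) ∂M.μ
  conj_inner_symm s t := by
    rw [← integral_conj]
    refine integral_congr_ae (Eventually.of_forall fun p => ?_)
    simp only [map_mul, Complex.conj_conj, Complex.conj_ofReal]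
    ring
  re_inner_nonneg s := by
    rw [onb_self]
    exact N2_nonneg M
  add_left s t u := by
    rw [← integral_add (onb_int2 M hG (Atl.H0_le_Sec s.2) (Atl.H0_le_Sec u.2) hψ)
      (onb_int2 M hG (Atl.H0_le_Sec t.2) (Atl.H0_le_Sec u.2) hψ)]
    refine integral_congr_ae (Eventually.of_forall fun p => ?_)
    simp only [Submodule.coe_add, Pi.add_apply, map_add]
    ring
  smul_left s t r := by
    rw [← integral_const_mul]
    refine integral_congr_ae (Eventually.of_forall fun p => ?_)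
    simp only [Submodule.coe_smul, Pi.smul_apply, smul_eq_mul, map_mul]
    ring
  definite s h := by
    by_contra hs
    have h1 := N2_pos M hG (Atl.H0_le_Sec s.2) hψ fun h => hs (Subtype.ext h)
    rw [onb_self] at h
    exact h1.ne' (by exact_mod_cast h)

theorem onb (hG : M.IsGauge G) (hψ : Continuous ψ) :
    ∃ e : Fin (Module.finrank ℂ (M.H0 G)) → X → ℂ, (∀ l, e l ∈ M.H0 G) ∧
      (∀ l, M.N2 ψ (e l) = 1) ∧ ∀ h ∈ M.H0 G, ∃ c : Fin (Module.finrank ℂ (M.H0 G)) → ℂ,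
        (∀ p, h p = ∑ l, c l * e l p) ∧ ∑ l, ‖c l‖ ^ 2 = M.N2 ψ h := by
  haveI := finDim M.toAtl hG
  have hs : ∀ s : M.H0 G, ((onbCore M hG hψ).inner s s).re = M.N2 ψ s := fun s => by
    have h : (onbCore M hG hψ).inner s s = (M.N2 ψ s : ℂ) := onb_self M
    rw [h, Complex.ofReal_re]
  obtain ⟨e, h1, h2⟩ := onb_abs (onbCore M hG hψ)
  refine ⟨fun l => e l, fun l => (e l).2, fun l => (hs _).symm.trans (h1 l), fun h hh => ?_⟩
  obtain ⟨a, ha, hb⟩ := h2 ⟨h, hh⟩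
  refine ⟨a, fun p => ?_, hb.trans (hs _)⟩
  have h3 := congrFun (congrArg Subtype.val ha) p
  simpa [Finset.sum_apply] using h3

theorem onb_K (hG : M.IsGauge G) (hψ : Continuous ψ) :
    ∃ e : Fin (Module.finrank ℂ (M.H0 G)) → X → ℂ, (∀ l, e l ∈ M.H0 G) ∧
      (∀ l, M.N2 ψ (e l) = 1) ∧ ∀ h ∈ M.H0 G, ∀ p,
        ‖h p‖ ^ 2 ≤ (∑ l, ‖e l p‖ ^ 2) * M.N2 ψ h := by
  obtain ⟨e, h1, h2, h3⟩ := onb M hG hψ
  refine ⟨e, h1, h2, fun h hh p => ?_⟩
  obtain ⟨c, hc, hn⟩ := h3 h hh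
  rw [hc p, ← hn, mul_comm]
  exact onb_cs c fun l => e l p

theorem sup_le (hG : M.IsGauge G) :
    ∃ C > (0 : ℝ), ∀ h ∈ M.H0 G, ∀ p, ‖h p‖ ^ 2 ≤ C * M.N2 (fun _ => 0) h := by
  obtain ⟨e, h1, -, h3⟩ := onb_K M hG (ψ := fun _ => 0) continuous_const
  choose B hB0 hB using fun l => Atl.exists_bound hG (Atl.H0_le_Sec (h1 l))
  refine ⟨∑ l, B l ^ 2 + 1, by positivity, fun h hh p => (h3 h hh p).trans ?_⟩
  refine mul_le_mul_of_nonneg_right ?_ (N2_nonneg M)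
  have h4 : ∑ l, ‖e l p‖ ^ 2 ≤ ∑ l, B l ^ 2 :=
    Finset.sum_le_sum fun l _ => pow_le_pow_left₀ (norm_nonneg _) (hB l p) 2
  linarith

/-- A point where the Bergman kernel is not too large. -/
theorem markov (hG : M.IsGauge G) (hψ : Continuous ψ) {S : Set X} (hS : MeasurableSet S)
    (h0 : M.μ S ≠ 0) : ∃ z ∈ S, ∀ h ∈ M.H0 G,
      ‖h z‖ ^ 2 * Real.exp (-ψ z) * M.μ.real S ≤ Module.finrank ℂ (M.H0 G) * M.N2 ψ h := by
  obtain ⟨e, h1, h2, h3⟩ := onb_K M hG hψ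
  have hi : ∀ l, Integrable (fun p => ‖e l p‖ ^ 2 * Real.exp (-ψ p)) M.μ := fun l =>
    N2_integrable M hG (Atl.H0_le_Sec (h1 l)) hψ
  have hK : Integrable (fun p => ∑ l, ‖e l p‖ ^ 2 * Real.exp (-ψ p)) M.μ :=
    integrable_finsetSum _ fun l _ => hi l
  have hI : ∫ p, ∑ l, ‖e l p‖ ^ 2 * Real.exp (-ψ p) ∂M.μ = Module.finrank ℂ (M.H0 G) := by
    rw [integral_finsetSum _ fun l _ => hi l]
    have h4 : ∀ l, ∫ p, ‖e l p‖ ^ 2 * Real.exp (-ψ p) ∂M.μ = 1 := h2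
    simp [h4]
  obtain ⟨z, hz, hle⟩ := exists_le_setAverage h0 (measure_ne_top _ _) hK.integrableOn
  refine ⟨z, hz, fun h hh => ?_⟩
  have hpos : 0 < M.μ.real S := ENNReal.toReal_pos h0 (measure_ne_top _ _)
  rw [setAverage_eq, smul_eq_mul, inv_mul_eq_div, le_div_iff₀ hpos] at hle
  have h5 : ∫ p in S, ∑ l, ‖e l p‖ ^ 2 * Real.exp (-ψ p) ∂M.μ ≤ Module.finrank ℂ (M.H0 G) := by
    rw [← hI]
    exact setIntegral_le_integral hK (Eventually.of_forall fun p => by positivity)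
  have h6 := mul_le_mul_of_nonneg_right (hle.trans h5) (N2_nonneg M (ψ := ψ) (s := h))
  have h7 := mul_le_mul_of_nonneg_right (h3 h hh z)
    (mul_pos (Real.exp_pos (-ψ z)) hpos).le
  rw [← Finset.sum_mul] at h6
  linarith

omit [T2Space X] [CompactSpace X] [BorelSpace X] in
theorem onb_bigO (hG : M.IsGauge G) (P : Pol M.toAtl) {x : X} {i0 : Fin P.N} (hx : P.s i0 x ≠ 0)
    {h : X → ℂ} (hh : h ∈ M.H0 G) (hz : h x = 0) :
    ∃ C : ℝ, ∀ᶠ p in 𝓝 x, ‖h p‖ ≤ C * P.r x i0 p := by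
  obtain ⟨a, ha⟩ := M.cover x
  obtain ⟨C, hC, hr⟩ := P.r_comparable hx ha
  have h1 : AnalyticAt ℂ (M.loc a fun p => G a p * h p) (M.e a x) :=
    hh a _ ((M.e a).map_source ha)
  obtain ⟨D, hD0, hD⟩ := h1.differentiableAt.isBigO_sub.exists_pos
  have h2 := ((M.e a).continuousAt ha).eventually hD.bound
  have hc : ContinuousAt (fun p => ‖G a p‖) x :=
    (Atl.continuousOn_norm_gauge hG a).continuousAt ((M.e a).open_source.mem_nhds ha)
  have hg : 0 < ‖G a x‖ := norm_pos_iff.2 (hG.ne a x ha)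
  have h3 : ∀ᶠ p in 𝓝 x, ‖G a x‖ / 2 < ‖G a p‖ := hc.eventually (lt_mem_nhds (by linarith))
  refine ⟨D * C / (‖G a x‖ / 2), ?_⟩
  filter_upwards [hr, h2, h3, (M.e a).open_source.mem_nhds ha] with p hp1 hp2 hp3 hp4
  rw [Atl.loc_e _ _ _ hp4, Atl.loc_e _ _ _ ha, hz, mul_zero, sub_zero, norm_mul] at hp2
  rw [div_mul_eq_mul_div, le_div_iff₀ (by linarith)]
  have h4 := mul_le_mul_of_nonneg_left hp1.2 hD0.le
  have h5 := mul_le_mul_of_nonneg_left hp3.le (norm_nonneg (h p))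
  linarith

theorem lip_le (hG : M.IsGauge G) (P : Pol M.toAtl) {x : X} {i0 : Fin P.N} (hx : P.s i0 x ≠ 0)
    (hz : ∀ h ∈ M.H0 G, h x = 0) : ∃ C > (0 : ℝ), ∃ δ > (0 : ℝ), ∀ h ∈ M.H0 G, ∀ p,
      P.r x i0 p < δ → ‖h p‖ ^ 2 ≤ C * M.N2 (fun _ => 0) h * P.r x i0 p ^ 2 := by
  obtain ⟨e, h1, -, h3⟩ := onb_K M hG (ψ := fun _ => 0) continuous_const
  choose B hB using fun l => onb_bigO M hG P hx (h1 l) (hz _ (h1 l))
  obtain ⟨δ, hδ, hU⟩ := P.exists_r_lt_subset hx (eventually_all.2 hB)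
  refine ⟨∑ l, B l ^ 2 + 1, by positivity, δ, hδ, fun h hh p hp => (h3 h hh p).trans ?_⟩
  have h4 : ∑ l, ‖e l p‖ ^ 2 ≤ ∑ l, B l ^ 2 * P.r x i0 p ^ 2 :=
    Finset.sum_le_sum fun l _ => by
      rw [← mul_pow]
      exact pow_le_pow_left₀ (norm_nonneg _) (hU p hp l) 2
  rw [← Finset.sum_mul] at h4
  have h5 : ∑ l, ‖e l p‖ ^ 2 ≤ (∑ l, B l ^ 2 + 1) * P.r x i0 p ^ 2 := by
    nlinarith [sq_nonneg (P.r x i0 p)]
  have h6 := mul_le_mul_of_nonneg_right h5 (N2_nonneg M (ψ := fun _ => 0) (s := h))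
  linarith

end Vale.Agent.P271A
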