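import Vale.Agent.P271A.Wt

/-! P271A: pull back of the data to the cover. -/

open MeasureTheory Filter Topology Set
open scoped ContDiff ENNReal ComplexConjugate

noncomputable section

namespace Vale.Agent.P271A

open Vale.Agent.P271

variable {n : ℕ} {X : Type} [TopologicalSpace X] [MeasurableSpace X]
  {M : Model n X} {P : Pol M.toAtl} {C : Cov M P} {F F' : M.ι → X → ℂ} {e e' : C.Y → ℂ}

theorem Cov.frame_t (C : Cov M P) : C.Frame P.u C.t := ⟨C.t_ne, C.t_an⟩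

theorem Cov.frame_k (C : Cov M P) : C.Frame M.k fun q => C.Ω (C.π q) := ⟨C.Ω_ne, C.Ω_an⟩

theorem Cov.Frame.mul (h : C.Frame F e) (h' : C.Frame F' e') :
    C.Frame (F * F') fun q => e q * e' q := by
  refine ⟨fun q => mul_ne_zero (h.ne q) (h'.ne q), fun a q hq => ?_⟩
  refine ((h.an a q hq).mul (h'.an a q hq)).congr (Eventually.of_forall fun z => ?_)
  simp only [Pi.mul_apply]
  ring

theorem Cov.Frame.pow (h : C.Frame F e) (m : ℕ) : C.Frame (F ^ m) fun q => e q ^ m := by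
  refine ⟨fun q => pow_ne_zero _ (h.ne q), fun a q hq => ?_⟩
  refine ((h.an a q hq).pow m).congr (Eventually.of_forall fun z => ?_)
  simp only [Pi.pow_apply, mul_pow]

theorem pull_sec (C : Cov M P) (q : C.Y) : C.D.sec q (C.D.pr q) = q := C.D.sec_pr (C.D.mem_ch q)

theorem Cov.Frame.pull_ne (hF : M.IsGauge F) (h : C.Frame F e) {a : M.ι} {q : C.Y}
    (hq : C.π q ∈ (M.e a).source) :
    F a (C.π (C.D.sec q (C.D.pr q))) * e (C.D.sec q (C.D.pr q)) ≠ 0 := by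
  rw [pull_sec]
  exact mul_ne_zero (hF.ne a _ hq) (h.ne q)

theorem Cov.Frame.inv (hF : M.IsGauge F) (h : C.Frame F e) :
    C.Frame F⁻¹ fun q => (e q)⁻¹ := by
  refine ⟨fun q => inv_ne_zero (h.ne q), fun a q hq => ?_⟩
  refine ((h.an a q hq).inv (h.pull_ne hF hq)).congr (Eventually.of_forall fun z => ?_)
  simp only [Pi.inv_apply, mul_inv]

theorem pull_near (C : Cov M P) {a : M.ι} {q : C.Y} (hq : C.π q ∈ (M.e a).source) :
    ∀ᶠ y in 𝓝 q, C.D.sec q (C.D.pr y) = y ∧ C.π y ∈ (M.e a).source := by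
  filter_upwards [C.D.source_nhds q,
    C.lh.continuous.continuousAt.eventually_mem ((M.e a).open_source.mem_nhds hq)] with y h1 h2
  exact ⟨C.D.sec_pr h1, h2⟩

theorem pull_T (C : Cov M P) {a : M.ι} {q : C.Y} (hq : C.π q ∈ (M.e a).source) :
    ContDiffAt ℝ ∞ (fun z => M.e a (C.π (C.D.sec q z))) (C.D.pr q) :=
  ((C.T_an a q hq).contDiffAt (n := ∞)).restrict_scalars ℝ

theorem pull_sec_at {w : X → ℂ} (hw : w ∈ M.Sec F) {a : M.ι} {q : C.Y}
    (hq : C.π q ∈ (M.e a).source) :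
    ContDiffAt ℝ ∞ (M.loc a fun p => F a p * w p) (M.e a (C.π (C.D.sec q (C.D.pr q)))) := by
  rw [pull_sec]
  exact (hw a).contDiffAt ((M.e a).open_target.mem_nhds ((M.e a).map_source hq))

theorem Cov.Frame.pull_div (hF : M.IsGauge F) (w : X → ℂ) (e : C.Y → ℂ) {a : M.ι} {q : C.Y}
    (hq : C.π q ∈ (M.e a).source) :
    (fun y => w (C.π y) / e y) =ᶠ[𝓝 q]
      (fun z => M.loc a (fun p => F a p * w p) (M.e a (C.π (C.D.sec q z))) *
        (F a (C.π (C.D.sec q z)) * e (C.D.sec q z))⁻¹) ∘ C.D.pr := by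
  filter_upwards [pull_near C hq] with y hy
  simp only [Function.comp_apply, hy.1]
  rw [M.loc_e a _ hy.2, ← div_eq_mul_inv, mul_div_mul_left _ _ (hF.ne a _ hy.2)]

theorem Cov.Frame.sm (hF : M.IsGauge F) (h : C.Frame F e) {w : X → ℂ} (hw : w ∈ M.Sec F) :
    C.D.Sm fun q => w (C.π q) / e q := by
  refine RD.sm_of_rep fun q => ?_
  obtain ⟨a, hq⟩ := M.cover (C.π q)
  refine ⟨_, ?_, Cov.Frame.pull_div hF w e hq⟩
  exact (ContDiffAt.comp (C.D.pr q) (pull_sec_at hw hq) (pull_T C hq)).mul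
    ((((h.an a q hq).inv (h.pull_ne hF hq)).contDiffAt (n := ∞)).restrict_scalars ℝ)

theorem Cov.Frame.pull_wt (hF : M.IsGauge F) (h : C.Frame F e) (ψ : X → ℝ) {a : M.ι} {q : C.Y}
    (hq : C.π q ∈ (M.e a).source) :
    (fun y => ψ (C.π y) - Real.log (‖e y‖ ^ 2)) =ᶠ[𝓝 q]
      (fun z => M.wt F ψ a (M.e a (C.π (C.D.sec q z))) -
        Real.log (‖F a (C.π (C.D.sec q z)) * e (C.D.sec q z)‖ ^ 2)) ∘ C.D.pr := by
  filter_upwards [pull_near C hq] with y hy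
  simp only [Function.comp_apply, hy.1, Atl.wt]
  rw [M.loc_e a _ hy.2, norm_mul, mul_pow,
    Real.log_mul (pow_ne_zero _ (norm_ne_zero_iff.2 (hF.ne a _ hy.2)))
      (pow_ne_zero _ (norm_ne_zero_iff.2 (h.ne y)))]
  ring

theorem pull_wt_at (hF : M.IsGauge F) {ψ : X → ℝ} (hψ : M.Sm ψ) {a : M.ι} {q : C.Y}
    (hq : C.π q ∈ (M.e a).source) :
    ContDiffAt ℝ ∞ (M.wt F ψ a) (M.e a (C.π (C.D.sec q (C.D.pr q)))) := by
  rw [pull_sec]
  exact wt_at hF hψ hq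

theorem Cov.Frame.pull_log (hF : M.IsGauge F) (h : C.Frame F e) {a : M.ι} {q : C.Y}
    (hq : C.π q ∈ (M.e a).source) :
    ContDiffAt ℝ ∞ (fun z => Real.log (‖F a (C.π (C.D.sec q z)) * e (C.D.sec q z)‖ ^ 2))
      (C.D.pr q) :=
  (contDiffAt_normSq (h.an a q hq)).log
    (pow_ne_zero _ (norm_ne_zero_iff.2 (h.pull_ne hF hq)))

theorem Cov.Frame.smR (hF : M.IsGauge F) (h : C.Frame F e) {ψ : X → ℝ} (hψ : M.Sm ψ) :
    C.D.SmR fun q => ψ (C.π q) - Real.log (‖e q‖ ^ 2) := by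
  refine RD.sm_of_rep fun q => ?_
  obtain ⟨a, hq⟩ := M.cover (C.π q)
  have h1 := (ContDiffAt.comp (C.D.pr q) (pull_wt_at hF hψ hq) (pull_T C hq)).sub
    (h.pull_log hF hq)
  refine ⟨_, Complex.ofRealCLM.contDiff.contDiffAt.comp _ h1, ?_⟩
  filter_upwards [h.pull_wt hF ψ hq] with y hy
  exact congrArg (fun t : ℝ => (t : ℂ)) hy

theorem Cov.Frame.pull_levi (hF : M.IsGauge F) (h : C.Frame F e) {ψ : X → ℝ} (hψ : M.Sm ψ)
    {a : M.ι} {q : C.Y} (hq : C.π q ∈ (M.e a).source) (v : Cn n) :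
    C.D.levi (fun q => ψ (C.π q) - Real.log (‖e q‖ ^ 2)) q v =
      Lev (M.wt F ψ a) (M.e a (C.π q))
        (fderiv ℂ (fun z => M.e a (C.π (C.D.sec q z))) (C.D.pr q) v) := by
  have h0 : ContDiffAt ℝ ∞ (fun z => M.wt F ψ a (M.e a (C.π (C.D.sec q z)))) (C.D.pr q) :=
    ContDiffAt.comp (C.D.pr q) (pull_wt_at hF hψ hq) (pull_T C hq)
  rw [levi_rep (h0.sub (h.pull_log hF hq)) (h.pull_wt hF ψ hq), Lev_sub h0 (h.pull_log hF hq),
    Lev_log_normSq (h.an a q hq) (h.pull_ne hF hq), sub_zero,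
    Lev_comp_hol (T := fun z => M.e a (C.π (C.D.sec q z))) (pull_wt_at hF hψ hq) (C.T_an a q hq),
    pull_sec]

theorem Cov.Frame.pull_db (hF : M.IsGauge F) (h : C.Frame F e) {w : X → ℂ} (hw : w ∈ M.Sec F)
    {a : M.ι} {q : C.Y} (hq : C.π q ∈ (M.e a).source) (v : Cn n) :
    ∑ j, C.D.db j (fun q => w (C.π q) / e q) q * conj (v j) =
      dzb (fderiv ℂ (fun z => M.e a (C.π (C.D.sec q z))) (C.D.pr q) v)
        (M.loc a fun p => F a p * w p) (M.e a (C.π q)) * (F a (C.π q) * e q)⁻¹ := by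
  have h0 : ContDiffAt ℝ ∞
      (fun z => M.loc a (fun p => F a p * w p) (M.e a (C.π (C.D.sec q z)))) (C.D.pr q) :=
    ContDiffAt.comp (g := M.loc a fun p => F a p * w p)
      (f := fun z => M.e a (C.π (C.D.sec q z))) (C.D.pr q) (pull_sec_at hw hq) (pull_T C hq)
  have h1 : AnalyticAt ℂ (fun z => (F a (C.π (C.D.sec q z)) * e (C.D.sec q z))⁻¹) (C.D.pr q) :=
    (h.an a q hq).inv (h.pull_ne hF hq)
  rw [db_rep (Cov.Frame.pull_div hF w e hq), dzb_mul (h0.differentiableAt (by simp))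
    (h1.differentiableAt.restrictScalars ℝ), dzb_hol h1.differentiableAt, mul_zero, add_zero,
    dzb_comp_hol (T := fun z => M.e a (C.π (C.D.sec q z)))
      ((pull_sec_at hw hq).differentiableAt (by simp)) (C.T_an a q hq).differentiableAt,
    pull_sec]

theorem Cov.Frame.ctl (hF : M.IsGauge F) (h : C.Frame F e) {ψ : X → ℝ} (hψ : M.Sm ψ)
    {w : X → ℂ} (hw : w ∈ M.Sec (M.k * F)) {θ : X → ℝ} (hc : Ctl M F ψ w θ) (q : C.Y)
    (v : Cn n) : 0 ≤ C.D.levi (fun q => ψ (C.π q) - Real.log (‖e q‖ ^ 2)) q v ∧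
      ‖∑ j, C.D.db j (fun q => w (C.π q) / (C.Ω (C.π q) * e q)) q * conj (v j)‖ ^ 2 ≤
        θ (C.π q) / ‖C.Ω (C.π q) * e q‖ ^ 2 *
          C.D.levi (fun q => ψ (C.π q) - Real.log (‖e q‖ ^ 2)) q v := by
  obtain ⟨a, hq, hc⟩ := hc (C.π q)
  have hK : M.IsGauge (M.k * F) := M.k_gauge.mul hF
  obtain ⟨h1, h2⟩ := hc (fderiv ℂ (fun z => M.e a (C.π (C.D.sec q z))) (C.D.pr q) v)
  rw [h.pull_levi hF hψ hq v, (C.frame_k.mul h).pull_db hK hw hq v]
  refine ⟨h1, ?_⟩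
  have h3 : 0 < ‖(M.k * F) a (C.π q)‖ ^ 2 := pow_pos (norm_pos_iff.2 (hK.ne a _ hq)) 2
  have h4 : 0 < ‖C.Ω (C.π q) * e q‖ ^ 2 :=
    pow_pos (norm_pos_iff.2 (mul_ne_zero (C.Ω_ne q) (h.ne q))) 2
  rw [norm_mul, mul_pow, norm_inv, inv_pow, norm_mul ((M.k * F) a (C.π q)), mul_pow,
    ← div_eq_mul_inv, div_le_iff₀ (mul_pos h3 h4)]
  refine h2.trans (le_of_eq ?_)
  have h5 : ‖C.Ω (C.π q) * e q‖ ≠ 0 := norm_ne_zero_iff.2 (mul_ne_zero (C.Ω_ne q) (h.ne q))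
  field_simp

end Vale.Agent.P271A
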