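import Vale.Agent.P271A.Horm
import Vale.Agent.P271A.Pull
import Vale.Agent.P271A.CovM
import Vale.Agent.P271A.CovB
import Vale.Agent.P271A.Onb

/-! P271A: the Hoermander theorem on the compact manifold. -/

open MeasureTheory Filter Topology Set
open scoped ContDiff ENNReal ComplexConjugate

noncomputable section

namespace Vale.Agent.P271A

open Vale.Agent.P271

variable {n : ℕ} {X : Type} [TopologicalSpace X] [T2Space X] [CompactSpace X] [ConnectedSpace X]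
  [MeasurableSpace X] [BorelSpace X]

theorem hx_jensen {k : ℕ} (hk : 0 < k) (w : ℂ) (u : ℕ → ℂ) :
    ‖w - (k : ℂ)⁻¹ * ∑ i ∈ Finset.range k, u i‖ ^ 2 ≤
      (k : ℝ)⁻¹ * ∑ i ∈ Finset.range k, ‖w - u i‖ ^ 2 := by
  have hk0 : (k : ℂ) ≠ 0 := by exact_mod_cast hk.ne'
  have hkr : (0 : ℝ) < k := by exact_mod_cast hk
  have e1 : w - (k : ℂ)⁻¹ * ∑ i ∈ Finset.range k, u i =
      (k : ℂ)⁻¹ * ∑ i ∈ Finset.range k, (w - u i) := by
    rw [Finset.sum_sub_distrib, Finset.sum_const, Finset.card_range, nsmul_eq_mul]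
    field_simp
  have h1 : ‖∑ i ∈ Finset.range k, (w - u i)‖ ≤ ∑ i ∈ Finset.range k, ‖w - u i‖ :=
    norm_sum_le _ _
  have h2 : (∑ i ∈ Finset.range k, ‖w - u i‖) ^ 2 ≤
      (k : ℝ) * ∑ i ∈ Finset.range k, ‖w - u i‖ ^ 2 := by
    have := sq_sum_le_card_mul_sum_sq (s := Finset.range k) (f := fun i => ‖w - u i‖)
    simpa using this
  have h3 : ‖∑ i ∈ Finset.range k, (w - u i)‖ ^ 2 ≤
      (k : ℝ) * ∑ i ∈ Finset.range k, ‖w - u i‖ ^ 2 :=
    (pow_le_pow_left₀ (norm_nonneg _) h1 2).trans h2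
  rw [e1, norm_mul, norm_inv, Complex.norm_natCast, mul_pow]
  calc (k : ℝ)⁻¹ ^ 2 * ‖∑ i ∈ Finset.range k, (w - u i)‖ ^ 2
      ≤ (k : ℝ)⁻¹ ^ 2 * ((k : ℝ) * ∑ i ∈ Finset.range k, ‖w - u i‖ ^ 2) :=
        mul_le_mul_of_nonneg_left h3 (by positivity)
    _ = (k : ℝ)⁻¹ * ∑ i ∈ Finset.range k, ‖w - u i‖ ^ 2 := by field_simp

theorem hx_shift {Y : Type} {τ : Y → Y} {k : ℕ} (hτ : ∀ q, τ^[k] q = q) (u : Y → ℂ) (q : Y) :
    ∑ i ∈ Finset.range k, u (τ^[i] (τ q)) = ∑ i ∈ Finset.range k, u (τ^[i] q) := by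
  have h1 := Finset.sum_range_succ (fun i => u (τ^[i] q)) k
  have h2 := Finset.sum_range_succ' (fun i => u (τ^[i] q)) k
  simp only [Function.iterate_succ_apply, Function.iterate_zero_apply, hτ] at h1 h2
  exact add_right_cancel (h2.symm.trans h1)

theorem hx_shift_iter {Y : Type} {τ : Y → Y} {k : ℕ} (hτ : ∀ q, τ^[k] q = q) (u : Y → ℂ)
    (q : Y) (m : ℕ) :
    ∑ i ∈ Finset.range k, u (τ^[i] (τ^[m] q)) = ∑ i ∈ Finset.range k, u (τ^[i] q) := by
  induction m with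
  | zero => rfl
  | succ m ih => rw [Function.iterate_succ_apply', hx_shift hτ, ih]

theorem Cov.hx_π_iter {M : Model n X} {P : Pol M.toAtl} (C : Cov M P) (i : ℕ) (q : C.Y) :
    C.π (C.τ^[i] q) = C.π q := by
  induction i with
  | zero => rfl
  | succ m ih => rw [Function.iterate_succ_apply', C.π_τ, ih]

/-- The trace of a function on the cover. -/
theorem Cov.hx_trace {M : Model n X} {P : Pol M.toAtl} (C : Cov M P) (u : C.Y → ℂ) :
    ∃ H : X → ℂ, (∀ q, H (C.π q) = (P.k0 : ℂ)⁻¹ * ∑ i ∈ Finset.range P.k0, u (C.τ^[i] q)) ∧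
      ∀ p, C.Z p = 0 → H p = 0 := by
  classical
  refine ⟨fun p => if hp : ∃ q, C.π q = p then
    (P.k0 : ℂ)⁻¹ * ∑ i ∈ Finset.range P.k0, u (C.τ^[i] hp.choose) else 0, fun q => ?_,
    fun p hp => ?_⟩
  · have hp : ∃ q', C.π q' = C.π q := ⟨q, rfl⟩
    simp only [dif_pos hp]
    obtain ⟨m, -, hm⟩ := C.fiber q hp.choose hp.choose_spec.symm
    rw [hm, hx_shift_iter C.τ_per]
  · have : ¬ ∃ q, C.π q = p := by
      intro h
      have h2 : p ∈ range C.π := h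
      rw [C.range_π] at h2
      exact h2 hp
    simp only [dif_neg this]

theorem Cov.hx_analytic {M : Model n X} {P : Pol M.toAtl} (C : Cov M P) {G : M.ι → X → ℂ}
    {e : C.Y → ℂ} (he : C.Frame G e) {h : C.Y → ℂ} (hh : C.D.Hol h) {H : X → ℂ}
    (hH : ∀ q, H (C.π q) =
      (P.k0 : ℂ)⁻¹ * ∑ i ∈ Finset.range P.k0, h (C.τ^[i] q) * e (C.τ^[i] q))
    (a : M.ι) (p : X) (hp : p ∈ (M.e a).source) (hZ : C.Z p ≠ 0) :
    AnalyticAt ℂ (M.loc a fun q => G a q * H q) (M.e a p) := by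
  have hr : p ∈ range C.π := by rw [C.range_π]; exact hZ
  obtain ⟨q0, rfl⟩ := hr
  let A : ℕ → Cn n → ℂ := fun i z =>
    (G a (C.π (C.D.sec (C.τ^[i] q0) z)) * e (C.D.sec (C.τ^[i] q0) z)) *
      h (C.D.sec (C.τ^[i] q0) z)
  have hpr : ∀ i q, C.D.pr (C.τ^[i] q) = C.pr0 (C.π q) := fun i q => by
    rw [C.hpr, C.hx_π_iter]
  have hA : ∀ i, AnalyticAt ℂ (A i) (C.pr0 (C.π q0)) := by
    intro i
    rw [← hpr i q0]
    have h1 := he.an a (C.τ^[i] q0) (by rw [C.hx_π_iter]; exact hp)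
    have h2 : AnalyticAt ℂ (h ∘ C.D.sec (C.τ^[i] q0)) (C.D.pr (C.τ^[i] q0)) :=
      P278F.analyticAt_of_eventually
        (Filter.mem_of_superset (C.D.target_nhds _) fun z hz => hh.at_sec hz)
    exact h1.mul h2
  have hev : ∀ᶠ q in 𝓝 q0, G a (C.π q) * H (C.π q) =
      (P.k0 : ℂ)⁻¹ * ∑ i ∈ Finset.range P.k0, A i (C.pr0 (C.π q)) := by
    have h1 : ∀ᶠ q in 𝓝 q0, ∀ i ∈ Finset.range P.k0,
        C.τ^[i] q ∈ (C.D.ch (C.τ^[i] q0)).source := by
      rw [Filter.eventually_all_finset]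
      intro i _
      exact (C.τ.continuous.iterate i).continuousAt (C.D.source_nhds _)
    filter_upwards [h1] with q hq
    rw [hH, mul_left_comm, Finset.mul_sum]
    congr 1
    refine Finset.sum_congr rfl fun i hi => ?_
    have h2 : C.D.sec (C.τ^[i] q0) (C.pr0 (C.π q)) = C.τ^[i] q := by
      rw [← hpr i q]; exact C.D.sec_pr (hq i hi)
    simp only [A, h2, C.hx_π_iter]
    ring
  have hev2 : ∀ᶠ p in 𝓝 (C.π q0), G a p * H p =
      (P.k0 : ℂ)⁻¹ * ∑ i ∈ Finset.range P.k0, A i (C.pr0 p) := by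
    rw [← C.lh.map_nhds_eq q0, Filter.eventually_map]
    exact hev
  have ht : Tendsto (M.e a).symm (𝓝 (M.e a (C.π q0))) (𝓝 (C.π q0)) :=
    (M.e a).tendsto_symm hp
  have hev3 : (M.loc a fun q => G a q * H q) =ᶠ[𝓝 (M.e a (C.π q0))] fun z =>
      (P.k0 : ℂ)⁻¹ * ∑ i ∈ Finset.range P.k0, A i (M.loc a C.pr0 z) := ht.eventually hev2
  refine AnalyticAt.congr ?_ hev3.symm
  refine analyticAt_const.mul (Finset.analyticAt_fun_sum _ fun i _ => ?_)
  exact AnalyticAt.comp_of_eq (hA i) (C.pr0_an a q0 hp) (M.loc_e a _ hp)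

theorem hx_contAt {A : Atl n X} {G : A.ι → X → ℂ} (hG : A.IsGauge G) {s : X → ℂ} {a : A.ι}
    {p : X} (hp : p ∈ (A.e a).source)
    (h : ContinuousAt (A.loc a fun q => G a q * s q) (A.e a p)) :
    ContinuousAt (fun q => ‖s q‖) p := by
  have h1 : ContinuousAt (fun q => G a q * s q) p :=
    (ContinuousAt.comp h ((A.e a).continuousAt hp)).congr (A.api_rep a _ hp).symm
  have h2 : ContinuousAt (fun q => ‖G a q‖) p :=
    (Atl.continuousOn_norm_gauge hG a).continuousAt ((A.e a).open_source.mem_nhds hp)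
  refine (h1.norm.div h2 (norm_ne_zero_iff.2 (hG.ne a p hp))).congr ?_
  filter_upwards [(A.e a).open_source.mem_nhds hp] with q hq
  have := norm_ne_zero_iff.2 (hG.ne a q hq)
  simp only [Pi.div_apply, norm_mul]
  field_simp

/-- The trace of a square integrable holomorphic function on the cover. -/
theorem Cov.push {M : Model n X} {P : Pol M.toAtl} (C : Cov M P) {G : M.ι → X → ℂ}
    (hG : M.IsGauge G) {e : C.Y → ℂ} (he : C.Frame G e) {ψ : X → ℝ} (hψ : Continuous ψ)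
    {w : X → ℂ} (hw : w ∈ M.Sec G) {h : C.Y → ℂ} (hh : C.D.Hol h)
    (hi : Integrable (fun q => ‖w (C.π q) - h q * e q‖ ^ 2 * Real.exp (-ψ (C.π q)) *
      (‖C.Ω (C.π q)‖ ^ 2)⁻¹) C.D.μ) :
    ∃ H ∈ M.H0 G, P.k0 * M.N2 ψ (w - H) ≤
      ∫ q, ‖w (C.π q) - h q * e q‖ ^ 2 * Real.exp (-ψ (C.π q)) *
        (‖C.Ω (C.π q)‖ ^ 2)⁻¹ ∂C.D.μ := by
  classical
  obtain ⟨H0, hH0, hH0z⟩ := C.hx_trace fun q => h q * e q
  have han := C.hx_analytic he hh hH0
  set F : C.Y → ℝ := fun q => ‖w (C.π q) - h q * e q‖ ^ 2 * Real.exp (-ψ (C.π q)) *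
      (‖C.Ω (C.π q)‖ ^ 2)⁻¹ with hF
  have hF0 : ∀ q, 0 ≤ F q := fun q => by simp only [hF]; positivity
  have hkr : (0 : ℝ) < P.k0 := by exact_mod_cast P.k0_pos
  -- the measurable integrand on X
  have hO : IsOpen {p | C.Z p ≠ 0} := Atl.isOpen_ne_zero C.hG (Atl.H0_le_Sec C.hZ)
  let f : X → ℝ := fun p => ‖w p - H0 p‖ ^ 2 * Real.exp (-ψ p)
  have hf0 : ∀ p, 0 ≤ f p := fun p => by simp only [f]; positivity
  have hfc : ContinuousOn f {p | C.Z p ≠ 0} := by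
    intro p hp
    obtain ⟨a, ha⟩ := M.cover p
    have h1 : ContinuousAt (M.loc a fun q => G a q * w q) (M.e a p) :=
      (hw a).continuousOn.continuousAt ((M.e a).open_target.mem_nhds ((M.e a).map_source ha))
    have h2 := (han a p ha hp).continuousAt
    have h3 : ContinuousAt (M.loc a fun q => G a q * (w q - H0 q)) (M.e a p) := by
      refine (h1.sub h2).congr (Filter.Eventually.of_forall fun z => ?_)
      simp only [Atl.loc, Pi.sub_apply]
      ring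
    have h4 := hx_contAt hG ha h3
    exact ((h4.pow 2).mul (Real.continuous_exp.comp hψ.neg).continuousAt).continuousWithinAt
  let g : X → ℝ := {p | C.Z p ≠ 0}.piecewise f fun _ => 0
  have hgm : Measurable g :=
    ContinuousOn.measurable_piecewise hfc continuousOn_const hO.measurableSet
  have hgO : ∀ p, C.Z p ≠ 0 → g p = f p := fun p hp => Set.piecewise_eq_of_mem _ _ _ hp
  have hZπ : ∀ q, C.Z (C.π q) ≠ 0 := fun q => by
    have : C.π q ∈ range C.π := mem_range_self q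
    rw [C.range_π] at this
    exact this
  -- the average of F along the deck group
  have hτ : MeasurePreserving C.τ C.D.μ C.D.μ :=
    C.D.measurePreserving_of_pr C.τ fun q => by rw [C.hpr, C.hpr, C.π_τ]
  have hFi : ∀ i, Integrable (fun q => F (C.τ^[i] q)) C.D.μ := fun i =>
    (hτ.iterate i).integrable_comp_of_integrable hi
  have hFe : ∀ i, ∫ q, F (C.τ^[i] q) ∂C.D.μ = ∫ q, F q ∂C.D.μ := fun i => by
    have h1 := hτ.iterate i
    have h2 := integral_map (μ := C.D.μ) (φ := C.τ^[i]) (f := F) h1.measurable.aemeasurable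
      (by rw [h1.map_eq]; exact hi.aestronglyMeasurable)
    rw [← h2, h1.map_eq]
  have hAi : Integrable (fun q => (P.k0 : ℝ)⁻¹ * ∑ i ∈ Finset.range P.k0, F (C.τ^[i] q))
      C.D.μ := (integrable_finset_sum _ fun i _ => hFi i).const_mul _
  have hAe : ∫ q, (P.k0 : ℝ)⁻¹ * ∑ i ∈ Finset.range P.k0, F (C.τ^[i] q) ∂C.D.μ =
      ∫ q, F q ∂C.D.μ := by
    rw [integral_const_mul, integral_finset_sum _ fun i _ => hFi i]
    simp only [hFe, Finset.sum_const, Finset.card_range, nsmul_eq_mul]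
    field_simp
  have hkey : (P.k0 : ℝ≥0∞) * ∫⁻ p, ENNReal.ofReal (g p) ∂M.μ ≤
      ENNReal.ofReal (∫ q, F q ∂C.D.μ) := by
    rw [← C.lintegral_pull hgm.ennreal_ofReal, ← hAe,
      ofReal_integral_eq_lintegral_ofReal hAi (Filter.Eventually.of_forall fun q =>
        mul_nonneg (by positivity) (Finset.sum_nonneg fun i _ => hF0 _))]
    refine lintegral_mono fun q => ?_
    rw [hgO _ (hZπ q), ← ENNReal.ofReal_mul (hf0 _)]
    refine ENNReal.ofReal_le_ofReal ?_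
    have h1 := hx_jensen P.k0_pos (w (C.π q)) fun i => h (C.τ^[i] q) * e (C.τ^[i] q)
    rw [← hH0 q] at h1
    have h2 : (P.k0 : ℝ)⁻¹ * ∑ i ∈ Finset.range P.k0, F (C.τ^[i] q) =
        ((P.k0 : ℝ)⁻¹ * ∑ i ∈ Finset.range P.k0,
          ‖w (C.π q) - h (C.τ^[i] q) * e (C.τ^[i] q)‖ ^ 2) * Real.exp (-ψ (C.π q)) *
          (‖C.Ω (C.π q)‖ ^ 2)⁻¹ := by
      simp only [hF, C.hx_π_iter]
      rw [← Finset.sum_mul, ← Finset.sum_mul]
      ring
    rw [h2]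
    exact mul_le_mul_of_nonneg_right (mul_le_mul_of_nonneg_right h1 (Real.exp_pos _).le)
      (by positivity)
  have hk1 : (P.k0 : ℝ≥0∞) ≠ 0 := by exact_mod_cast P.k0_pos.ne'
  have hfin : ∫⁻ p, ENNReal.ofReal (g p) ∂M.μ ≠ ⊤ := by
    intro h1
    rw [h1, ENNReal.mul_top hk1] at hkey
    exact ENNReal.ofReal_ne_top (top_le_iff.1 hkey)
  -- square integrability of the trace
  have hL : ∫⁻ p, ENNReal.ofReal (‖H0 p‖ ^ 2) ∂M.μ < ⊤ := by
    obtain ⟨B, hB0, hB⟩ := Atl.exists_bound hG hw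
    obtain ⟨R, hR⟩ := isCompact_univ.bddAbove_image (Real.continuous_exp.comp hψ).continuousOn
    have hR' : ∀ p, Real.exp (ψ p) ≤ R := fun p => hR ⟨p, mem_univ _, rfl⟩
    have hle : ∀ p, ENNReal.ofReal (‖H0 p‖ ^ 2) ≤
        ENNReal.ofReal (2 * B ^ 2) + ENNReal.ofReal (2 * R) * ENNReal.ofReal (g p) := by
      intro p
      by_cases hp : C.Z p = 0
      · simp [hH0z p hp]
      · have hR0 : 0 ≤ R := (Real.exp_pos _).le.trans (hR' p)
        rw [hgO p hp, ← ENNReal.ofReal_mul (by positivity),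
          ← ENNReal.ofReal_add (by positivity) (mul_nonneg (by positivity) (hf0 p))]
        refine ENNReal.ofReal_le_ofReal ?_
        have h1 : ‖H0 p‖ ≤ ‖w p‖ + ‖w p - H0 p‖ := by
          have := norm_sub_le (w p) (w p - H0 p)
          simpa using this
        have h2 : ‖w p - H0 p‖ ^ 2 ≤ R * f p := by
          have h3 : ‖w p - H0 p‖ ^ 2 = Real.exp (ψ p) * f p := by
            simp only [f]
            rw [Real.exp_neg]
            field_simp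
          rw [h3]
          exact mul_le_mul_of_nonneg_right (hR' p) (hf0 p)
        have h4 : ‖H0 p‖ ^ 2 ≤ (B + ‖w p - H0 p‖) ^ 2 :=
          pow_le_pow_left₀ (norm_nonneg _) (h1.trans (by linarith [hB p])) 2
        nlinarith [sq_nonneg (B - ‖w p - H0 p‖)]
    refine (lintegral_mono hle).trans_lt ?_
    rw [lintegral_add_left measurable_const, lintegral_const,
      lintegral_const_mul _ hgm.ennreal_ofReal]
    exact ENNReal.add_lt_top.2 ⟨ENNReal.mul_lt_top ENNReal.ofReal_lt_top (measure_lt_top _ _),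
      ENNReal.mul_lt_top ENNReal.ofReal_lt_top hfin.lt_top⟩
  obtain ⟨H, hH, hHe⟩ := extendX M C.hG hG C.hZ C.Z_ne han hH0z hL
  refine ⟨H, hH, ?_⟩
  have hae : ∀ᵐ p ∂M.μ, C.Z p ≠ 0 := by
    rw [ae_iff]
    simpa using null_zero M C.hG C.hZ C.Z_ne
  have hN : M.N2 ψ (w - H) = ∫ p, g p ∂M.μ := by
    refine integral_congr_ae ?_
    filter_upwards [hae] with p hp
    rw [hgO p hp]
    simp only [f, Pi.sub_apply, hHe p hp]
  have hg0 : ∀ p, 0 ≤ g p := fun p => by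
    by_cases hp : C.Z p = 0
    · have : g p = 0 := Set.piecewise_eq_of_notMem _ _ _ (by simpa using hp)
      rw [this]
    · rw [hgO p hp]; exact hf0 p
  rw [hN, integral_eq_lintegral_of_nonneg_ae (Filter.Eventually.of_forall hg0)
    hgm.aestronglyMeasurable]
  have h5 := ENNReal.toReal_mono ENNReal.ofReal_ne_top hkey
  rw [ENNReal.toReal_mul, ENNReal.toReal_natCast,
    ENNReal.toReal_ofReal (integral_nonneg hF0)] at h5
  exact h5

theorem hormX (M : Model n X) (P : Pol M.toAtl) (m j : ℕ) {ψ : X → ℝ} (hψ : M.Sm ψ)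
    {w : X → ℂ} (hw : w ∈ M.Sec (M.k * (P.u ^ m * M.k⁻¹ ^ j))) {θ : X → ℝ} (hθ : Continuous θ)
    (hθ0 : ∀ p, 0 ≤ θ p) (hc : Ctl M (P.u ^ m * M.k⁻¹ ^ j) ψ w θ) :
    ∃ h ∈ M.H0 (M.k * (P.u ^ m * M.k⁻¹ ^ j)),
      M.N2 ψ (w - h) ≤ ∫ p, θ p * Real.exp (-ψ p) ∂M.μ := by
  obtain ⟨C⟩ := exists_cov M P
  have hFg : M.IsGauge (P.u ^ m * M.k⁻¹ ^ j) := (P.gauge.pow m).mul (M.k_gauge.inv.pow j)
  have hKg : M.IsGauge (M.k * (P.u ^ m * M.k⁻¹ ^ j)) := M.k_gauge.mul hFg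
  obtain ⟨e, he⟩ : ∃ e, C.Frame (P.u ^ m * M.k⁻¹ ^ j) e :=
    ⟨_, (C.frame_t.pow m).mul ((C.frame_k.inv M.k_gauge).pow j)⟩
  have he' := C.frame_k.mul he
  have hψc : Continuous ψ := hψ.continuous
  have hθ' : Continuous fun p => θ p * Real.exp (-ψ p) :=
    hθ.mul (Real.continuous_exp.comp hψc.neg)
  obtain ⟨hI, hE⟩ := C.integral_pull hθ' fun p => mul_nonneg (hθ0 p) (Real.exp_pos _).le
  have hexp : ∀ q, Real.exp (-(ψ (C.π q) - Real.log (‖e q‖ ^ 2))) =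
      Real.exp (-ψ (C.π q)) * ‖e q‖ ^ 2 := fun q => by
    have h1 : 0 < ‖e q‖ ^ 2 := pow_pos (norm_pos_iff.2 (he.ne q)) 2
    rw [neg_sub, sub_eq_neg_add, Real.exp_add, Real.exp_log h1]
  have hb : (fun q => θ (C.π q) / ‖C.Ω (C.π q) * e q‖ ^ 2 *
      Real.exp (-(ψ (C.π q) - Real.log (‖e q‖ ^ 2)))) =
      fun q => θ (C.π q) * Real.exp (-ψ (C.π q)) * (‖C.Ω (C.π q)‖ ^ 2)⁻¹ := by
    funext q
    have h1 := norm_ne_zero_iff.2 (he.ne q)
    have h2 := norm_ne_zero_iff.2 (C.Ω_ne q)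
    rw [hexp, norm_mul]
    field_simp
  obtain ⟨h, hh, hi, hle⟩ := RD.horm (D := C.D)
    (φ := fun q => ψ (C.π q) - Real.log (‖e q‖ ^ 2))
    (b := fun q => θ (C.π q) / ‖C.Ω (C.π q) * e q‖ ^ 2) C.ρ_sm C.ρ_cpt C.ρ_psh
    (he.smR hFg hψ) (fun q v => (he.ctl hFg hψ hw hc q v).1) (he'.sm hKg hw)
    (fun q => div_nonneg (hθ0 _) (by positivity)) (by rw [hb]; exact hI)
    (fun q v => (he.ctl hFg hψ hw hc q v).2)
  have hg : (fun q => ‖w (C.π q) / (C.Ω (C.π q) * e q) - h q‖ ^ 2 *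
      Real.exp (-(ψ (C.π q) - Real.log (‖e q‖ ^ 2)))) =
      fun q => ‖w (C.π q) - h q * (C.Ω (C.π q) * e q)‖ ^ 2 * Real.exp (-ψ (C.π q)) *
        (‖C.Ω (C.π q)‖ ^ 2)⁻¹ := by
    funext q
    have h1 := norm_ne_zero_iff.2 (he.ne q)
    have h2 := norm_ne_zero_iff.2 (C.Ω_ne q)
    have h3 : w (C.π q) / (C.Ω (C.π q) * e q) - h q =
        (w (C.π q) - h q * (C.Ω (C.π q) * e q)) / (C.Ω (C.π q) * e q) := by
      have := he.ne q
      have := C.Ω_ne q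
      field_simp
    rw [hexp, h3, norm_div, norm_mul]
    field_simp
  rw [hg] at hi
  rw [hg, hb, hE] at hle
  obtain ⟨H, hH, hN⟩ := C.push hKg he' hψc hw hh hi
  have hkr : (0 : ℝ) < P.k0 := by exact_mod_cast P.k0_pos
  exact ⟨H, hH, le_of_mul_le_mul_left (hN.trans hle) hkr⟩

theorem hormX0 (M : Model n X) (P : Pol M.toAtl) (m : ℕ) {ψ : X → ℝ} (hψ : M.Sm ψ)
    {w : X → ℂ} (hw : w ∈ M.Sec (M.k * P.u ^ m)) {θ : X → ℝ} (hθ : Continuous θ)
    (hθ0 : ∀ p, 0 ≤ θ p) (hc : Ctl M (P.u ^ m) ψ w θ) :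
    ∃ h ∈ M.H0 (M.k * P.u ^ m), M.N2 ψ (w - h) ≤ ∫ p, θ p * Real.exp (-ψ p) ∂M.μ := by
  have := hormX M P m 0 (w := w) (θ := θ) hψ (by simpa using hw) hθ hθ0 (by simpa using hc)
  simpa using this

end Vale.Agent.P271A
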