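import Vale.Agent.P271A.Fam

/-! P271A: lower bound of the minimal norm from moving good sets. -/

open MeasureTheory Filter Topology Set
open scoped ContDiff ENNReal ComplexConjugate

noncomputable section

namespace Vale.Agent.P271A

open Vale.Agent.P271

variable {n : ℕ} {X : Type} [TopologicalSpace X] [T2Space X] [CompactSpace X] [ConnectedSpace X]
  [MeasurableSpace X] [BorelSpace X]

theorem sca_floor {a a' e : ℝ} (he : 0 < e) (h : ⌊a / e⌋ = ⌊a' / e⌋) : |a - a'| ≤ e := by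
  have h1 := (Int.abs_sub_lt_one_of_floor_eq_floor h).le
  rwa [← sub_div, abs_div, abs_of_pos he, div_le_one he] at h1

theorem sca_mem {a e B : ℝ} (he : 0 < e) (h : |a| ≤ B) :
    ⌊a / e⌋ ∈ Finset.Icc (-(⌈B / e⌉₊ : ℤ)) ⌈B / e⌉₊ := by
  have h1 : |a / e| ≤ ⌈B / e⌉₊ := by
    rw [abs_div, abs_of_pos he]
    exact (div_le_div_of_nonneg_right h he.le).trans (Nat.le_ceil _)
  obtain ⟨h2, h3⟩ := abs_le.1 h1
  refine Finset.mem_Icc.2 ⟨Int.le_floor.2 (by simpa using h2), ?_⟩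
  have := (Int.floor_le (a / e)).trans h3
  exact_mod_cast this

/-- Pigeonhole principle for small balls. -/
theorem exists_ball {Z : Type} [MeasurableSpace Z] (ν : Measure Z) (N : ℕ) (R0 : ℝ) :
    ∃ C > (0 : ℝ), ∀ (y : Z → Fin N → ℂ) (y0 : Fin N → ℂ) (S : Set Z) (R ε : ℝ), 0 ≤ R → R ≤ R0 →
      0 < ε → ε ≤ 1 → (∀ p ∈ S, ‖y p - y0‖ ≤ R) → ∃ ξ, ‖ξ - y0‖ ≤ R ∧
        ν S ≤ ENNReal.ofReal (C / ε ^ (2 * N)) * ν (S ∩ {p | ‖y p - ξ‖ ≤ ε}) := by
  classical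
  refine ⟨(4 * |R0| + 3) ^ (2 * N), by positivity, fun y y0 S R ε h0 h1 hε hε1 hS => ?_⟩
  have he : 0 < ε / 2 := half_pos hε
  obtain ⟨K, hK⟩ : ∃ K : ℕ, K = ⌈|R0| / (ε / 2)⌉₊ := ⟨_, rfl⟩
  obtain ⟨κ, hκ⟩ : ∃ κ : Z → Fin N → ℤ × ℤ, κ = fun p j =>
    (⌊(y p j - y0 j).re / (ε / 2)⌋, ⌊(y p j - y0 j).im / (ε / 2)⌋) := ⟨_, rfl⟩
  obtain ⟨T, hT⟩ : ∃ T : Finset (Fin N → ℤ × ℤ), T = Fintype.piFinset fun _ =>
    Finset.Icc (-(K : ℤ)) K ×ˢ Finset.Icc (-(K : ℤ)) K := ⟨_, rfl⟩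
  have hmem : ∀ p ∈ S, κ p ∈ T := by
    intro p hp
    rw [hT, hκ, hK, Fintype.mem_piFinset]
    intro j
    have h2 : ‖y p j - y0 j‖ ≤ |R0| :=
      (norm_le_pi_norm (y p - y0) j).trans ((hS p hp).trans (h1.trans (le_abs_self _)))
    exact Finset.mem_product.2 ⟨sca_mem he ((Complex.abs_re_le_norm _).trans h2),
      sca_mem he ((Complex.abs_im_le_norm _).trans h2)⟩
  have hcard : (T.card : ℝ) ≤ (4 * |R0| + 3) ^ (2 * N) / ε ^ (2 * N) := by
    have h2 : (K : ℝ) ≤ |R0| / (ε / 2) + 1 := hK ▸ (Nat.ceil_lt_add_one (by positivity)).le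
    have h3 : (Finset.Icc (-(K : ℤ)) K).card = 2 * K + 1 := by
      rw [Int.card_Icc]
      omega
    rw [hT, Fintype.card_piFinset, Finset.prod_const, Finset.card_product, h3, Finset.card_univ,
      Fintype.card_fin, ← sq, ← pow_mul, ← div_pow]
    push_cast
    gcongr
    rw [le_div_iff₀ hε]
    have h4 : |R0| / (ε / 2) * ε = 2 * |R0| := by field_simp
    nlinarith [mul_le_mul_of_nonneg_right h2 hε.le]
  rcases S.eq_empty_or_nonempty with rfl | ⟨p1, hp1⟩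
  · exact ⟨y0, by simpa using h0, by simp⟩
  obtain ⟨k, -, hk⟩ := T.exists_max_image (fun k => ν (S ∩ {p | κ p = k})) ⟨_, hmem p1 hp1⟩
  have h2 : ν S ≤ ENNReal.ofReal ((4 * |R0| + 3) ^ (2 * N) / ε ^ (2 * N)) *
      ν (S ∩ {p | κ p = k}) := by
    calc ν S ≤ ν (⋃ k' ∈ T, S ∩ {p | κ p = k'}) :=
          measure_mono fun p hp => mem_iUnion₂.2 ⟨_, hmem p hp, hp, rfl⟩
      _ ≤ ∑ k' ∈ T, ν (S ∩ {p | κ p = k'}) := measure_biUnion_finset_le _ _
      _ ≤ T.card * ν (S ∩ {p | κ p = k}) := by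
          rw [← nsmul_eq_mul]
          exact Finset.sum_le_card_nsmul _ _ _ hk
      _ ≤ _ := by
          gcongr
          rw [← ENNReal.ofReal_natCast]
          exact ENNReal.ofReal_le_ofReal hcard
  rcases (S ∩ {p | κ p = k}).eq_empty_or_nonempty with h3 | ⟨q, hq, hqk⟩
  · rw [h3, measure_empty, mul_zero] at h2
    exact ⟨y0, by simpa using h0, h2.trans zero_le⟩
  refine ⟨y q, hS q hq, h2.trans ?_⟩
  gcongr with p
  intro hp
  have h4 : κ p = κ q := hp.trans hqk.symm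
  refine (pi_norm_le_iff_of_nonneg hε.le).2 fun j => ?_
  have h5 := congrFun h4 j
  rw [hκ] at h5
  have h6 := sca_floor he (congrArg Prod.fst h5)
  have h7 := sca_floor he (congrArg Prod.snd h5)
  rw [← Complex.sub_re, sub_sub_sub_cancel_right] at h6
  rw [← Complex.sub_im, sub_sub_sub_cancel_right] at h7
  exact (Complex.norm_le_abs_re_add_abs_im _).trans (by simp only [Pi.sub_apply]; linarith)

/-- The perturbed family of squared norms. -/
def scaQ {A : Atl n X} (P : Pol A) (i0 : Fin P.N) {I Λ : Type} [Fintype Λ] (f : I → X → ℂ)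
    (g : Λ → X → ℂ) (ξ : Fin P.N → ℂ) (c : I → Λ → ℂ) (o : Option I) : X → ℝ :=
  o.elim (fun p => ∑ i, ‖P.s i p - ξ i * P.s i0 p‖ ^ 2) fun i p => ‖f i p + ∑ l, c i l * g l p‖ ^ 2

theorem sca_sq {a a' : ℂ} {d B : ℝ} (h : ‖a - a'‖ ≤ d) (hd : d ≤ B) (ha : ‖a‖ ≤ B) :
    |‖a‖ ^ 2 - ‖a'‖ ^ 2| ≤ 3 * B * d := by
  have h1 := (abs_norm_sub_norm_le a a').trans h
  have h2 := (abs_le.1 h1).1
  rw [sq_sub_sq, abs_mul, abs_of_nonneg (by positivity)]
  exact mul_le_mul (by linarith) h1 (abs_nonneg _) (by linarith [norm_nonneg a])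

omit [T2Space X] [ConnectedSpace X] [MeasurableSpace X] [BorelSpace X] in
theorem sca_pert {A : Atl n X} (P : Pol A) (i0 : Fin P.N) {I Λ : Type} [Fintype I] [Fintype Λ]
    {J : ℕ} {f : I → X → ℂ} {g : Λ → X → ℂ} (hf : ∀ i, f i ∈ A.H0 (P.u ^ (J * P.k0)))
    (hg : ∀ l, g l ∈ A.H0 (P.u ^ (J * P.k0))) (ξ0 : Fin P.N → ℂ) {L : ℝ} (hL : 0 ≤ L) :
    ∃ K ≥ (0 : ℝ), ∀ δ : ℝ, 0 ≤ δ → δ ≤ 1 → ∀ ξ c, ‖ξ - ξ0‖ ≤ L * δ → (∀ i l, ‖c i l‖ ≤ δ) →
      ∀ o p, |scaQ P i0 f g ξ0 0 o p - scaQ P i0 f g ξ c o p| ≤ K * δ := by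
  choose Bf hf0 hf1 using fun i => Atl.exists_bound (P.gauge.pow _) (Atl.H0_le_Sec (hf i))
  choose Bg hg0 hg1 using fun l => Atl.exists_bound (P.gauge.pow _) (Atl.H0_le_Sec (hg l))
  have s1 : 0 ≤ ∑ i, Bf i := Finset.sum_nonneg fun i _ => hf0 i
  have s2 : 0 ≤ ∑ l, Bg l := Finset.sum_nonneg fun l _ => hg0 l
  have k1 : 0 ≤ P.N * (3 * (1 + ‖ξ0‖ + L) * L) := by positivity
  have k2 : 0 ≤ 3 * (∑ i, Bf i + ∑ l, Bg l) * ∑ l, Bg l := by positivity
  refine ⟨_, add_nonneg k1 k2, fun δ h0 h1 ξ c hξ hc o p => ?_⟩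
  cases o with
  | none =>
    refine le_trans ?_ (mul_le_mul_of_nonneg_right (le_add_of_nonneg_right k2) h0)
    simp only [scaQ, Option.elim_none]
    rw [← Finset.sum_sub_distrib]
    refine (Finset.abs_sum_le_sum_abs _ _).trans ((Finset.sum_le_card_nsmul _ _
      (3 * (1 + ‖ξ0‖ + L) * (L * δ)) fun i _ => sca_sq ?_ ?_ ?_).trans (le_of_eq ?_))
    · rw [sub_sub_sub_cancel_left, ← sub_mul, norm_mul]
      exact (mul_le_of_le_one_right (norm_nonneg _) (P.norm_s_le i0 p)).trans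
        ((norm_le_pi_norm (ξ - ξ0) i).trans hξ)
    · nlinarith [norm_nonneg ξ0]
    · refine (norm_sub_le _ _).trans ?_
      rw [norm_mul]
      have a1 := (mul_le_of_le_one_right (norm_nonneg (ξ0 i)) (P.norm_s_le i0 p)).trans
        (norm_le_pi_norm ξ0 i)
      linarith [P.norm_s_le i p]
    · simp only [Finset.card_univ, Fintype.card_fin, nsmul_eq_mul]
      ring
  | some i =>
    refine le_trans ?_ (mul_le_mul_of_nonneg_right (le_add_of_nonneg_left k1) h0)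
    simp only [scaQ, Option.elim_some, Pi.zero_apply, zero_mul, Finset.sum_const_zero, add_zero]
    refine (sca_sq (d := (∑ l, Bg l) * δ) (B := ∑ i, Bf i + ∑ l, Bg l) ?_ ?_ ?_).trans
      (le_of_eq (by ring))
    · rw [sub_add_cancel_left, norm_neg, Finset.sum_mul]
      refine (norm_sum_le _ _).trans (Finset.sum_le_sum fun l _ => ?_)
      rw [norm_mul, mul_comm]
      exact mul_le_mul (hg1 l p) (hc i l) (norm_nonneg _) (hg0 l)
    · nlinarith
    · linarith [hf1 i p, Finset.single_le_sum (fun i _ => hf0 i) (Finset.mem_univ i)]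

omit [T2Space X] [CompactSpace X] [ConnectedSpace X] [MeasurableSpace X] [BorelSpace X] in
theorem sca_SQ {A : Atl n X} (P : Pol A) (i0 : Fin P.N) {I Λ : Type} [Fintype Λ]
    {J : ℕ} {f : I → X → ℂ} {g : Λ → X → ℂ} (hf : ∀ i, f i ∈ A.H0 (P.u ^ (J * P.k0)))
    (hg : ∀ l, g l ∈ A.H0 (P.u ^ (J * P.k0))) (ξ : Fin P.N → ℂ) (c : I → Λ → ℂ) (o : Option I) :
    SQ P (o.elim 1 fun _ => J) (scaQ P i0 f g ξ c o) := by
  cases o with
  | none => exact sq_dist i0 ξ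
  | some i =>
    have h := sq_norm (Submodule.add_mem _ (hf i)
      (Submodule.sum_mem _ fun l (_ : l ∈ Finset.univ) => Submodule.smul_mem _ (c i l) (hg l)))
    simp only [Pi.add_apply, Finset.sum_apply, Pi.smul_apply, smul_eq_mul] at h
    exact h

omit [T2Space X] [ConnectedSpace X] [MeasurableSpace X] [BorelSpace X] in
theorem sca_lim {A : Atl n X} (P : Pol A) {x : X} {i0 : Fin P.N} (hx : P.s i0 x ≠ 0) {F : X → ℝ}
    (hF : Continuous F) {W B : ℝ}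
    (h : ∀ᶠ δ in 𝓝[>] (0 : ℝ), ∃ z, P.r x i0 z < δ ∧ F z ≤ Real.exp (W * δ) * B) : F x ≤ B := by
  by_contra hcon
  obtain ⟨w, h1, h2⟩ := exists_between (not_le.1 hcon)
  obtain ⟨δ2, h3, h4⟩ := P.exists_r_lt_subset hx (hF.continuousAt.eventually (lt_mem_nhds h2))
  have h5 : ContinuousAt (fun δ : ℝ => Real.exp (W * δ) * B) 0 := by fun_prop
  have h6 : ∀ᶠ δ in 𝓝[>] (0 : ℝ), Real.exp (W * δ) * B < w :=
    (h5.eventually (gt_mem_nhds (by simpa using h1))).filter_mono nhdsWithin_le_nhds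
  obtain ⟨δ, ⟨z, a1, a2⟩, a3, a4⟩ := (h.and (h6.and (Ioo_mem_nhdsGT h3))).exists
  exact lt_asymm (a2.trans_lt a3) (h4 z (a1.trans a4.2))

theorem sca_interp {A c c0 β t T : ℝ} (h0 : 0 < c0) (hA : c0 ≤ A) (hc : c0 ≤ c) (ht : 0 ≤ t)
    (hT : t < T) :
    c0 * Real.exp (β * t) ≤ A ^ (1 - t / T) * (c * Real.exp (β * T)) ^ (t / T) := by
  have hT0 : 0 < T := ht.trans_lt hT
  have hA0 : 0 < A := h0.trans_le hA
  have h1 : 0 ≤ 1 - t / T := sub_nonneg.2 ((div_le_one hT0).2 hT.le)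
  rw [Real.mul_rpow (h0.le.trans hc) (Real.exp_pos _).le, ← Real.exp_mul, ← mul_assoc,
    show β * T * (t / T) = β * t by field_simp]
  gcongr
  calc c0 = c0 ^ (1 - t / T) * c0 ^ (t / T) := by
        rw [← Real.rpow_add h0, sub_add_cancel, Real.rpow_one]
    _ ≤ _ := by gcongr

omit [T2Space X] [CompactSpace X] [ConnectedSpace X] in
/-- A point where all sections are small compared with their weighted norms. -/
theorem sca_point (M : Model n X) (P : Pol M.toAtl) {x : X} {i0 : Fin P.N}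
    {I Λ : Type} [Fintype I] [Fintype Λ] {J : ℕ} {f : I → X → ℂ} {g : Λ → X → ℂ}
    (hf : ∀ i, f i ∈ M.H0 (P.u ^ (J * P.k0))) (hg : ∀ l, g l ∈ M.H0 (P.u ^ (J * P.k0)))
    {V : I → ℝ} (hV : ∀ i, 0 ≤ V i) {η μ0 L : ℝ} (hμ : 0 < μ0) (hL : 0 ≤ L) :
    ∃ C > (0 : ℝ), ∀ (δ T w : ℝ) (c : I → Λ → ℂ), 0 < δ → δ ≤ 1 → δ ≤ η → 0 ≤ T →
      (∀ p, P.r x i0 p < δ → 1 ≤ L * ‖P.s i0 p‖) →
      ENNReal.ofReal (Real.exp w) ≤
        M.μ {p | P.r x i0 p < δ ∧ ∀ i, ‖f i p + ∑ l, c i l * g l p‖ ^ 2 ≤ (V i + δ) ^ T} →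
      ∃ ξ, ‖ξ - fun i => P.s i x / P.s i0 x‖ ≤ L * δ ∧ ∃ S, MeasurableSet S ∧
        Real.exp (w - P.N * μ0 * T) / C ≤ M.μ.real S ∧ ∀ z ∈ S, P.r x i0 z < δ ∧
          ∀ o, scaQ P i0 f g ξ c o z *
            Real.exp (T * o.elim μ0 fun i => -Real.log (V i + η)) ≤ P.N + 1 := by
  obtain ⟨C, hC, hb⟩ := exists_ball M.μ P.N L
  refine ⟨C, hC, fun δ T w c h0 h1 h2 hT hs hw => ?_⟩
  have hne : ∀ p, P.r x i0 p < δ → P.s i0 p ≠ 0 := fun p hp h => by
    have := hs p hp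
    rw [h, norm_zero, mul_zero] at this
    linarith
  obtain ⟨ξ, hξ, hm⟩ := hb (fun p i => P.s i p / P.s i0 p) (fun i => P.s i x / P.s i0 x)
    {p | P.r x i0 p < δ ∧ ∀ i, ‖f i p + ∑ l, c i l * g l p‖ ^ 2 ≤ (V i + δ) ^ T} (L * δ)
    (Real.exp (-(μ0 * T / 2))) (by positivity) (mul_le_of_le_one_right hL h1) (Real.exp_pos _)
    (Real.exp_le_one_iff.2 (neg_nonpos.2 (by positivity))) fun p hp => by
      refine (pi_norm_le_iff_of_nonneg (by positivity)).2 fun i => ?_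
      have a1 := (P.dist_term_le x i0 p i).trans hp.1.le
      have a2 : P.s i p - P.s i x / P.s i0 x * P.s i0 p =
          (P.s i p / P.s i0 p - P.s i x / P.s i0 x) * P.s i0 p := by
        rw [sub_mul, div_mul_cancel₀ _ (hne p hp.1)]
      rw [a2, norm_mul] at a1
      have a3 := mul_le_mul_of_nonneg_left (hs p hp.1)
        (norm_nonneg (P.s i p / P.s i0 p - P.s i x / P.s i0 x))
      have a4 := mul_le_mul_of_nonneg_left a1 hL
      simp only [Pi.sub_apply]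
      linarith
  refine ⟨ξ, hξ, {z | P.r x i0 z < δ ∧ ∀ o, scaQ P i0 f g ξ c o z *
    Real.exp (T * o.elim μ0 fun i => -Real.log (V i + η)) ≤ P.N + 1}, ?_, ?_, fun z hz => hz⟩
  · rw [ofPred_and, ofPred_forall]
    exact (isOpen_lt (P.continuous_r x i0) continuous_const).measurableSet.inter
      (MeasurableSet.iInter fun o => (isClosed_le ((sca_SQ P i0 hf hg ξ c o).sm.continuous.mul
        continuous_const) continuous_const).measurableSet)
  · have hm2 := hw.trans (hm.trans (mul_le_mul_right (measure_mono (t := {z | P.r x i0 z < δ ∧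
      ∀ o, scaQ P i0 f g ξ c o z *
        Real.exp (T * o.elim μ0 fun i => -Real.log (V i + η)) ≤ P.N + 1}) ?_) _))
    · rw [← ofReal_measureReal, ← ENNReal.ofReal_mul (by positivity),
        ENNReal.ofReal_le_ofReal_iff (by positivity), ← Real.exp_nat_mul, div_mul_eq_mul_div,
        le_div_iff₀ (Real.exp_pos _), ← Real.exp_add] at hm2
      rw [div_le_iff₀' hC]
      refine le_of_eq_of_le ?_ hm2
      congr 1
      push_cast
      ring
    · rintro p ⟨⟨a1, a2⟩, a3⟩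
      refine ⟨a1, fun o => ?_⟩
      cases o with
      | none =>
        simp only [scaQ, Option.elim_none]
        have a4 : ∀ i, ‖P.s i p - ξ i * P.s i0 p‖ ^ 2 ≤ Real.exp (-(T * μ0)) := by
          intro i
          have a5 : P.s i p - ξ i * P.s i0 p = (P.s i p / P.s i0 p - ξ i) * P.s i0 p := by
            rw [sub_mul, div_mul_cancel₀ _ (hne p a1)]
          have a6 : ‖P.s i p - ξ i * P.s i0 p‖ ≤ Real.exp (-(μ0 * T / 2)) := by
            rw [a5, norm_mul]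
            exact (mul_le_of_le_one_right (norm_nonneg _) (P.norm_s_le i0 p)).trans
              ((norm_le_pi_norm ((fun i => P.s i p / P.s i0 p) - ξ) i).trans a3)
          refine (pow_le_pow_left₀ (norm_nonneg _) a6 2).trans (le_of_eq ?_)
          rw [← Real.exp_nat_mul]
          congr 1
          push_cast
          ring
        have a7 := Finset.sum_le_card_nsmul Finset.univ _ _ fun i _ => a4 i
        rw [Finset.card_univ, Fintype.card_fin, nsmul_eq_mul, Real.exp_neg, ← div_eq_mul_inv,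
          le_div_iff₀ (Real.exp_pos _)] at a7
        linarith
      | some i =>
        simp only [scaQ, Option.elim_some]
        have a4 := hV i
        have a5 := (a2 i).trans (Real.rpow_le_rpow (by positivity) (add_le_add_right h2 _) hT)
        rw [Real.rpow_def_of_pos (by linarith), mul_comm] at a5
        rw [mul_neg, Real.exp_neg, ← div_eq_mul_inv]
        exact ((div_le_one (Real.exp_pos _)).2 a5).trans (le_add_of_nonneg_left (by positivity))

theorem sc_low (M : Model n X) (P : Pol M.toAtl) {x : X} {i0 : Fin P.N} (hx : P.s i0 x ≠ 0)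
    {I Λ : Type} [Fintype I] [Fintype Λ] (J : ℕ) (f : I → X → ℂ) (g : Λ → X → ℂ)
    (hf : ∀ i, f i ∈ M.H0 (P.u ^ (J * P.k0))) (hg : ∀ l, g l ∈ M.H0 (P.u ^ (J * P.k0)))
    {V : I → ℝ} (hV : ∀ i, 0 ≤ V i) {b : ℝ} (h : MGood M.μ.toOuterMeasure (P.r x i0) f g V b)
    {η μ0 : ℝ} (hη : 0 < η) (hμ : 0 < μ0) (N m : ℕ)
    (hm : N * ((1 + Fintype.card I * J) * P.k0) ≤ m) :
    ∃ c0 > (0 : ℝ), ∀ t : ℝ, 0 ≤ t → ∀ h ∈ M.H0 (M.k * P.u ^ m),
      c0 * Real.exp (-(b + P.N * μ0) * t) * ‖h x‖ ^ 2 ≤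
        M.N2 (famW N (fun o : Option I => o.elim (fun p => P.r x i0 p ^ 2) fun i p => ‖f i p‖ ^ 2)
          fun o => t * o.elim μ0 fun i => -Real.log (V i + η)) h := by
  have hG : M.IsGauge (M.k * P.u ^ m) := M.k_gauge.mul (P.gauge.pow m)
  have hx0 : 0 < ‖P.s i0 x‖ := norm_pos_iff.2 hx
  have hL : 0 ≤ 2 / ‖P.s i0 x‖ := by positivity
  obtain ⟨δ1, hδ1, hs⟩ := P.exists_r_lt_subset hx ((Atl.continuous_norm_of_mem (P.gauge.pow _)
    (Atl.H0_le_Sec (P.imm.mem i0))).continuousAt.eventually (lt_mem_nhds (half_lt_self hx0)))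
  obtain ⟨K, hK0, hK⟩ := sca_pert P i0 hf hg (fun i => P.s i x / P.s i0 x) hL
  obtain ⟨C, hC, hpt⟩ := sca_point M P (x := x) (i0 := i0) hf hg hV (η := η) hμ hL
  obtain ⟨Cs, hCs, hsup⟩ := sup_le M hG
  have hSQ := sca_SQ P i0 hf hg
  have hcont := fun ξ c α => (famW_sm N (hSQ ξ c) α).continuous
  have hnn := fun ξ c o => (hSQ ξ c o).nonneg
  obtain ⟨Ψ0, hΨ0⟩ := isCompact_univ.exists_bound_of_continuousOn
    (hcont (fun i => P.s i x / P.s i0 x) 0 0).continuousOn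
  obtain ⟨Ψ, hΨ⟩ : ∃ Ψ, Ψ = Ψ0 + N * (∑ o : Option I, Real.exp ((0 : Option I → ℝ) o)) * K :=
    ⟨_, rfl⟩
  obtain ⟨Ψ1, hΨ1⟩ : ∃ Ψ1, Ψ1 = N * ∑ _o : Option I, Real.log (1 + (P.N + 1)) := ⟨_, rfl⟩
  obtain ⟨D, hD⟩ : ∃ D : ℝ, D = Module.finrank ℂ (M.H0 (M.k * P.u ^ m)) := ⟨_, rfl⟩
  have hD0 : 0 ≤ D := hD ▸ Nat.cast_nonneg _
  have hA : 0 < Real.exp (-Ψ) / Cs := by positivity
  have hc1 : 0 < Real.exp (-Ψ1) / (C * (D + 1)) := by positivity
  have hQ : (fun o : Option I => o.elim (fun p => P.r x i0 p ^ 2) fun i p => ‖f i p‖ ^ 2) =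
      scaQ P i0 f g (fun i => P.s i x / P.s i0 x) 0 := by
    funext o p
    cases o <;> simp [scaQ, P.r_sq]
  refine ⟨_, lt_min hA hc1, fun t ht h' hh => ?_⟩
  rw [hQ]
  obtain ⟨a, ha⟩ : ∃ a : Option I → ℝ, a = fun o => o.elim μ0 fun i => -Real.log (V i + η) :=
    ⟨_, rfl⟩
  have ha' : ∀ o : Option I, (o.elim μ0 fun i => -Real.log (V i + η)) = a o := fun o => by rw [ha]
  simp only [ha'] at hpt ⊢
  refine sca_lim P hx (F := fun z => _ * ‖h' z‖ ^ 2) (continuous_const.mul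
    ((Atl.continuous_norm_of_mem hG (Atl.H0_le_Sec hh)).pow 2))
    (W := t + N * (∑ o, Real.exp (t * a o)) * K) ?_
  filter_upwards [Ioo_mem_nhdsGT hδ1, Ioo_mem_nhdsGT one_pos, Ioo_mem_nhdsGT hη,
    Ioo_mem_nhdsGT (show 0 < 1 / (t + 1) by positivity)] with δ d1 d2 d3 d4
  obtain ⟨T, hT, c, hc, hw⟩ := h δ d1.1
  have htT : t < T := by
    have a1 := one_div_lt_one_div_of_lt d4.1 d4.2
    rw [one_div_one_div] at a1
    linarith
  obtain ⟨ξ, hξ, S, hS, hμS, hz⟩ := hpt δ T _ c d1.1 d2.2.le d3.2.le (ht.trans htT.le)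
    (fun p hp => by
      have a1 : ‖P.s i0 x‖ / 2 < ‖P.s i0 p‖ := hs p (hp.trans d1.2)
      rw [div_mul_eq_mul_div, le_div_iff₀ hx0]
      linarith) hw
  have hpert := hK δ d1.1.le d2.2.le ξ c hξ hc
  obtain ⟨z, hzS, hmk⟩ := markov M hG (hcont ξ c fun o => T * a o) hS fun h0 => by
    rw [measureReal_def, h0, ENNReal.toReal_zero] at hμS
    exact absurd hμS (not_le.2 (by positivity))
  refine ⟨z, (hz z hzS).1, ?_⟩
  have hb := bern_fam M P N m (hSQ ξ c) (by simpa [Fintype.sum_option] using hm) 0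
    (fun o => T * a o) z (l := t / T) hA.le
    (B := Real.exp (-Ψ1) / (C * (D + 1)) * Real.exp (-(b + δ + P.N * μ0) * T)) (by positivity)
    (div_nonneg ht (ht.trans htT.le)) ((div_le_one (ht.trans_lt htT)).2 htT.le)
    (fun h hh => ?_) (fun h hh => ?_) h' hh
  · have e : (fun o => (1 - t / T) * (0 : Option I → ℝ) o + t / T * (T * a o)) =
        fun o => t * a o := by
      funext o
      have := (ht.trans_lt htT).ne'
      simp only [Pi.zero_apply]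
      field_simp
      ring
    rw [e] at hb
    have b1 := mul_le_mul_of_nonneg_right (sca_interp (β := -(b + δ + P.N * μ0)) (lt_min hA hc1)
      (min_le_left _ _) (min_le_right _ _) ht htT) (sq_nonneg ‖h' z‖)
    have b2 := N2_le_exp M hG (Atl.H0_le_Sec hh) (hcont _ 0 _) (hcont ξ c _)
      (famW_sub_le N (hnn _ 0) (hnn ξ c) (fun o => t * a o) hpert)
    have b3 := mul_le_mul_of_nonneg_left (b1.trans (hb.trans b2)) (Real.exp_pos (t * δ)).le
    rw [← mul_assoc (Real.exp _) (Real.exp _), ← Real.exp_add] at b3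
    refine le_of_eq_of_le ?_ (le_of_le_of_eq b3 (by congr 2; ring))
    rw [show -(b + P.N * μ0) * t = t * δ + -(b + δ + P.N * μ0) * t by ring, Real.exp_add]
    ring
  · have b1 := N2_le_exp M hG (Atl.H0_le_Sec hh) (hcont ξ c 0) (ψ' := fun _ => 0)
      continuous_const (c := Ψ) fun p => by
        have b2 := famW_sub_le N (hnn ξ c) (hnn _ 0) 0 (ε := K) (fun o p => by
          rw [abs_sub_comm]
          exact (hpert o p).trans (mul_le_of_le_one_right hK0 d2.2.le)) p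
        have b3 := (le_abs_self _).trans (hΨ0 p (mem_univ p))
        linarith
    rw [Real.exp_neg, div_mul_eq_mul_div, div_le_iff₀' hCs, inv_mul_le_iff₀ (Real.exp_pos _)]
    refine (hsup h hh z).trans ((mul_le_mul_of_nonneg_left b1 hCs.le).trans (le_of_eq ?_))
    ring
  · have b1 := hmk h hh
    have b2 : famW N (scaQ P i0 f g ξ c) (fun o => T * a o) z ≤ Ψ1 := by
      rw [hΨ1, famW]
      gcongr with o
      · have := hnn ξ c o z
        positivity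
      · exact (hz z hzS).2 o
    have b3 : ‖h z‖ ^ 2 * Real.exp (-Ψ1) * (Real.exp (-(b + δ) * T - P.N * μ0 * T) / C) ≤
        (D + 1) * M.N2 (famW N (scaQ P i0 f g ξ c) fun o => T * a o) h := by
      refine le_trans ?_ (b1.trans ?_)
      · gcongr
      · rw [← hD]
        exact mul_le_mul_of_nonneg_right (by linarith) (N2_nonneg M)
    rw [← div_le_iff₀' (by positivity)] at b3
    refine le_of_eq_of_le ?_ b3
    rw [show -(b + δ + P.N * μ0) * T = -(b + δ) * T - P.N * μ0 * T by ring]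
    field_simp

end Vale.Agent.P271A
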