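import Vale.Agent.P271A.SCa
import Vale.Agent.P271A.Crit

/-! P271A: additivity of the volume exponents. -/

open MeasureTheory Filter Topology Set
open scoped ContDiff ENNReal ComplexConjugate

noncomputable section

namespace Vale.Agent.P271A

open Vale.Agent.P271

theorem scb_pt {X I : Type} [Fintype I] (N : ℕ) {Q : I → X → ℝ} (hQ : ∀ i p, 0 ≤ Q i p)
    (γ : I → ℝ) (p : X) (i : I) {L : ℝ} (hL : Real.exp L ≤ Q i p * Real.exp (γ i)) :
    N * L ≤ famW N Q γ p := by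
  unfold famW
  refine mul_le_mul_of_nonneg_left ?_ (Nat.cast_nonneg N)
  have h0 : ∀ j, 0 ≤ Q j p * Real.exp (γ j) := fun j => mul_nonneg (hQ j p) (Real.exp_pos _).le
  have h1 : L ≤ Real.log (1 + Q i p * Real.exp (γ i)) :=
    (Real.le_log_iff_exp_le (by linarith [h0 i])).2 (by linarith)
  exact h1.trans (Finset.single_le_sum (f := fun j => Real.log (1 + Q j p * Real.exp (γ j)))
    (fun j _ => Real.log_nonneg (by linarith [h0 j])) (Finset.mem_univ i))

theorem scb_eta {I : Type} [Fintype I] (V V' : I → ℝ) {δ : ℝ} (hδ : 0 < δ) :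
    ∃ η > (0 : ℝ), ∀ i, (V i + η) * (V' i + η) < V i * V' i + δ := by
  have h1 : ∀ i, ∀ᶠ η in 𝓝 (0 : ℝ), (V i + η) * (V' i + η) < V i * V' i + δ := fun i => by
    have hc : Continuous fun η : ℝ => (V i + η) * (V' i + η) := by fun_prop
    exact hc.continuousAt.eventually (gt_mem_nhds (by simpa using hδ))
  have h2 : ∀ᶠ η in 𝓝[>] (0 : ℝ), ∀ i, (V i + η) * (V' i + η) < V i * V' i + δ :=
    (eventually_all.2 h1).filter_mono nhdsWithin_le_nhds
  obtain ⟨η, h3, h4⟩ := (h2.and self_mem_nhdsWithin).exists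
  exact ⟨η, h4, h3⟩

theorem scb_N {I : Type} [Fintype I] {κ : I → ℝ} (hκ : ∀ i, 0 < κ i) (β : ℝ) :
    ∃ N : ℕ, ∀ i, β ≤ N * κ i :=
  (eventually_all.2 fun i =>
    (tendsto_natCast_atTop_atTop.atTop_mul_const (hκ i)).eventually_ge_atTop β).exists

theorem scb_T {c D E δ : ℝ} (hc : 0 < c) (hδ : 0 < δ) :
    ∃ T : ℝ, 1 / δ ≤ T ∧ D * Real.exp (-T) + E * Real.exp (-(δ / 2 * T)) ≤ c := by
  have h1 : Tendsto (fun T : ℝ => Real.exp (-(δ / 2 * T))) atTop (𝓝 0) :=
    Real.tendsto_exp_neg_atTop_nhds_zero.comp (tendsto_id.const_mul_atTop (by linarith))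
  have h2 := (Real.tendsto_exp_neg_atTop_nhds_zero.const_mul D).add (h1.const_mul E)
  rw [mul_zero, mul_zero, add_zero] at h2
  obtain ⟨T, h3, h4⟩ := ((eventually_ge_atTop (1 / δ)).and (h2.eventually (ge_mem_nhds hc))).exists
  exact ⟨T, h3, h4⟩

theorem scb_half {c c' u v : ℝ} (hc : 0 < c) (hc' : 0 < c') :
    (c * Real.exp u) ^ (1 - 1 / 2 : ℝ) * (c' * Real.exp v) ^ (1 / 2 : ℝ) =
      Real.exp ((Real.log c + Real.log c') / 2) * Real.exp ((u + v) / 2) := by
  rw [Real.rpow_def_of_pos (by positivity), Real.rpow_def_of_pos (by positivity),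
    Real.log_mul hc.ne' (Real.exp_pos _).ne', Real.log_mul hc'.ne' (Real.exp_pos _).ne',
    Real.log_exp, Real.log_exp, ← Real.exp_add, ← Real.exp_add]
  congr 1
  ring

variable {n : ℕ} {X : Type} [TopologicalSpace X] [T2Space X] [CompactSpace X] [ConnectedSpace X]
  [MeasurableSpace X] [BorelSpace X]

omit [ConnectedSpace X] in
theorem scb_int (M : Model n X) {G : M.ι → X → ℂ} (hG : M.IsGauge G) {s : X → ℂ}
    (hs : s ∈ M.Sec G) {ψ : X → ℝ} (hψ : Continuous ψ) (h0 : ∀ p, 0 ≤ ψ p) {B K : ℝ}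
    (hB : ∀ p, ‖s p‖ ≤ B) {S : Set X} (hS : MeasurableSet S) (hK : ∀ p, p ∉ S → K ≤ ψ p) :
    M.N2 ψ s ≤ B ^ 2 * (M.μ.real S + Real.exp (-K) * M.μ.real univ) := by
  have i1 : Integrable (S.indicator fun _ => (1 : ℝ)) M.μ := (integrable_const _).indicator hS
  have i2 : Integrable (fun _ => Real.exp (-K)) M.μ := integrable_const _
  have e : ∫ p, B ^ 2 * (S.indicator (fun _ => (1 : ℝ)) p + Real.exp (-K)) ∂M.μ =
      B ^ 2 * (M.μ.real S + Real.exp (-K) * M.μ.real univ) := by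
    rw [integral_const_mul, integral_add i1 i2, integral_indicator_const _ hS, integral_const,
      smul_eq_mul, smul_eq_mul, mul_one, mul_comm (M.μ.real univ)]
  rw [← e]
  refine integral_mono (N2_integrable M hG hs hψ) ((i1.add i2).const_mul _) fun p => ?_
  refine mul_le_mul (pow_le_pow_left₀ (norm_nonneg _) (hB p) 2) ?_ (Real.exp_pos _).le
    (sq_nonneg _)
  by_cases hp : p ∈ S
  · rw [indicator_of_mem hp]
    have h1 : Real.exp (-ψ p) ≤ 1 := Real.exp_le_one_iff.2 (by linarith [h0 p])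
    linarith [Real.exp_pos (-K)]
  · rw [indicator_of_notMem hp, zero_add]
    exact Real.exp_le_exp.2 (by linarith [hK p hp])

theorem sc (M : Model n X) (P : Pol M.toAtl) (x : X) (i0 : Fin P.N) (hx : P.s i0 x ≠ 0)
    {I Λ : Type} [Fintype I] [Fintype Λ] (J : ℕ) (f : I → X → ℂ) (g : Λ → X → ℂ)
    (hf : ∀ i, f i ∈ M.H0 (P.u ^ (J * P.k0))) (hg : ∀ l, g l ∈ M.H0 (P.u ^ (J * P.k0)))
    {V V' : I → ℝ} (hV : ∀ i, 0 ≤ V i) (hV' : ∀ i, 0 ≤ V' i) {b b' : ℝ}
    (h : MGood M.μ.toOuterMeasure (P.r x i0) f g V b)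
    (h' : MGood M.μ.toOuterMeasure (P.r x i0) f g V' b') :
    Good M.μ.toOuterMeasure (P.r x i0) f (V * V') (b + b') := by
  intro δ hδ
  obtain ⟨η, hη, hηV⟩ := scb_eta V V' hδ
  have hp1 : ∀ i, 0 < V i + η := fun i => by linarith [hV i]
  have hp2 : ∀ i, 0 < V' i + η := fun i => by linarith [hV' i]
  have hp3 : ∀ i, 0 < V i * V' i + δ := fun i => (mul_pos (hp1 i) (hp2 i)).trans (hηV i)
  obtain ⟨μ0, hμ, hμδ⟩ : ∃ μ0 > (0 : ℝ), 2 * (P.N * μ0) ≤ δ / 2 := by
    refine ⟨δ / (4 * (P.N + 1)), by positivity, ?_⟩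
    rw [← mul_div_assoc, ← mul_div_assoc, div_le_div_iff₀ (by positivity) (by positivity)]
    nlinarith
  obtain ⟨β, hβ⟩ : ∃ β, β = b + b' + 2 * (P.N * μ0) := ⟨_, rfl⟩
  obtain ⟨κ, hκ⟩ : ∃ κ : Option I → ℝ, κ = fun o => o.elim (2 * μ0) fun i =>
    Real.log (V i * V' i + δ) - Real.log (V i + η) - Real.log (V' i + η) := ⟨_, rfl⟩
  have hκ0 : ∀ o, 0 < κ o := by
    rintro (_ | i)
    · simp only [hκ, Option.elim]
      linarith
    · simp only [hκ, Option.elim]
      have h1 := Real.log_lt_log (mul_pos (hp1 i) (hp2 i)) (hηV i)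
      rw [Real.log_mul (hp1 i).ne' (hp2 i).ne'] at h1
      linarith
  obtain ⟨N, hN⟩ := scb_N hκ0 (β + 1)
  obtain ⟨m, hm1, hm2⟩ : ∃ m, N * ((1 + Fintype.card I * J) * P.k0) ≤ m ∧
      (n + 1) * P.k0 + 1 ≤ m := ⟨_, Nat.le_add_right _ _, Nat.le_add_left _ _⟩
  obtain ⟨c, hc, H⟩ := sc_low M P hx J f g hf hg hV h hη hμ N m hm1
  obtain ⟨c', hc', H'⟩ := sc_low M P hx J f g hf hg hV' h' hη hμ N m hm1
  obtain ⟨s, hs, hsx⟩ := peak0 M P hm2 x
  have hG : M.IsGauge (M.k * P.u ^ m) := M.k_gauge.mul (P.gauge.pow m)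
  obtain ⟨B, -, hB⟩ := Atl.exists_bound hG (Atl.H0_le_Sec hs)
  have hsx' : 0 < ‖s x‖ := norm_pos_iff.2 hsx
  have hB0 : 0 < B := hsx'.trans_le (hB x)
  obtain ⟨Q, hQ⟩ : ∃ Q : Option I → X → ℝ, Q = fun o : Option I =>
    o.elim (fun p => P.r x i0 p ^ 2) fun i p => ‖f i p‖ ^ 2 := ⟨_, rfl⟩
  rw [← hQ] at H H'
  have hSQ : ∀ o : Option I, SQ P (o.elim 1 fun _ => J) (Q o) := by
    rintro (_ | i)
    · have e : Q none = fun p => ∑ i, ‖P.s i p - P.s i x / P.s i0 x * P.s i0 p‖ ^ 2 := by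
        funext p
        rw [hQ]
        exact P.r_sq x i0 p
      rw [e]
      exact sq_dist i0 fun i => P.s i x / P.s i0 x
    · rw [hQ]
      exact sq_norm (hf i)
  have hQ0 : ∀ o p, 0 ≤ Q o p := fun o p => (hSQ o).nonneg p
  have hm3 : N * ((∑ o : Option I, o.elim 1 fun _ => J) * P.k0) ≤ m := by
    rw [Fintype.sum_option]
    simpa using hm1
  obtain ⟨T, hT, hTc⟩ := scb_T (D := B ^ 2 * (Real.exp (N * |Real.log (δ ^ 2)|) * M.μ.real univ))
    (E := B ^ 2) (c := Real.exp ((Real.log c + Real.log c') / 2) * ‖s x‖ ^ 2) (by positivity) hδ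
  have hT0 : 0 ≤ T := le_trans (by positivity) hT
  refine ⟨T, hT, ?_⟩
  have hb := bern_fam M P N m hSQ hm3 _ _ x (l := 1 / 2) (by positivity) (by positivity)
    (by norm_num) (by norm_num) (H (2 * T) (by positivity)) (H' (2 * T) (by positivity)) s hs
  rw [scb_half hc hc'] at hb
  obtain ⟨γ, hγ⟩ : ∃ γ : Option I → ℝ, γ = fun o => (1 - 1 / 2) *
      (2 * T * o.elim μ0 fun i => -Real.log (V i + η)) +
      1 / 2 * (2 * T * o.elim μ0 fun i => -Real.log (V' i + η)) := ⟨_, rfl⟩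
  rw [← hγ] at hb
  obtain ⟨S, hS⟩ : ∃ S, S = {p | P.r x i0 p < δ ∧ ∀ i, ‖f i p‖ ^ 2 ≤ ((V * V') i + δ) ^ T} :=
    ⟨_, rfl⟩
  have hSm : MeasurableSet S := by
    rw [hS, ofPred_and, ofPred_forall]
    refine (isOpen_lt (P.continuous_r x i0) continuous_const).measurableSet.inter
      (MeasurableSet.iInter fun i => (isClosed_le ?_ continuous_const).measurableSet)
    exact (Atl.continuous_norm_of_mem (P.gauge.pow _) (Atl.H0_le_Sec (hf i))).pow 2
  have hoff : ∀ p, p ∉ S → (β + 1) * T - N * |Real.log (δ ^ 2)| ≤ famW N Q γ p := by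
    intro p hp
    have hab : 0 ≤ (N : ℝ) * |Real.log (δ ^ 2)| := by positivity
    by_cases hr : P.r x i0 p < δ
    · obtain ⟨i, hi⟩ : ∃ i, (V i * V' i + δ) ^ T < ‖f i p‖ ^ 2 := by
        by_contra hcon
        push Not at hcon
        exact hp (hS ▸ ⟨hr, hcon⟩)
      have h1 : Real.exp (κ (some i) * T) ≤ Q (some i) p * Real.exp (γ (some i)) := by
        have e : κ (some i) * T = Real.log (V i * V' i + δ) * T + γ (some i) := by
          simp only [hκ, hγ, Option.elim]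
          ring
        rw [e, Real.exp_add, ← Real.rpow_def_of_pos (hp3 i), hQ]
        exact mul_le_mul_of_nonneg_right hi.le (Real.exp_pos _).le
      have h2 := scb_pt N hQ0 γ p (some i) h1
      have h3 := mul_le_mul_of_nonneg_right (hN (some i)) hT0
      linarith
    · have h1 : Real.exp (Real.log (δ ^ 2) + κ none * T) ≤ Q none p * Real.exp (γ none) := by
        have e : κ none * T = γ none := by
          simp only [hκ, hγ, Option.elim]
          ring
        rw [e, Real.exp_add, Real.exp_log (by positivity), hQ]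
        exact mul_le_mul_of_nonneg_right (pow_le_pow_left₀ hδ.le (not_lt.1 hr) 2)
          (Real.exp_pos _).le
      have h2 := scb_pt N hQ0 γ p none h1
      have h3 := mul_le_mul_of_nonneg_right (hN none) hT0
      have h4 := mul_le_mul_of_nonneg_left (neg_abs_le (Real.log (δ ^ 2))) (Nat.cast_nonneg (α := ℝ) N)
      linarith
  have hI := hb.trans (scb_int M hG (Atl.H0_le_Sec hs) (famW_sm N hSQ γ).continuous
    (famW_nonneg N hQ0 γ) hB hSm hoff)
  have e1 : Real.exp ((-(b + P.N * μ0) * (2 * T) + -(b' + P.N * μ0) * (2 * T)) / 2) =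
      Real.exp (-(β * T)) := by
    congr 1
    rw [hβ]
    ring
  have e2 : Real.exp (-((β + 1) * T - N * |Real.log (δ ^ 2)|)) =
      Real.exp (N * |Real.log (δ ^ 2)|) * Real.exp (-T) * Real.exp (-(β * T)) := by
    rw [← Real.exp_add, ← Real.exp_add]
    congr 1
    ring
  rw [e1, e2] at hI
  have h5 := mul_le_mul_of_nonneg_right hTc (Real.exp_pos (-(β * T))).le
  have h6 : B ^ 2 * (Real.exp (-(δ / 2 * T)) * Real.exp (-(β * T))) ≤ B ^ 2 * M.μ.real S := by
    linarith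
  have h7 := le_of_mul_le_mul_left h6 (by positivity)
  have h8 : Real.exp (-(b + b' + δ) * T) ≤ Real.exp (-(δ / 2 * T)) * Real.exp (-(β * T)) := by
    rw [← Real.exp_add]
    refine Real.exp_le_exp.2 ?_
    have h9 := mul_le_mul_of_nonneg_right hμδ hT0
    rw [hβ]
    linarith
  rw [← hS]
  exact ENNReal.ofReal_le_of_le_toReal (h8.trans h7)

end Vale.Agent.P271A
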