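import Vale.Agent.P271A.Brid
import Vale.Agent.P271.Dist

/-! P271A: curvature of the weights. -/

open MeasureTheory Filter Topology Set
open scoped ContDiff ENNReal ComplexConjugate

noncomputable section

namespace Vale.Agent.P271A

open Vale.Agent.P271

variable {n : ℕ} {X : Type} [TopologicalSpace X] {A : Atl n X} (P : Pol A)
  {ψ ψ' : X → ℝ} {a : A.ι} {p : X} {ξ : Cn n}

theorem sm_const (c : ℝ) : A.Sm fun _ => c := by
  exact fun _ => contDiffOn_const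

theorem sm_add (h : A.Sm ψ) (h' : A.Sm ψ') : A.Sm fun q => ψ q + ψ' q := by
  exact fun a => (h a).add (h' a)

theorem sm_mul (h : A.Sm ψ) (h' : A.Sm ψ') : A.Sm fun q => ψ q * ψ' q := by
  exact fun a => (h a).mul (h' a)

theorem sm_sum {ι : Type*} (s : Finset ι) {H : ι → X → ℝ} (h : ∀ i ∈ s, A.Sm (H i)) :
    A.Sm fun q => ∑ i ∈ s, H i q := by
  exact fun a => ContDiffOn.sum (f := fun i => A.loc a (H i)) fun i hi => h i hi a

theorem sm_comp (h : A.Sm ψ) {χ : ℝ → ℝ} (hχ : ∀ q, ContDiffAt ℝ ∞ χ (ψ q)) :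
    A.Sm fun q => χ (ψ q) := by
  exact fun a z hz => ContDiffAt.comp_contDiffWithinAt (g := χ) (f := A.loc a ψ) z (hχ _) (h a z hz)

theorem sm_at {F : Type} [NormedAddCommGroup F] [NormedSpace ℝ F] {f : X → F} (h : A.Sm f)
    (hp : p ∈ (A.e a).source) : ContDiffAt ℝ ∞ (A.loc a f) (A.e a p) := by
  exact (h a).contDiffAt ((A.e a).open_target.mem_nhds ((A.e a).map_source hp))

theorem lg_at {u : A.ι → X → ℂ} (hu : A.IsGauge u) (hp : p ∈ (A.e a).source) :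
    ContDiffAt ℝ ∞ (A.loc a fun q => Real.log (‖u a q‖ ^ 2)) (A.e a p) := by
  have h1 : ContDiffAt ℝ ∞ (A.loc a fun q => ‖u a q‖ ^ 2) (A.e a p) :=
    (hu.sm a).contDiffAt ((A.e a).open_target.mem_nhds ((A.e a).map_source hp))
  refine h1.log ?_
  rw [A.loc_e a _ hp]
  exact pow_ne_zero _ (norm_ne_zero_iff.2 (hu.ne a p hp))

theorem ev_source (hp : p ∈ (A.e a).source) :
    ∀ᶠ z in 𝓝 (A.e a p), (A.e a).symm z ∈ (A.e a).source :=
  Filter.mem_of_superset ((A.e a).open_target.mem_nhds ((A.e a).map_source hp))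
    fun _ hz => (A.e a).map_target hz

theorem H0_at {u : A.ι → X → ℂ} {s : X → ℂ} (hs : s ∈ A.H0 u) (hp : p ∈ (A.e a).source) :
    AnalyticAt ℂ (A.loc a fun q => u a q * s q) (A.e a p) := hs a _ ((A.e a).map_source hp)

theorem Lv_eq (h : A.Sm ψ) (l : ℝ) (hp : p ∈ (A.e a).source) :
    Lv P ψ l a p ξ = Lev (A.loc a ψ) (A.e a p) ξ +
      l * Lev (A.loc a fun q => Real.log (‖P.u a q‖ ^ 2)) (A.e a p) ξ := by
  rw [← Lev_const_mul (lg_at P.gauge hp),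
    ← Lev_add (sm_at h hp) (contDiffAt_const.mul (lg_at P.gauge hp))]
  rfl

theorem Lv_fs (hp : p ∈ (A.e a).source) : Lv P (fun _ => 0) 1 a p ξ =
    Lev (A.loc a fun q => Real.log (‖P.u a q‖ ^ 2)) (A.e a p) ξ := by
  rw [Lv_eq P (sm_const 0) 1 hp, one_mul]
  have : Lev (A.loc a fun _ => (0 : ℝ)) (A.e a p) ξ = 0 := Lev_const 0
  rw [this, zero_add]

theorem wt_at {u : A.ι → X → ℂ} (hu : A.IsGauge u) (h : A.Sm ψ) (hp : p ∈ (A.e a).source) :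
    ContDiffAt ℝ ∞ (A.wt u ψ a) (A.e a p) := by
  exact (sm_at h hp).add (lg_at hu hp)

theorem Lv_add (h : A.Sm ψ) (h' : A.Sm ψ') (l l' : ℝ) (hp : p ∈ (A.e a).source) :
    Lv P (fun q => ψ q + ψ' q) (l + l') a p ξ = Lv P ψ l a p ξ + Lv P ψ' l' a p ξ := by
  have : Lev (A.loc a fun q => ψ q + ψ' q) (A.e a p) ξ =
      Lev (A.loc a ψ) (A.e a p) ξ + Lev (A.loc a ψ') (A.e a p) ξ :=
    Lev_add (sm_at h hp) (sm_at h' hp)
  rw [Lv_eq P (sm_add h h') _ hp, Lv_eq P h _ hp, Lv_eq P h' _ hp, this]; ring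

theorem Lv_const_mul (h : A.Sm ψ) (c l : ℝ) (hp : p ∈ (A.e a).source) :
    Lv P (fun q => c * ψ q) (c * l) a p ξ = c * Lv P ψ l a p ξ := by
  have : Lev (A.loc a fun q => c * ψ q) (A.e a p) ξ = c * Lev (A.loc a ψ) (A.e a p) ξ :=
    Lev_const_mul (sm_at h hp) c
  rw [Lv_eq P (sm_mul (sm_const c) h) _ hp, Lv_eq P h _ hp, this]; ring

theorem Lv_sum {ι : Type*} (s : Finset ι) {H : ι → X → ℝ} (h : ∀ i ∈ s, A.Sm (H i)) (l : ι → ℝ)
    (hp : p ∈ (A.e a).source) :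
    Lv P (fun q => ∑ i ∈ s, H i q) (∑ i ∈ s, l i) a p ξ = ∑ i ∈ s, Lv P (H i) (l i) a p ξ := by
  have : Lev (A.loc a fun q => ∑ i ∈ s, H i q) (A.e a p) ξ =
      ∑ i ∈ s, Lev (A.loc a (H i)) (A.e a p) ξ :=
    Lev_sum (H := fun i => A.loc a (H i)) s fun i hi => sm_at (h i hi) hp
  rw [Lv_eq P (sm_sum s h) _ hp, this, Finset.sum_mul, ← Finset.sum_add_distrib]
  exact Finset.sum_congr rfl fun i hi => (Lv_eq P (h i hi) _ hp).symm

/-- Splitting off a multiple of the Fubini-Study form. -/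
theorem Lv_split (h : A.Sm ψ) (l l' : ℝ) (hp : p ∈ (A.e a).source) :
    Lv P ψ (l + l') a p ξ = Lv P ψ l a p ξ + l' * Lv P (fun _ => 0) 1 a p ξ := by
  rw [Lv_eq P h _ hp, Lv_eq P h _ hp, Lv_fs P hp]; ring

theorem lagrange {ι : Type} [Fintype ι] (S T : ι → ℂ) :
    (∑ i, ‖S i‖ ^ 2) * (∑ i, ‖T i‖ ^ 2) - ‖∑ i, conj (S i) * T i‖ ^ 2 =
      (∑ i, ∑ j, ‖S i * T j - S j * T i‖ ^ 2) / 2 := by
  have e1 : ‖∑ i, conj (S i) * T i‖ ^ 2 =
      ∑ i, ∑ j, (conj (S i) * T i * conj (conj (S j) * T j)).re := by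
    rw [← Complex.normSq_eq_norm_sq, ← Complex.ofReal_re (Complex.normSq _),
      ← Complex.mul_conj, map_sum, Finset.sum_mul_sum, Complex.re_sum]
    simp only [Complex.re_sum]
  have e2 : ∀ i j, ‖S i * T j - S j * T i‖ ^ 2 = ‖S i‖ ^ 2 * ‖T j‖ ^ 2 + ‖S j‖ ^ 2 * ‖T i‖ ^ 2 -
      2 * (conj (S i) * T i * conj (conj (S j) * T j)).re := by
    intro i j
    simp only [← Complex.normSq_eq_norm_sq, Complex.normSq_apply, map_mul, Complex.conj_conj,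
      Complex.sub_re, Complex.sub_im, Complex.mul_re, Complex.mul_im, Complex.conj_re,
      Complex.conj_im]
    ring
  have e3 : ∑ i, ∑ j, ‖S j‖ ^ 2 * ‖T i‖ ^ 2 = ∑ i, ∑ j, ‖S i‖ ^ 2 * ‖T j‖ ^ 2 := Finset.sum_comm
  simp only [e2, Finset.sum_sub_distrib, Finset.sum_add_distrib]
  rw [e3, e1, Finset.sum_mul_sum]
  simp only [← Finset.mul_sum]
  ring

theorem cs_fin {ι : Type} [Fintype ι] (S T : ι → ℂ) :
    ‖∑ i, conj (S i) * T i‖ ^ 2 ≤ (∑ i, ‖S i‖ ^ 2) * ∑ i, ‖T i‖ ^ 2 := by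
  have h : 0 ≤ (∑ i, ∑ j, ‖S i * T j - S j * T i‖ ^ 2) / 2 := by positivity
  linarith [lagrange S T]

/-- First and second derivatives of a sum of squares of holomorphic functions. -/
theorem sumsq {ι : Type} [Fintype ι] {S : ι → Cn n → ℂ} {z : Cn n} (hS : ∀ i, AnalyticAt ℂ (S i) z)
    (ξ : Cn n) : ContDiffAt ℝ ∞ (fun w => ∑ i, ‖S i w‖ ^ 2) z ∧
      Lev (fun w => ∑ i, ‖S i w‖ ^ 2) z ξ = ∑ i, ‖fderiv ℂ (S i) z ξ‖ ^ 2 ∧
      dz ξ (fun w => ((∑ i, ‖S i w‖ ^ 2 : ℝ) : ℂ)) z = ∑ i, conj (S i z) * fderiv ℂ (S i) z ξ := by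
  refine ⟨ContDiffAt.sum fun i _ => contDiffAt_normSq (hS i), ?_, ?_⟩
  · rw [Lev_sum (H := fun i w => ‖S i w‖ ^ 2) _ fun i _ => contDiffAt_normSq (hS i)]
    exact Finset.sum_congr rfl fun i _ => Lev_normSq (hS i)
  · simp only [Complex.ofReal_sum]
    rw [dz_sum (H := fun i w => ((‖S i w‖ ^ 2 : ℝ) : ℂ)) _ fun i _ =>
      (Complex.ofRealCLM.contDiff.contDiffAt.comp _
        (contDiffAt_normSq (hS i))).differentiableAt (by simp)]
    exact Finset.sum_congr rfl fun i _ => dz_normSq (hS i).differentiableAt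

theorem Lv_fs_eq (hp : p ∈ (A.e a).source) : ∃ c > (0 : ℝ), Lv P (fun _ => 0) 1 a p ξ =
    c * ∑ i, ∑ j, ‖A.loc a (fun q => (P.u ^ P.k0) a q * P.s i q) (A.e a p) *
        fderiv ℂ (A.loc a fun q => (P.u ^ P.k0) a q * P.s j q) (A.e a p) ξ -
      A.loc a (fun q => (P.u ^ P.k0) a q * P.s j q) (A.e a p) *
        fderiv ℂ (A.loc a fun q => (P.u ^ P.k0) a q * P.s i q) (A.e a p) ξ‖ ^ 2 := by
  set S : Fin P.N → Cn n → ℂ := fun i => A.loc a fun q => (P.u ^ P.k0) a q * P.s i q with hS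
  obtain ⟨h1, h2, h3⟩ := sumsq (S := S) (fun i => H0_at (P.imm.mem i) hp) ξ
  have hk : (0 : ℝ) < P.k0 := by exact_mod_cast P.k0_pos
  have e0 : ∀ z, ∑ i, ‖S i z‖ ^ 2 = (‖P.u a ((A.e a).symm z)‖ ^ 2) ^ P.k0 := by
    intro z
    simp only [hS, Atl.loc, Pi.pow_apply, norm_mul, norm_pow, mul_pow, ← Finset.mul_sum, P.norm]
    ring
  have e1 : (A.loc a fun q => Real.log (‖P.u a q‖ ^ 2)) =
      fun z => (P.k0 : ℝ)⁻¹ * Real.log (∑ i, ‖S i z‖ ^ 2) := by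
    funext z
    rw [e0, Real.log_pow]
    simp only [Atl.loc]
    field_simp
  have hpos : 0 < ∑ i, ‖S i (A.e a p)‖ ^ 2 := by
    rw [e0, (A.e a).left_inv hp]
    have := norm_pos_iff.2 (P.gauge.ne a p hp)
    positivity
  refine ⟨(P.k0 : ℝ)⁻¹ / (2 * (∑ i, ‖S i (A.e a p)‖ ^ 2) ^ 2), by positivity, ?_⟩
  rw [Lv_fs P hp, e1, Lev_const_mul (h1.log hpos.ne'), Lev_log h1 hpos, h2, h3]
  have := lagrange (fun i => S i (A.e a p)) fun i => fderiv ℂ (S i) (A.e a p) ξ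
  change _ = _ * ∑ i, ∑ j, ‖S i (A.e a p) * fderiv ℂ (S j) (A.e a p) ξ -
    S j (A.e a p) * fderiv ℂ (S i) (A.e a p) ξ‖ ^ 2
  field_simp
  linarith

theorem Lv_fs_pos (hp : p ∈ (A.e a).source) (hξ : ξ ≠ 0) : 0 < Lv P (fun _ => 0) 1 a p ξ := by
  obtain ⟨c, hc, e⟩ := Lv_fs_eq P (ξ := ξ) hp
  obtain ⟨i, j, hij⟩ := P.imm.imm a _ ((A.e a).map_source hp) ξ hξ
  rw [e]
  refine mul_pos hc (Finset.sum_pos' (fun _ _ => by positivity) ⟨i, Finset.mem_univ _,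
    Finset.sum_pos' (fun _ _ => by positivity) ⟨j, Finset.mem_univ _, ?_⟩⟩)
  exact pow_pos (norm_pos_iff.2 (sub_ne_zero.2 hij)) 2

theorem Lv_fs_nonneg (hp : p ∈ (A.e a).source) : 0 ≤ Lv P (fun _ => 0) 1 a p ξ := by
  obtain ⟨c, hc, e⟩ := Lv_fs_eq P (ξ := ξ) hp
  rw [e]
  positivity

theorem wt_pow (m : ℕ) : Lev (A.wt (P.u ^ m) ψ a) (A.e a p) ξ = Lv P ψ m a p ξ := by
  have : A.wt (P.u ^ m) ψ a = A.loc a fun q => ψ q + m * Real.log (‖P.u a q‖ ^ 2) := by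
    funext z
    simp only [Atl.wt, Atl.loc, Pi.pow_apply, norm_pow]
    rw [← pow_mul, mul_comm m 2, pow_mul, Real.log_pow]
  rw [this]; rfl

theorem wt_pow_mul {v : A.ι → X → ℂ} (hv : A.IsGauge v) (h : A.Sm ψ) (m m' : ℕ)
    (hp : p ∈ (A.e a).source) :
    Lev (A.wt (P.u ^ (m + m') * v) ψ a) (A.e a p) ξ =
      Lev (A.wt (P.u ^ m * v) (fun _ => 0) a) (A.e a p) ξ + Lv P ψ m' a p ξ := by
  have h1 := wt_at ((P.gauge.pow m).mul hv) (sm_const 0) hp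
  have h2 : ContDiffAt ℝ ∞ (A.loc a fun q => ψ q + m' * Real.log (‖P.u a q‖ ^ 2)) (A.e a p) :=
    (sm_at h hp).add (contDiffAt_const.mul (lg_at P.gauge hp))
  rw [Lv, ← Lev_add h1 h2]
  refine Lev_congr ((ev_source hp).mono fun z hz => ?_)
  have g1 := norm_ne_zero_iff.2 (P.gauge.ne a _ hz)
  have g2 := norm_ne_zero_iff.2 (hv.ne a _ hz)
  simp only [Atl.wt, Atl.loc, Pi.mul_apply, Pi.pow_apply, norm_mul, norm_pow]
  rw [Real.log_pow, Real.log_pow, Real.log_pow, Real.log_mul (by positivity) g2,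
    Real.log_mul (by positivity) g2, Real.log_pow, Real.log_pow]
  push_cast; ring

theorem Db_sum {ι : Type*} (s : Finset ι) {H : ι → X → ℝ} (h : ∀ i ∈ s, A.Sm (H i)) (c : ι → ℝ)
    (hp : p ∈ (A.e a).source) :
    Db A (fun q => ∑ i ∈ s, c i * H i q) a p ξ = ∑ i ∈ s, c i * Db A (H i) a p ξ := by
  have hd : ∀ i ∈ s, DifferentiableAt ℝ (A.loc a fun q => (H i q : ℂ)) (A.e a p) := fun i hi =>
    (Complex.ofRealCLM.contDiff.contDiffAt.comp _ (sm_at (h i hi) hp)).differentiableAt (by simp)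
  have e : (A.loc a fun q => ((∑ i ∈ s, c i * H i q : ℝ) : ℂ)) =
      fun z => ∑ i ∈ s, (c i : ℂ) * (A.loc a fun q => (H i q : ℂ)) z := by
    funext z; simp [Atl.loc]
  rw [Db, e, dzb_sum s fun i hi => (hd i hi).const_mul _]
  refine Finset.sum_congr rfl fun i hi => ?_
  rw [dzb_mul (differentiableAt_const _) (hd i hi), dzb_const]
  simp [Db]

variable {P} {J : ℕ} {Q : X → ℝ}

theorem SQ.sm (h : SQ P J Q) : A.Sm Q := by
  obtain ⟨L, f, hf, e⟩ := h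
  rw [show Q = fun p => ∑ l, ‖f l p‖ ^ 2 from funext e]
  exact sm_sum _ fun l _ => Atl.sm_normSq (P.gauge.pow _) (Atl.H0_le_Sec (hf l))

theorem SQ.nonneg (h : SQ P J Q) (p : X) : 0 ≤ Q p := by
  obtain ⟨L, f, hf, e⟩ := h
  rw [e]; positivity

theorem sq_norm {f : X → ℂ} (hf : f ∈ A.H0 (P.u ^ (J * P.k0))) : SQ P J fun p => ‖f p‖ ^ 2 := by
  exact ⟨1, fun _ => f, fun _ => hf, fun p => by simp⟩

theorem sq_dist (i0 : Fin P.N) (c : Fin P.N → ℂ) :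
    SQ P 1 fun p => ∑ i, ‖P.s i p - c i * P.s i0 p‖ ^ 2 := by
  refine ⟨P.N, fun i => P.s i - c i • P.s i0, fun i => ?_, fun p => by simp⟩
  rw [one_mul]
  exact Submodule.sub_mem _ (P.imm.mem i) (Submodule.smul_mem _ _ (P.imm.mem i0))

theorem SQ.sm_log (h : SQ P J Q) {η c : ℝ} (hη : 0 < η) (hc : 0 ≤ c) :
    A.Sm fun q => Real.log (η + Q q * c) := by
  refine sm_comp (χ := fun t => Real.log (η + t * c)) h.sm fun q => ?_
  have := h.nonneg q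
  exact (contDiffAt_const.add (contDiffAt_id.mul contDiffAt_const)).log (by positivity)

theorem scal1 {P q P2 q2 : ℝ} {P1 q1 : ℂ} (hP : 0 < P) (hq : 0 ≤ q) (h1 : ‖P1‖ ^ 2 ≤ P * P2)
    (h2 : ‖q1‖ ^ 2 ≤ q * q2) (hq2 : 0 ≤ q2) : ‖P1 + q1‖ ^ 2 ≤ (P2 + q2) * (P + q) := by
  have hP2 : 0 ≤ P2 := by
    by_contra hn
    have := mul_neg_of_pos_of_neg hP (not_le.1 hn)
    nlinarith [sq_nonneg ‖P1‖]
  have h3 : ‖P1 + q1‖ ^ 2 ≤ (‖P1‖ + ‖q1‖) ^ 2 := by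
    gcongr; exact norm_add_le _ _
  have h4 : (2 * (‖P1‖ * ‖q1‖)) ^ 2 ≤ (P * q2 + q * P2) ^ 2 := by
    have : ‖P1‖ ^ 2 * ‖q1‖ ^ 2 ≤ P * P2 * (q * q2) := by gcongr
    nlinarith [sq_nonneg (P * q2 - q * P2)]
  have h5 : 2 * (‖P1‖ * ‖q1‖) ≤ P * q2 + q * P2 :=
    (pow_le_pow_iff_left₀ (by positivity) (by positivity) two_ne_zero).1 h4
  nlinarith

theorem scal2 {P q P2 q2 : ℝ} {P1 q1 : ℂ} (hP : 0 < P) (hq : 0 ≤ q) (h1 : ‖P1‖ ^ 2 ≤ P * P2)
    (h2 : ‖q1‖ ^ 2 ≤ q * q2) :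
    ‖P * q1 - q * P1‖ ^ 2 ≤ P * q * ((P2 + q2) * (P + q) - ‖P1 + q1‖ ^ 2) := by
  have e : ‖P * q1 - q * P1‖ ^ 2 =
      (q * ‖P1‖ ^ 2 + P * ‖q1‖ ^ 2) * (P + q) - P * q * ‖P1 + q1‖ ^ 2 := by
    simp only [← Complex.normSq_eq_norm_sq, Complex.normSq_apply, Complex.sub_re, Complex.sub_im,
      Complex.mul_re, Complex.mul_im, Complex.add_re, Complex.add_im, Complex.ofReal_re,
      Complex.ofReal_im]
    ring
  have h3 : q * ‖P1‖ ^ 2 + P * ‖q1‖ ^ 2 ≤ q * (P * P2) + P * (q * q2) := by gcongr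
  have h4 := mul_le_mul_of_nonneg_right h3 (by positivity : 0 ≤ P + q)
  rw [e]; nlinarith

/-- The local data attached to a sum of squares. -/
theorem SQ.loc (h : SQ P J Q) {c : ℝ} (hc : 0 ≤ c) (hp : p ∈ (A.e a).source) (ξ : Cn n) :
    ∃ U q : Cn n → ℝ, ContDiffAt ℝ ∞ U (A.e a p) ∧ ContDiffAt ℝ ∞ q (A.e a p) ∧
      (∀ᶠ z in 𝓝 (A.e a p), 0 < U z ∧ q z = U z * (Q ((A.e a).symm z) * c) ∧
        Real.log (U z) = J * P.k0 * Real.log (‖P.u a ((A.e a).symm z)‖ ^ 2)) ∧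
      ‖dz ξ (fun w => (U w : ℂ)) (A.e a p)‖ ^ 2 ≤ U (A.e a p) * Lev U (A.e a p) ξ ∧
      ‖dz ξ (fun w => (q w : ℂ)) (A.e a p)‖ ^ 2 ≤ q (A.e a p) * Lev q (A.e a p) ξ ∧
      0 ≤ Lev q (A.e a p) ξ := by
  obtain ⟨L, f, hf, e⟩ := h
  set S : Fin L → Cn n → ℂ := fun l => A.loc a fun q => (P.u ^ (J * P.k0)) a q * f l q with hS
  obtain ⟨h1, h2, h3⟩ := sumsq (S := S) (fun l => H0_at (hf l) hp) ξ
  have hU : ContDiffAt ℝ ∞ (fun z => (‖P.u a ((A.e a).symm z)‖ ^ 2) ^ (J * P.k0)) (A.e a p) :=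
    ((P.gauge.sm a).contDiffAt
      ((A.e a).open_target.mem_nhds ((A.e a).map_source hp))).pow _
  have hev : ∀ᶠ z in 𝓝 (A.e a p), 0 < (‖P.u a ((A.e a).symm z)‖ ^ 2) ^ (J * P.k0) :=
    (ev_source hp).mono fun z hz => by
      have := norm_pos_iff.2 (P.gauge.ne a _ hz)
      positivity
  have hlog : ∀ z, Real.log ((‖P.u a ((A.e a).symm z)‖ ^ 2) ^ (J * P.k0)) =
      J * P.k0 * Real.log (‖P.u a ((A.e a).symm z)‖ ^ 2) := fun z => by
    rw [Real.log_pow]; push_cast; ring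
  have hd : DifferentiableAt ℝ (fun w => ((∑ i, ‖S i w‖ ^ 2 : ℝ) : ℂ)) (A.e a p) :=
    (Complex.ofRealCLM.contDiff.contDiffAt.comp _ h1).differentiableAt (by simp)
  have q1 : dz ξ (fun w => ((c * ∑ i, ‖S i w‖ ^ 2 : ℝ) : ℂ)) (A.e a p) =
      c * ∑ i, conj (S i (A.e a p)) * fderiv ℂ (S i) (A.e a p) ξ := by
    simp only [Complex.ofReal_mul]
    rw [dz_mul (differentiableAt_const _) hd, dz_const, h3]; simp
  have q2 : Lev (fun w => c * ∑ i, ‖S i w‖ ^ 2) (A.e a p) ξ =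
      c * ∑ i, ‖fderiv ℂ (S i) (A.e a p) ξ‖ ^ 2 := by rw [Lev_const_mul h1, h2]
  refine ⟨fun z => (‖P.u a ((A.e a).symm z)‖ ^ 2) ^ (J * P.k0), fun z => c * ∑ l, ‖S l z‖ ^ 2,
    hU, contDiffAt_const.mul h1, hev.mono fun z hz => ⟨hz, ?_, hlog z⟩, ?_, ?_, ?_⟩
  · simp only [hS, Atl.loc, e, Pi.pow_apply, norm_mul, norm_pow, mul_pow, ← Finset.mul_sum]
    ring
  · have h0 := hev.self_of_nhds
    have h4 := Lev_log (ξ := ξ) hU h0
    have h5 : Lev (fun z => Real.log ((‖P.u a ((A.e a).symm z)‖ ^ 2) ^ (J * P.k0))) (A.e a p) ξ =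
        J * P.k0 * Lv P (fun _ => 0) 1 a p ξ := by
      rw [Lv_fs P hp, ← Lev_const_mul (lg_at P.gauge hp)]
      simp only [hlog]; rfl
    have h6 : 0 ≤ (J * P.k0 : ℝ) * Lv P (fun _ => 0) 1 a p ξ :=
      mul_nonneg (by positivity) (Lv_fs_nonneg P hp)
    rw [← h5, h4, sub_nonneg, div_le_div_iff₀ (by positivity) h0] at h6
    exact le_of_mul_le_mul_right (h6.trans_eq (by ring)) h0
  · rw [q1, q2, norm_mul, mul_pow, Complex.norm_real, Real.norm_eq_abs, sq_abs]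
    have h8 := mul_le_mul_of_nonneg_left
      (cs_fin (fun i => S i (A.e a p)) fun i => fderiv ℂ (S i) (A.e a p) ξ) (sq_nonneg c)
    exact h8.trans_eq (by ring)
  · rw [q2]; positivity

theorem SQ.Lv_eq (h : SQ P J Q) {η c : ℝ} (hη : 0 < η) (hc : 0 ≤ c) {U q : Cn n → ℝ}
    (hU : ContDiffAt ℝ ∞ U (A.e a p)) (hq : ContDiffAt ℝ ∞ q (A.e a p))
    (hev : ∀ᶠ z in 𝓝 (A.e a p), 0 < U z ∧ q z = U z * (Q ((A.e a).symm z) * c) ∧
        Real.log (U z) = J * P.k0 * Real.log (‖P.u a ((A.e a).symm z)‖ ^ 2)) :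
    Lv P (fun q => Real.log (η + Q q * c)) (J * P.k0) a p ξ =
      ((η * Lev U (A.e a p) ξ + Lev q (A.e a p) ξ) * (η * U (A.e a p) + q (A.e a p)) -
        ‖η * dz ξ (fun w => (U w : ℂ)) (A.e a p) + dz ξ (fun w => (q w : ℂ)) (A.e a p)‖ ^ 2) /
        (η * U (A.e a p) + q (A.e a p)) ^ 2 := by
  have hpos : ∀ᶠ z in 𝓝 (A.e a p), 0 < η + Q ((A.e a).symm z) * c :=
    Eventually.of_forall fun z => by have := h.nonneg ((A.e a).symm z); positivity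
  have e1 : Lv P (fun q => Real.log (η + Q q * c)) (J * P.k0) a p ξ =
      Lev (fun z => Real.log (η * U z + q z)) (A.e a p) ξ := by
    refine Lev_congr ?_
    filter_upwards [hev, hpos] with z hz hz'
    simp only [Atl.loc]
    rw [hz.2.1, ← hz.2.2, ← Real.log_mul hz'.ne' hz.1.ne']
    congr 1; ring
  have h0 : 0 < η * U (A.e a p) + q (A.e a p) := by
    have h1 := hev.self_of_nhds
    have h2 := hpos.self_of_nhds
    rw [h1.2.1]; nlinarith [mul_pos h1.1 h2]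
  have dU : DifferentiableAt ℝ (fun w => (U w : ℂ)) (A.e a p) :=
    (Complex.ofRealCLM.contDiff.contDiffAt.comp _ hU).differentiableAt (by simp)
  have dq : DifferentiableAt ℝ (fun w => (q w : ℂ)) (A.e a p) :=
    (Complex.ofRealCLM.contDiff.contDiffAt.comp _ hq).differentiableAt (by simp)
  have e2 : dz ξ (fun w => ((η * U w + q w : ℝ) : ℂ)) (A.e a p) =
      η * dz ξ (fun w => (U w : ℂ)) (A.e a p) + dz ξ (fun w => (q w : ℂ)) (A.e a p) := by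
    simp only [Complex.ofReal_add, Complex.ofReal_mul]
    rw [dz_add (dU.const_mul _) dq, dz_mul (differentiableAt_const _) dU, dz_const]; simp
  rw [e1, Lev_log ((contDiffAt_const.mul hU).add hq) h0, Lev_add (contDiffAt_const.mul hU) hq,
    Lev_const_mul hU, e2]
  field_simp

theorem SQ.Lv_log (h : SQ P J Q) {η c : ℝ} (hη : 0 < η) (hc : 0 ≤ c)
    (hp : p ∈ (A.e a).source) :
    0 ≤ Lv P (fun q => Real.log (η + Q q * c)) (J * P.k0) a p ξ := by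
  obtain ⟨U, q, hU, hq, hev, h1, h2, h3⟩ := h.loc hc hp ξ
  have h0 := hev.self_of_nhds
  have hq0 : 0 ≤ q (A.e a p) := by
    rw [h0.2.1]; exact mul_nonneg h0.1.le (mul_nonneg (h.nonneg _) hc)
  rw [h.Lv_eq hη hc hU hq hev]
  refine div_nonneg (sub_nonneg.2 (scal1 (mul_pos hη h0.1) hq0 ?_ h2 h3)) (sq_nonneg _)
  rw [norm_mul, mul_pow, Complex.norm_real, Real.norm_eq_abs, sq_abs]
  nlinarith [mul_le_mul_of_nonneg_left h1 (sq_nonneg η)]

/-- Joint plurisubharmonicity in the parameter. -/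
theorem SQ.joint (h : SQ P J Q) {c : ℝ} (hc : 0 ≤ c) (hp : p ∈ (A.e a).source) :
    ‖Db A (fun q => Q q * c / (1 + Q q * c)) a p ξ‖ ^ 2 ≤
      Q p * c / (1 + Q p * c) ^ 2 *
        Lv P (fun q => Real.log (1 + Q q * c)) (J * P.k0) a p ξ := by
  obtain ⟨U, q, hU, hq, hev, h1, h2, h3⟩ := h.loc hc hp ξ
  have h0 := hev.self_of_nhds
  have hQ : 0 ≤ Q p * c := mul_nonneg (h.nonneg _) hc
  rw [(A.e a).left_inv hp] at h0
  have hq0 : 0 ≤ q (A.e a p) := by rw [h0.2.1]; exact mul_nonneg h0.1.le hQ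
  have hs : 0 < U (A.e a p) + q (A.e a p) := by linarith [h0.1]
  have dU : DifferentiableAt ℝ (fun w => (U w : ℂ)) (A.e a p) :=
    (Complex.ofRealCLM.contDiff.contDiffAt.comp _ hU).differentiableAt (by simp)
  have dq : DifferentiableAt ℝ (fun w => (q w : ℂ)) (A.e a p) :=
    (Complex.ofRealCLM.contDiff.contDiffAt.comp _ hq).differentiableAt (by simp)
  have dS : DifferentiableAt ℝ (fun w => U w + q w) (A.e a p) :=
    (hU.add hq).differentiableAt (by simp)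
  have dI : DifferentiableAt ℝ (fun w => (((U w + q w)⁻¹ : ℝ) : ℂ)) (A.e a p) :=
    Complex.ofRealCLM.differentiableAt.comp _ (dS.inv hs.ne')
  have e1 : (A.loc a fun q => ((Q q * c / (1 + Q q * c) : ℝ) : ℂ)) =ᶠ[𝓝 (A.e a p)]
      fun w => ((q w * (U w + q w)⁻¹ : ℝ) : ℂ) := by
    filter_upwards [hev] with z hz
    have h4 : 0 ≤ Q ((A.e a).symm z) * c := mul_nonneg (h.nonneg _) hc
    have h5 := hz.1
    simp only [Atl.loc]
    rw [hz.2.1]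
    congr 1
    field_simp
  have e2 : dz ξ (fun w => ((q w * (U w + q w)⁻¹ : ℝ) : ℂ)) (A.e a p) =
      (U (A.e a p) * dz ξ (fun w => (q w : ℂ)) (A.e a p) -
        q (A.e a p) * dz ξ (fun w => (U w : ℂ)) (A.e a p)) /
        ((U (A.e a p) + q (A.e a p)) ^ 2 : ℝ) := by
    simp only [Complex.ofReal_mul]
    rw [dz_mul dq dI, dz_comp (χ := fun t => t⁻¹) dS (hasDerivAt_inv hs.ne')]
    simp only [Complex.ofReal_add]
    rw [dz_add dU dq]
    have : (U (A.e a p) : ℂ) + q (A.e a p) ≠ 0 := by exact_mod_cast hs.ne'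
    push_cast
    field_simp
    ring
  have e3 := h.Lv_eq (ξ := ξ) one_pos hc hU hq hev
  simp only [one_mul, Complex.ofReal_one] at e3
  have h6 := scal2 h0.1 hq0 h1 h2
  rw [Db, dzb_congr e1, norm_dzb_real, e2, e3, norm_div, div_pow, Complex.norm_real,
    Real.norm_eq_abs, sq_abs]
  have e4 : Q p * c / (1 + Q p * c) ^ 2 =
      U (A.e a p) * q (A.e a p) / (U (A.e a p) + q (A.e a p)) ^ 2 := by
    have h5 := h0.1
    rw [h0.2.1]; field_simp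
  rw [e4, div_mul_div_comm, ← sq]
  exact div_le_div_of_nonneg_right h6 (by positivity)

/-- The curvature form in two charts. -/
theorem Lev_chart {u : A.ι → X → ℂ} (hu : A.IsGauge u) (h : A.Sm ψ) {b : A.ι}
    (ha : p ∈ (A.e a).source) (hb : p ∈ (A.e b).source) :
    Lev (A.wt u ψ a) (A.e a p) ξ =
      Lev (A.wt u ψ b) (A.e b p) (fderiv ℂ (A.tr a b) (A.e a p) ξ) := by
  have hz : A.e a p ∈ A.ov a b := ⟨(A.e a).map_source ha, by simpa [(A.e a).left_inv ha] using hb⟩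
  have ht : A.tr a b (A.e a p) = A.e b p := by simp [Atl.tr, (A.e a).left_inv ha]
  have hT := A.analyticOnNhd_tr a b _ hz
  have hg := hu.hol a b _ hz
  have hg0 : (A.loc a fun p => u a p / u b p) (A.e a p) ≠ 0 := by
    rw [A.loc_e a _ ha]; exact div_ne_zero (hu.ne a p ha) (hu.ne b p hb)
  have hw : ContDiffAt ℝ ∞ (A.wt u ψ b) (A.tr a b (A.e a p)) := ht ▸ wt_at hu h hb
  have hw' : ContDiffAt ℝ ∞ (fun z => A.wt u ψ b (A.tr a b z)) (A.e a p) :=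
    hw.comp _ ((hT.contDiffAt (n := ∞)).restrict_scalars ℝ)
  have hl : ContDiffAt ℝ ∞
      (fun z => Real.log (‖(A.loc a fun p => u a p / u b p) z‖ ^ 2)) (A.e a p) :=
    (contDiffAt_normSq hg).log (pow_ne_zero _ (norm_ne_zero_iff.2 hg0))
  have e : A.wt u ψ a =ᶠ[𝓝 (A.e a p)] fun z => A.wt u ψ b (A.tr a b z) +
      Real.log (‖(A.loc a fun p => u a p / u b p) z‖ ^ 2) := by
    filter_upwards [(A.isOpen_ov a b).mem_nhds hz] with z hz'
    have g1 := norm_ne_zero_iff.2 (hu.ne a _ ((A.e a).map_target hz'.1))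
    have g2 := norm_ne_zero_iff.2 (hu.ne b _ hz'.2)
    rw [Atl.wt, Atl.wt, A.loc_tr a b _ hz']
    simp only [Atl.loc, norm_div, Real.log_pow]
    rw [Real.log_div g1 g2]; ring
  rw [Lev_congr e, Lev_add hw' hl, Lev_log_normSq hg hg0, add_zero, Lev_comp_hol hw hT, ht]

variable (P)

theorem exists_dom_fs {K : Set X} (hK : IsCompact K) (hKa : K ⊆ (A.e a).source)
    {q : Cn n → Cn n → ℝ}
    (hq : ContinuousOn (fun x : Cn n × Cn n => q x.1 x.2) ((A.e a).target ×ˢ univ))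
    (hq2 : ∀ z ∈ (A.e a).target, ∀ (c : ℂ) ξ, q z (c • ξ) = ‖c‖ ^ 2 * q z ξ) :
    ∃ C > (0 : ℝ), ∀ p ∈ K, ∀ ξ, q (A.e a p) ξ ≤ C * Lv P (fun _ => 0) 1 a p ξ := by
  have hs : A.e a '' K ⊆ (A.e a).target := by
    rintro _ ⟨p, hp, rfl⟩; exact (A.e a).map_source (hKa hp)
  have hl : ContDiffOn ℝ ∞ (A.loc a fun q => Real.log (‖P.u a q‖ ^ 2)) (A.e a).target :=
    fun z hz => by
      have := lg_at P.gauge ((A.e a).map_target hz)
      rw [(A.e a).right_inv hz] at this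
      exact this.contDiffWithinAt
  obtain ⟨C, hC, h⟩ := exists_dom (hK.image_of_continuousOn ((A.e a).continuousOn.mono hKa))
    (p := Lev (A.loc a fun q => Real.log (‖P.u a q‖ ^ 2))) (q := q)
    ((continuousOn_Lev (A.e a).open_target hl).mono (prod_mono hs subset_rfl))
    (hq.mono (prod_mono hs subset_rfl))
    (by rintro _ ⟨p, hp, rfl⟩ c ξ; exact Lev_smul (lg_at P.gauge (hKa hp)) c)
    (fun z hz => hq2 z (hs hz))
    (by rintro _ ⟨p, hp, rfl⟩ ξ hξ; rw [← Lv_fs P (hKa hp)]; exact Lv_fs_pos P (hKa hp) hξ)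
  exact ⟨C, hC, fun p hp ξ => by rw [Lv_fs P (hKa hp)]; exact h _ ⟨p, hp, rfl⟩ ξ⟩

theorem exists_dzb_le {K : Set X} (hK : IsCompact K) (hKa : K ⊆ (A.e a).source) {χ : X → ℝ}
    (hχ : A.Sm χ) : ∃ C > (0 : ℝ), ∀ p ∈ K, ∀ ξ,
      ‖Db A χ a p ξ‖ ^ 2 ≤ C * Lv P (fun _ => 0) 1 a p ξ := by
  refine exists_dom_fs P hK hKa (q := fun z ξ => ‖dzb ξ (A.loc a fun q => (χ q : ℂ)) z‖ ^ 2)
    ((continuousOn_dzb (A.e a).open_target
      (Complex.ofRealCLM.contDiff.comp_contDiffOn (hχ a))).norm.pow 2) fun z _ c ξ => ?_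
  simp only [dzb_smul, norm_mul, mul_pow, Complex.norm_conj]

theorem exists_semipos [CompactSpace X] [MeasurableSpace X] (M : Model n X) (P : Pol M.toAtl)
    {v : M.ι → X → ℂ} (hv : M.IsGauge v) : ∃ m0 : ℕ, ∀ a, ∀ p ∈ (M.e a).source, ∀ ξ,
      0 ≤ Lev (M.wt (P.u ^ m0 * v) (fun _ => 0) a) (M.e a p) ξ := by
  have hw : ∀ a, ContDiffOn ℝ ∞ (M.wt v (fun _ => 0) a) (M.e a).target := fun a z hz => by
    have := wt_at hv (sm_const 0) ((M.e a).map_target hz)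
    rw [(M.e a).right_inv hz] at this
    exact this.contDiffWithinAt
  have h : ∀ a, ∃ C > (0 : ℝ), ∀ p ∈ tsupport (M.ρ a), ∀ ξ,
      -Lev (M.wt v (fun _ => 0) a) (M.e a p) ξ ≤ C * Lv P (fun _ => 0) 1 a p ξ := fun a =>
    exists_dom_fs P (isClosed_tsupport _).isCompact (M.ρ_supp a)
      (q := fun z ξ => -Lev (M.wt v (fun _ => 0) a) z ξ)
      (continuousOn_Lev (M.e a).open_target (hw a)).neg fun z hz c ξ => by
        rw [Lev_smul ((hw a).contDiffAt ((M.e a).open_target.mem_nhds hz))]; ring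
  choose C hC h using h
  obtain ⟨m0, hm⟩ := exists_nat_ge (∑ a, C a)
  refine ⟨m0, fun a p hp ξ => ?_⟩
  obtain ⟨b, hb⟩ : ∃ b, M.ρ b p ≠ 0 := by
    by_contra hn
    push Not at hn
    have := M.ρ_sum p
    simp [hn] at this
  have hb1 : p ∈ tsupport (M.ρ b) := subset_tsupport _ hb
  have hb2 := M.ρ_supp b hb1
  rw [Lev_chart ((P.gauge.pow m0).mul hv) (sm_const 0) hp hb2]
  generalize fderiv ℂ (M.tr a b) (M.e a p) ξ = η
  have h1 := wt_pow_mul P (ξ := η) hv (sm_const 0) 0 m0 hb2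
  have h2 := Lv_split P (ξ := η) (sm_const 0) 0 m0 hb2
  have h3 := Lv_const_mul P (ξ := η) (sm_const 0) 0 1 hb2
  simp only [zero_add, pow_zero, one_mul, zero_mul] at h1 h2 h3
  have h4 : C b ≤ m0 :=
    (Finset.single_le_sum (fun a _ => (hC a).le) (Finset.mem_univ b)).trans hm
  have h5 := mul_le_mul_of_nonneg_right h4 (Lv_fs_nonneg P (ξ := η) hb2)
  rw [h1, h2, h3]
  linarith [h b p hb1 η]

end Vale.Agent.P271A
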